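import Vale.Agent.P201.VK

namespace Vale.Agent.P201

open Finset Equiv

variable {Gen D V G M : Type} [Group G] [AddCommGroup M]

theorem chs_shift (m : D → G) (η η' : G × D → M) (g : G) (h : ∀ c t, η (g * c, t) = η' (c, t))
    (l : List D) : ∀ c, chs m η (g * c) l = chs m η' c l := by
  induction l with
  | nil => intro c; rfl
  | cons t l ih => intro c; simp only [chs, mul_assoc, ih, h]

theorem chs_sum {ι : Type} (s : Finset ι) (m : D → G) (η : ι → G × D → M) (l : List D) :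
    ∀ c, ∑ i ∈ s, chs m (η i) c l = chs m (fun p => ∑ i ∈ s, η i p) c l := by
  induction l with
  | nil => intro c; simp [chs]
  | cons t l ih => intro c; simp only [chs, sum_add_distrib, ih]

/-- the standing hypotheses -/
structure Hyp (Γ : LG Gen D V G) (π : FreeGroup Gen →* G) (root : V) : Prop where
  ne : Nonempty D
  sur : Function.Surjective π
  hπ : ∀ s, Γ.lt s = π (ltr s)
  hc : ∀ v l, IsPath Γ.src Γ.rev v l v → π (Γ.wd l) = 1
  hN : ∀ W, π W = 1 → ∃ Z, Γ.Cl Z ∧ Γ.val Z = W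
  hM : ∀ R : RM Γ.src Γ.lab Γ.rev root, R.A ⊆ R.B → R.A = ∅

variable {Γ : LG Gen D V G} {π : FreeGroup Gen →* G} {root : V}

theorem LG.wd_cons (t : D) (l : List D) : Γ.wd (t :: l) = ltr (Γ.lab t) * Γ.wd l := mk_cons _ _

theorem LG.wd_nil : Γ.wd [] = 1 := rfl

theorem LG.wd_append (l l' : List D) : Γ.wd (l ++ l') = Γ.wd l * Γ.wd l' := by
  simp [LG.wd]

theorem LG.wd_rev (l : List D) : Γ.wd (l.reverse.map Γ.rev) = (Γ.wd l)⁻¹ := by
  induction l with
  | nil => simp [LG.wd_nil]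
  | cons t l ih =>
    rw [List.reverse_cons, List.map_append, LG.wd_append, ih]
    simp [LG.wd_cons, LG.wd_nil, Γ.lr, mk_iv]

/-- inverse certificate -/
def LG.inv (Γ : LG Gen D V G) (Z : List (FreeGroup Gen × List D)) :
    List (FreeGroup Gen × List D) := Z.reverse.map fun p => (p.1, p.2.reverse.map Γ.rev)

theorem LG.val_append (Z Z' : List (FreeGroup Gen × List D)) :
    Γ.val (Z ++ Z') = Γ.val Z * Γ.val Z' := by simp [LG.val]

theorem LG.Cl.append {Z Z' : List (FreeGroup Gen × List D)} (h : Γ.Cl Z) (h' : Γ.Cl Z') :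
    Γ.Cl (Z ++ Z') := fun p hp => (List.mem_append.1 hp).elim (h p) (h' p)

theorem LG.Cl.inv {Z : List (FreeGroup Gen × List D)} (h : Γ.Cl Z) : Γ.Cl (Γ.inv Z) := by
  intro p hp
  obtain ⟨q, hq, rfl⟩ := List.mem_map.1 hp
  obtain ⟨v, hv⟩ := h q (List.mem_reverse.1 hq)
  exact ⟨v, hv.reverse Γ.rr⟩

theorem LG.val_inv (Z : List (FreeGroup Gen × List D)) : Γ.val (Γ.inv Z) = (Γ.val Z)⁻¹ := by
  induction Z with
  | nil => simp [LG.val, LG.inv]
  | cons p Z ih =>
    rw [LG.inv, List.reverse_cons, List.map_append, LG.val_append, ← LG.inv, ih]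
    simp only [LG.val, List.map_cons, List.map_nil, LG.wd_rev]
    simp [mul_assoc]

theorem LG.val_conj (a : FreeGroup Gen) (Z : List (FreeGroup Gen × List D)) :
    Γ.val (Z.map fun p => (a * p.1, p.2)) = a * Γ.val Z * a⁻¹ := by
  induction Z with
  | nil => simp [LG.val]
  | cons p Z ih =>
    simp only [LG.val, List.map_cons, List.prod_cons] at ih ⊢
    rw [ih]; group

namespace Hyp

variable (H : Hyp Γ π root)
include H

theorem prod (l : List D) : (l.map (Γ.lt ∘ Γ.lab)).prod = π (Γ.wd l) := by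
  induction l with
  | nil => simp [LG.wd_nil]
  | cons t l ih => rw [List.map_cons, List.prod_cons, ih, LG.wd_cons, map_mul, ← H.hπ]; rfl

theorem chs_rev {η : G × D → M} (hη : Γ.Anti η) (l : List D) : ∀ c,
    chs (Γ.lt ∘ Γ.lab) η (c * π (Γ.wd l)) (l.reverse.map Γ.rev) = - chs (Γ.lt ∘ Γ.lab) η c l := by
  induction l with
  | nil => intro c; simp [chs]
  | cons t l ih =>
    intro c
    rw [List.reverse_cons, List.map_append, chs_append, H.prod, LG.wd_rev, LG.wd_cons, map_mul,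
      ← H.hπ, ← mul_assoc, ih]
    simp [chs, hη c t]

theorem uniq {η : G × D → M} (hη : Γ.Anti η) {Z Z' : List (FreeGroup Gen × List D)}
    (h : Γ.Cl Z) (h' : Γ.Cl Z') (e : Γ.val Z = Γ.val Z') (c : G) :
    Γ.ev π η c Z = Γ.ev π η c Z' := by
  obtain ⟨w, rfl⟩ := H.sur c
  obtain ⟨t0⟩ := H.ne
  have := vk t0 H.hπ hη H.hc H.hM (h.append h'.inv) (l := []) rfl
    (by rw [LG.val_append, LG.val_inv, e, LG.wd_nil]; simp) (map_one π) w
  have b : Γ.ev π η (π w) (Γ.inv Z') = - Γ.ev π η (π w) Z' := by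
    simp only [LG.ev, LG.inv, List.map_map, List.map_reverse, List.sum_reverse, List.sum_neg]
    congr 1
    refine List.map_congr_left fun p hp => ?_
    obtain ⟨v, hv⟩ := h' p hp
    have := H.chs_rev hη p.2 (π w * π p.1)
    rw [H.hc _ _ hv, mul_one] at this
    simpa using this
  simp only [LG.ev, List.map_append, List.sum_append, chs, add_zero] at this b ⊢
  rw [b] at this
  exact add_neg_eq_zero.1 this

theorem tele (β : G × V → M) (l : List D) : ∀ c u v, IsPath Γ.src Γ.rev u l v →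
    chs (Γ.lt ∘ Γ.lab) (fun p => β (p.1 * Γ.lt (Γ.lab p.2), Γ.src (Γ.rev p.2)) - β (p.1, Γ.src p.2))
      c l = β (c * π (Γ.wd l), v) - β (c, u) := by
  induction l with
  | nil => rintro c u v rfl; simp [chs, LG.wd_nil]
  | cons t l ih =>
    rintro c u v ⟨rfl, h⟩
    rw [chs, ih _ _ _ h, LG.wd_cons, map_mul, ← H.hπ, ← mul_assoc]
    simp

theorem tele0 (β : G × V → M) {Z : List (FreeGroup Gen × List D)} (h : Γ.Cl Z) (c : G) :
    Γ.ev π (fun p => β (p.1 * Γ.lt (Γ.lab p.2), Γ.src (Γ.rev p.2)) - β (p.1, Γ.src p.2)) c Z = 0 := by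
  refine List.sum_eq_zero fun x hx => ?_
  obtain ⟨p, hp, rfl⟩ := List.mem_map.1 hx
  obtain ⟨v, hv⟩ := h p hp
  rw [H.tele β _ _ _ _ hv, H.hc _ _ hv, mul_one, sub_self]

theorem sep {u : V} {l : List D} (hl : IsPath Γ.src Γ.rev u l root) (h : π (Γ.wd l) = 1) :
    u = root := by
  classical
  obtain ⟨Z, a, b⟩ := H.hN (Γ.wd l)⁻¹ (by rw [map_inv, h, inv_one])
  obtain ⟨t0⟩ := H.ne
  let β : G × V → ℤ := fun p => if p.2 = root then 1 else 0
  have := vk (η := fun p => β (p.1 * Γ.lt (Γ.lab p.2), Γ.src (Γ.rev p.2)) - β (p.1, Γ.src p.2))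
    t0 H.hπ (fun g t => by simp [β, Γ.rr]) H.hc H.hM a hl (by simp [b]) h 1
  rw [H.tele0 β a, H.tele β _ _ _ _ hl] at this
  by_contra hc
  simp [β, hc] at this

theorem exists_gv : ∃ gv : V → G, ∀ u l v, IsPath Γ.src Γ.rev u l v → gv v = gv u * π (Γ.wd l) := by
  let r : Setoid V := ⟨fun u v => ∃ l, IsPath Γ.src Γ.rev u l v, fun u => ⟨[], rfl⟩,
    fun ⟨_, h⟩ => ⟨_, h.reverse Γ.rr⟩, fun ⟨_, h⟩ ⟨_, h'⟩ => ⟨_, h.append h'⟩⟩
  choose p hp using fun v => Quotient.mk_out (s := r) v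
  refine ⟨fun v => π (Γ.wd (p v)), fun u l v h => ?_⟩
  have e : Quotient.mk r u = Quotient.mk r v := Quotient.sound ⟨l, h⟩
  have := H.hc _ _ (((hp u).append h).append (e ▸ (hp v).reverse Γ.rr))
  rw [LG.wd_append, LG.wd_append, LG.wd_rev, map_mul, map_mul, map_inv, mul_inv_eq_one] at this
  exact this.symm

end Hyp

/-- sum of a cochain on the Cayley graph along an element of the free group -/
def wkF (lt : Gen × Bool → G) (hl : ∀ s, lt (iv s) = (lt s)⁻¹) (ξ : G × (Gen × Bool) → M)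
    (hξ : ∀ c s, ξ (c * lt s, iv s) = - ξ (c, s)) (c : G) : FreeGroup Gen → M :=
  Quot.lift (chs lt ξ c) (by
    rintro _ _ @⟨L1, L2, x, b⟩
    have a := hl (x, b)
    have e := hξ (c * (L1.map lt).prod) (x, b)
    simp only [iv] at a e
    simp [chs_append, chs, a, e])

namespace Hyp

variable (H : Hyp Γ π root) {ξ : G × (Gen × Bool) → M} (hξ : ∀ c s, ξ (c * Γ.lt s, iv s) = - ξ (c, s))
include H

theorem wk_mul (c : G) (a b : FreeGroup Gen) :
    wkF Γ.lt Γ.lti ξ hξ c (a * b) = wkF Γ.lt Γ.lti ξ hξ c a + wkF Γ.lt Γ.lti ξ hξ (c * π a) b := by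
  induction a using Quot.ind with
  | _ L =>
  induction b using Quot.ind with
  | _ L' =>
  have : ∀ L : List (Gen × Bool), (L.map Γ.lt).prod = π (FreeGroup.mk L) := by
    intro L
    induction L with
    | nil => simp [← FreeGroup.one_eq_mk]
    | cons t l ih => rw [List.map_cons, List.prod_cons, ih, mk_cons, map_mul, ← H.hπ]
  rw [FreeGroup.quot_mk_eq_mk, ← this]
  exact chs_append _ _ _ _ _

theorem wk_val {Z : List (FreeGroup Gen × List D)} (h : Γ.Cl Z) (c : G) :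
    wkF Γ.lt Γ.lti ξ hξ c (Γ.val Z) = Γ.ev π (fun p => ξ (p.1, Γ.lab p.2)) c Z := by
  induction Z with
  | nil => rfl
  | cons p Z ih =>
    obtain ⟨v, hv⟩ := h p (by simp)
    have a := H.wk_mul hξ c p.1 p.1⁻¹
    have b : ∀ l c, wkF Γ.lt Γ.lti ξ hξ c (Γ.wd l) =
        chs (Γ.lt ∘ Γ.lab) (fun p => ξ (p.1, Γ.lab p.2)) c l := by
      intro l
      induction l with
      | nil => intro c; rfl
      | cons t l ih => intro c; rw [chs, ← ih]; rfl
    rw [mul_inv_cancel] at a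
    change 0 = _ at a
    have ih := ih fun q hq => h q (by simp [hq])
    simp only [LG.val, LG.ev, List.map_cons, List.prod_cons, List.sum_cons] at ih ⊢
    rw [H.wk_mul, H.wk_mul, H.wk_mul, b]
    simp only [map_mul, H.hc _ _ hv, mul_one, map_inv, mul_inv_cancel, ih]
    rw [add_right_comm (wkF _ _ _ _ _ _), ← a, zero_add]

end Hyp

theorem exists_kappa (g : G) : ∃ κ : G → ZMod (orderOf g), ∀ x, κ (g * x) = κ x + 1 := by
  let r := QuotientGroup.rightRel (Subgroup.zpowers g)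
  have : ∀ x : G, ∃ k : ℤ, g ^ k = x * (Quotient.mk r x).out⁻¹ := fun x =>
    Subgroup.mem_zpowers_iff.1 (QuotientGroup.rightRel_apply.1 (Quotient.mk_out (s := r) x))
  choose k hk using this
  refine ⟨fun x => k x, fun x => ?_⟩
  have e : Quotient.mk r x = Quotient.mk r (g * x) :=
    Quotient.sound (QuotientGroup.rightRel_apply.2 (by simp))
  have : g ^ k (g * x) = g ^ (k x + 1) := by
    rw [add_comm, zpow_add, hk, hk, ← e]; simp [mul_assoc]
  have := (ZMod.intCast_eq_intCast_iff _ _ _).2 (zpow_eq_zpow_iff_modEq.1 this)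
  simpa using this

theorem Hyp.torsionFree (H : Hyp Γ π root) (g : G) (hg : IsOfFinOrder g) : g = 1 := by
  classical
  obtain ⟨κ, hκ⟩ := exists_kappa g
  obtain ⟨gv, hgv⟩ := H.exists_gv
  obtain ⟨w, rfl⟩ := H.sur g
  obtain ⟨Z, hZ, hv⟩ := H.hN (w ^ orderOf (π w)) (by rw [map_pow, pow_orderOf_eq_one])
  rw [← orderOf_eq_one_iff]
  have hpos := hg.orderOf_pos
  generalize orderOf (π w) = n at *
  have : NeZero n := ⟨hpos.ne'⟩
  have g1 : ∀ c t, c * Γ.lt (Γ.lab t) * (gv (Γ.src (Γ.rev t)))⁻¹ = c * (gv (Γ.src t))⁻¹ := by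
    intro c t
    rw [hgv (Γ.src t) [t] _ ⟨rfl, rfl⟩, LG.wd_cons, LG.wd_nil, mul_one, ← H.hπ]; group
  let ξ : ZMod n → G × (Gen × Bool) → ZMod n := fun k p =>
    if κ (if p.2.2 then p.1 else p.1 * Γ.lt p.2) = k then κ (p.1 * Γ.lt p.2) - κ p.1 else 0
  have hξ : ∀ k c s, ξ k (c * Γ.lt s, iv s) = - ξ k (c, s) := by
    intro k c s
    simp only [ξ, Γ.lti, mul_inv_cancel_right]
    rcases s with ⟨x, _ | _⟩ <;> simp [iv] <;> split_ifs <;> simp
  have sξ : ∀ k c s, ξ (k + 1) (π w * c, s) = ξ k (c, s) := by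
    intro k c s
    rcases s with ⟨x, _ | _⟩ <;> simp [ξ, mul_assoc, hκ]
  let η : ZMod n → ZMod n → G × D → ZMod n := fun k j p =>
    if κ (p.1 * (gv (Γ.src p.2))⁻¹) = j then ξ k (p.1, Γ.lab p.2) else 0
  have hη : ∀ k j, Γ.Anti (η k j) := by
    intro k j c t
    simp only [η, g1, Γ.lr, hξ]
    split_ifs <;> simp
  have s1 : ∀ k j, Γ.ev π (η (k + 1) (j + 1)) 1 Z = Γ.ev π (η k j) 1 Z := by
    intro k j
    rw [H.uniq (hη _ _) hZ (Z' := Z.map fun p => (w * p.1, p.2)) (fun p hp => by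
      obtain ⟨q, hq, rfl⟩ := List.mem_map.1 hp
      exact hZ q hq) (by rw [LG.val_conj, hv]; group)]
    simp only [LG.ev, List.map_map, one_mul]
    congr 1
    refine List.map_congr_left fun p _ => ?_
    simp only [Function.comp, map_mul]
    exact chs_shift _ _ _ _ (fun c t => by simp [η, mul_assoc, hκ, sξ]) _ _
  have s2 : ∀ (m : ℕ) k j, Γ.ev π (η (k + m) (j + m)) 1 Z = Γ.ev π (η k j) 1 Z := by
    intro m k j
    induction m with
    | zero => simp
    | succ m ih => rw [Nat.cast_succ, ← add_assoc, ← add_assoc, s1, ih]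
  have es : ∀ f : ZMod n → G × D → ZMod n,
      ∑ k, Γ.ev π (f k) 1 Z = Γ.ev π (fun p => ∑ k, f k p) 1 Z := by
    intro f
    simp only [LG.ev, ← chs_sum]
    generalize Z = Y
    induction Y with
    | nil => simp
    | cons p Y ih => simp only [List.map_cons, List.sum_cons, sum_add_distrib, ih]
  have a1 : ∑ k, Γ.ev π (η k 0) 1 Z = 0 := by
    refine (es _).trans (Eq.trans ?_
      (H.tele0 (fun p => if κ (p.1 * (gv p.2)⁻¹) = 0 then κ p.1 else 0) hZ 1))
    congr 1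
    funext p
    simp only [η, g1, ξ]
    split_ifs <;> simp
  have a2 : ∑ j, Γ.ev π (η 0 j) 1 Z = wkF Γ.lt Γ.lti _ (hξ 0) 1 (w ^ n) := by
    rw [es, ← hv, H.wk_val _ hZ]
    congr 1
    funext p
    simp [η]
  have a3 : ∀ (m : ℕ) k, wkF Γ.lt Γ.lti _ (hξ (k + m)) (π w ^ m) w =
      wkF Γ.lt Γ.lti _ (hξ k) 1 w := by
    intro m k
    induction m with
    | zero => simp
    | succ m ih =>
      rw [← ih, pow_succ']
      induction w using Quot.ind with
      | _ L => exact chs_shift _ _ _ _ (fun c t => by rw [Nat.cast_succ, ← add_assoc]; exact sξ _ _ _) _ _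
  have a4 : ∀ m : ℕ, wkF Γ.lt Γ.lti _ (hξ 0) 1 (w ^ m) =
      ∑ i ∈ range m, wkF Γ.lt Γ.lti _ (hξ (-i)) 1 w := by
    intro m
    induction m with
    | zero => rfl
    | succ m ih =>
      rw [pow_succ, H.wk_mul, ih, sum_range_succ, ← a3 m (-m)]
      simp
  have a5 : ∑ k, wkF Γ.lt Γ.lti _ (hξ k) 1 w = 1 := by
    have : ∀ (L : List (Gen × Bool)) c, chs Γ.lt (fun p => ∑ k, ξ k p) c L =
        κ (c * π (FreeGroup.mk L)) - κ c := by
      intro L
      induction L with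
      | nil => intro c; simp [chs, ← FreeGroup.one_eq_mk]
      | cons s L ih =>
        intro c
        rw [chs, ih, mk_cons, map_mul, ← H.hπ, ← mul_assoc]
        simp [ξ]
    induction w using Quot.ind with
    | _ L =>
      refine (chs_sum _ _ _ _ _).trans ((this L 1).trans ?_)
      have := hκ 1
      rw [mul_one] at this
      rw [one_mul]
      exact sub_eq_of_eq_add' this
  have a6 : ∀ f : ZMod n → ZMod n, ∑ i ∈ range n, f (-i) = ∑ k, f k := by
    intro f
    rw [← Equiv.sum_comp (Equiv.neg _) f]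
    refine sum_nbij' (fun i => (i : ZMod n)) ZMod.val (by simp) (by simp [ZMod.val_lt]) ?_
      (by simp) (by simp)
    intro i hi
    exact ZMod.val_cast_of_lt (mem_range.1 hi)
  have a7 : ∑ j, Γ.ev π (η 0 j) 1 Z = ∑ k, Γ.ev π (η k 0) 1 Z := by
    rw [← Equiv.sum_comp (Equiv.neg _)]
    refine sum_congr rfl fun k _ => ?_
    rw [← s2 k.val]; simp
  rw [a1, a2, a4, a6 fun k => wkF Γ.lt Γ.lti _ (hξ k) 1 w, a5] at a7
  exact ZMod.subsingleton_iff.1 (subsingleton_of_zero_eq_one a7.symm)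

end Vale.Agent.P201
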