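import Mathlib

namespace Vale.Agent.P201

open Finset

/-- formal inverse of a letter -/
def iv {Gen : Type} (s : Gen × Bool) : Gen × Bool := (s.1, !s.2)

@[simp] theorem iv_iv {Gen : Type} (s : Gen × Bool) : iv (iv s) = s := by
  simp [iv]

theorem iv_ne {Gen : Type} (s : Gen × Bool) : iv s ≠ s := by
  rcases s with ⟨a, b⟩; cases b <;> simp [iv]

theorem iv_inj {Gen : Type} {s t : Gen × Bool} (h : iv s = iv t) : s = t := by
  rw [← iv_iv s, h, iv_iv]

/-- genus-zero property (mod 2 cycles bound) of the combinatorial map with face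
permutation `φ` and edge involution `α` -/
def Planar (φ α : Equiv.Perm ℕ) : Prop :=
  ∀ b : ℕ → ZMod 2, (∀ d, b (α d) + b (φ (α d)) = b d + b (φ d)) →
    ∃ k : ℕ → ZMod 2, (∀ d, k (φ d) = k d) ∧ ∀ d, b (φ (α d)) + k (φ (α d)) = b d + k d

/-- numerical data on the alphabet -/
structure Alph (Gen : Type) [Fintype Gen] [DecidableEq Gen] where
  p : Gen × Bool → Gen × Bool → ℝ
  f : Gen × Bool → ℝ
  r : ℝ
  r_lt : r < 1
  p_pos : ∀ t s, 0 < p t s
  p_sq : ∀ t s, p t s ^ 2 ≤ r
  p_symm : ∀ t s, p t s = p s t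
  f_ge : ∀ s, 1 ≤ f s
  row : ∀ t, ∑ s ∈ univ.erase t, p t s ^ 2 * f (iv s) ≤ r * f t

/-- a typed vertex set -/
structure Lay {Gen : Type} [Fintype Gen] [DecidableEq Gen] (A : Alph Gen) (C Bd : ℕ)
    (V : Type) [Fintype V] [DecidableEq V] where
  ty : V → Finset (Gen × Bool)
  side : V → Bool
  a0 : V
  c0 : V
  n : ℕ
  side_a0 : side a0 = true
  side_c0 : side c0 = false
  even_a0 : Even (ty a0).card
  odd : ∀ v w, ¬ (v = a0 ∧ w = a0) → Odd (ty v ∩ ty w).card
  bal : ∀ b s, (univ.filter fun v => side v = b ∧ s ∈ ty v).card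
    = (univ.filter fun v => side v = b ∧ iv s ∈ ty v).card
  big : ∀ b s, n + Bd ≤ (univ.filter fun v => side v = b ∧ s ∈ ty v).card
  two : ∀ b t s, t ≠ s →
    ((univ.filter fun v => side v = b ∧ t ∈ ty v ∧ s ∈ ty v).card : ℝ) ≤ A.p t s * n
  card_le : Fintype.card V ≤ C * n
  n_le : n ≤ C * Bd
  n_pos : 1 ≤ n

section paths
variable {Dt V : Type} (src : Dt → V) (rev : Dt → Dt)

/-- `l` is a path from `u` to `v` -/
def IsPath : V → List Dt → V → Prop
  | u, [], v => u = v
  | u, t :: l, v => src t = u ∧ IsPath (src (rev t)) l v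

/-- no backtracking -/
def Red (l : List Dt) : Prop := l.IsChain (fun a b => b ≠ rev a)

/-- no short closed reduced path -/
def Girth (g : ℕ) : Prop :=
  ∀ u l, IsPath src rev u l u → Red rev l → l.length < g → l = []

end paths

end Vale.Agent.P201
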