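import Vale.Agent.P201.Good2

set_option linter.unusedSectionVars false

namespace Vale.Agent.P201

open Finset Equiv

section walks
variable {Dt V : Type} {src : Dt → V} {ρ : Dt → Dt}

theorem uniq_path (hr : ∀ t, ρ (ρ t) = t) {g : ℕ} (hg : Girth src ρ g) {l : List Dt} :
    ∀ {l' : List Dt} {u v : V}, IsPath src ρ u l v → IsPath src ρ u l' v → Red ρ l → Red ρ l' →
      l.length + l'.length < g → l = l' := by
  induction l with
  | nil =>
    intro l' u v h1 h2 _ h4 h5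
    obtain rfl : u = v := h1
    exact (hg u l' h2 h4 (by simpa using h5)).symm
  | cons t l ih =>
    intro l' u v h1 h2 h3 h4 h5
    cases l' with
    | nil =>
      obtain rfl : u = v := h2
      exact hg u _ h1 h3 (by simpa using h5)
    | cons t' l' =>
      by_cases h : t = t'
      · subst h
        rw [ih h1.2 h2.2 h3.tail h4.tail (by simp at h5; omega)]
      · have := hg v _ ((h1.reverse hr).append h2) ?_ (by simp at h5 ⊢; omega)
        · simp at this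
        · unfold Red
          refine List.IsChain.append (h3.reverse hr) h4 ?_
          intro a ha b hb
          simp at ha hb
          rw [← ha, ← hb, hr]
          exact fun e => h e.symm

/-- a reduced walk of length `k` -/
def Wk (src : Dt → V) (ρ : Dt → Dt) (p : ℕ → Dt) (k : ℕ) : Prop :=
  ∀ i, i + 1 < k → src (p (i + 1)) = src (ρ (p i)) ∧ p (i + 1) ≠ ρ (p i)

theorem Wk.path {k : ℕ} : ∀ {p : ℕ → Dt}, Wk src ρ p (k + 1) →
    IsPath src ρ (src (p 0)) ((List.range (k + 1)).map p) (src (ρ (p k))) ∧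
      Red ρ ((List.range (k + 1)).map p) := by
  induction k with
  | zero => intro p _; simp [Red]
  | succ k ih =>
    intro p h
    have := ih (p := fun i => p (i + 1)) fun i hi => h (i + 1) (by omega)
    rw [List.range_succ_eq_map, List.map_cons, List.map_map]
    refine ⟨⟨rfl, ?_⟩, ?_⟩
    · rw [← (h 0 (by omega)).1]; exact this.1
    · unfold Red
      rw [List.isChain_cons]
      refine ⟨?_, this.2⟩
      intro y hy
      rw [List.range_succ_eq_map] at hy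
      simp at hy
      rw [← hy]; exact (h 0 (by omega)).2

theorem Wk.not_closed {g k : ℕ} (hg : Girth src ρ g) {p : ℕ → Dt} (h : Wk src ρ p (k + 1))
    (hk : k + 1 < g) : src (ρ (p k)) ≠ src (p 0) := fun e => by
  have := hg _ _ (e ▸ h.path.1) h.path.2 (by simpa using hk)
  simp at this

theorem Wk.uniq (hr : ∀ t, ρ (ρ t) = t) {g k k' : ℕ} (hg : Girth src ρ g) {p q : ℕ → Dt}
    (hp : Wk src ρ p (k + 1)) (hq : Wk src ρ q (k' + 1)) (h0 : src (p 0) = src (q 0))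
    (h1 : src (ρ (p k)) = src (ρ (q k'))) (hk : k + 1 + (k' + 1) < g) :
    k = k' ∧ ∀ i ≤ k, p i = q i := by
  have := uniq_path hr hg hp.path.1 (h0 ▸ h1 ▸ hq.path.1) hp.path.2 hq.path.2 (by simpa using hk)
  have hl := congrArg List.length this
  simp only [List.length_map, List.length_range] at hl
  obtain rfl : k = k' := by omega
  refine ⟨rfl, fun i hi => ?_⟩
  exact List.map_inj_left.1 this i (List.mem_range.2 (by omega))

theorem Wk.rev (hr : ∀ t, ρ (ρ t) = t) {k : ℕ} {p : ℕ → Dt} (h : Wk src ρ p (k + 1)) :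
    Wk src ρ (fun i => ρ (p (k - i))) (k + 1) := by
  intro i hi
  have := h (k - (i + 1)) (by omega)
  rw [show k - (i + 1) + 1 = k - i by omega] at this
  simp only [hr]
  exact ⟨this.1.symm, fun e => this.2 (by rw [← e])⟩

end walks

/-- a bounded piece of a reduced diagram -/
structure Cf (Gen V Dt : Type) where
  src : Dt → V
  lab : Dt → Gen × Bool
  ρ : Dt → Dt
  root : V
  g : ℕ
  φ : Perm ℕ
  α : Perm ℕ
  B : Finset ℕ
  x : ℕ → Dt
  d0 : ℕ
  pc : ℕ → ℕ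
  pos : ℕ → ℕ
  P : ℕ
  X : Finset ℕ
  ρρ : ∀ t, ρ (ρ t) = t
  labρ : ∀ t, lab (ρ t) = iv (lab t)
  fold : ∀ t t', src t = src t' → lab t = lab t' → t = t'
  girth : Girth src ρ g
  Pg : 2 * P + 2 ≤ g
  αα : ∀ d, α (α d) = d
  Bφ : ∀ y, φ y ∈ B ↔ y ∈ B
  glue : ∀ y ∈ B, α y ∈ B → lab (x (α y)) = iv (lab (x y)) ∧ x (α y) ≠ ρ (x y)
  cont : ∀ y ∈ B, φ y ≠ d0 → src (x (φ y)) = src (ρ (x y)) ∧ x (φ y) ≠ ρ (x y)
  root0 : d0 ∈ B → src (x d0) = root
  pos0 : pos d0 = 0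
  step : ∀ y ∈ B, pos (φ y) ≠ 0 → pc (φ y) = pc y ∧ pos (φ y) = pos y + 1
  start : ∀ y ∈ B, pos y = 0 → pc y = y
  lt : ∀ y ∈ B, pos y < P

namespace Cf

variable {Gen V Dt : Type} [DecidableEq V] [DecidableEq Dt] (c : Cf Gen V Dt)

/-- darts of the chosen pieces -/
def W : Finset ℕ := c.B.filter fun y => c.pc y ∈ c.X

theorem mem_W {y : ℕ} : y ∈ c.W ↔ y ∈ c.B ∧ c.pc y ∈ c.X := by simp [W]

theorem ρ_ne (t : Dt) : c.ρ t ≠ t := fun h => iv_ne _ (by rw [← c.labρ, h])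

theorem ρ_inj {t t' : Dt} (h : c.ρ t = c.ρ t') : t = t' := by rw [← c.ρρ t, h, c.ρρ]

theorem cont' {y : ℕ} (hy : y ∈ c.B) (h : c.pos (c.φ y) ≠ 0) :
    c.src (c.x (c.φ y)) = c.src (c.ρ (c.x y)) ∧ c.x (c.φ y) ≠ c.ρ (c.x y) :=
  c.cont y hy fun e => h (e ▸ c.pos0)

theorem back {y : ℕ} (hy : y ∈ c.B) (h : c.pos y ≠ 0) :
    c.φ⁻¹ y ∈ c.B ∧ c.pc (c.φ⁻¹ y) = c.pc y ∧ c.pos (c.φ⁻¹ y) + 1 = c.pos y ∧
      c.src (c.x y) = c.src (c.ρ (c.x (c.φ⁻¹ y))) ∧ c.x y ≠ c.ρ (c.x (c.φ⁻¹ y)) := by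
  have e : c.φ (c.φ⁻¹ y) = y := by simp
  have h1 : c.φ⁻¹ y ∈ c.B := by rw [← c.Bφ, e]; exact hy
  have h2 := c.step _ h1 (by rw [e]; exact h)
  have h3 := c.cont' h1 (by rw [e]; exact h)
  rw [e] at h2 h3
  exact ⟨h1, h2.1.symm, h2.2.symm, h3⟩

theorem coord (j : ℕ) : ∀ y ∈ c.B, c.pos y = j → (c.φ ^ j) (c.pc y) = y ∧
    ∀ i ≤ j, (c.φ ^ i) (c.pc y) ∈ c.B ∧ c.pc ((c.φ ^ i) (c.pc y)) = c.pc y ∧
      c.pos ((c.φ ^ i) (c.pc y)) = i := by
  induction j with
  | zero =>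
    intro y hy h
    have := c.start y hy h
    refine ⟨by simp [this], fun i hi => ?_⟩
    obtain rfl : i = 0 := by omega
    simp [this, hy, h]
  | succ j ih =>
    intro y hy h
    obtain ⟨a, b, e, -⟩ := c.back hy (by omega)
    obtain ⟨i1, i2⟩ := ih _ a (by omega)
    rw [b] at i1 i2
    have : (c.φ ^ (j + 1)) (c.pc y) = y := by rw [pow_succ', Perm.mul_apply, i1]; simp
    refine ⟨this, fun i hi => ?_⟩
    rcases Nat.lt_succ_iff_lt_or_eq.1 (Nat.lt_succ_of_le hi) with h' | rfl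
    · exact i2 i (by omega)
    · rw [this]; exact ⟨hy, rfl, h⟩

theorem coord_eq {y : ℕ} (hy : y ∈ c.B) : (c.φ ^ c.pos y) (c.pc y) = y := (c.coord _ y hy rfl).1

theorem ext_pos {y y' : ℕ} (hy : y ∈ c.B) (hy' : y' ∈ c.B) (h : c.pc y = c.pc y')
    (h' : c.pos y = c.pos y') : y = y' := by
  rw [← c.coord_eq hy, h, h', c.coord_eq hy']

theorem wk {y : ℕ} (hy : y ∈ c.B) (a k : ℕ) (h : a + k ≤ c.pos y + 1) :
    Wk c.src c.ρ (fun i => c.x ((c.φ ^ (a + i)) (c.pc y))) k := by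
  intro i hi
  have h1 := (c.coord _ y hy rfl).2 (a + i) (by omega)
  have h2 := (c.coord _ y hy rfl).2 (a + (i + 1)) (by omega)
  have e : (c.φ ^ (a + (i + 1))) (c.pc y) = c.φ ((c.φ ^ (a + i)) (c.pc y)) := by
    rw [← add_assoc, pow_succ', Perm.mul_apply]
  simp only [e] at h2 ⊢
  exact c.cont' h1.1 (by omega)

theorem no_loop (t : Dt) : c.src (c.ρ t) ≠ c.src t :=
  Wk.not_closed (p := fun _ => t) (k := 0) c.girth (fun i hi => by omega)
    (by have := c.Pg; omega)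

theorem tgt_ne {y y' : ℕ} (hy : y ∈ c.B) (hy' : y' ∈ c.B) (h : c.pc y = c.pc y')
    (hl : c.pos y ≤ c.pos y') : c.src (c.ρ (c.x y')) ≠ c.src (c.x y) := by
  have := (c.wk hy' (c.pos y) (c.pos y' - c.pos y + 1) (by omega)).not_closed c.girth
    (by have := c.lt y' hy'; have := c.Pg; omega)
  simp only [add_zero] at this
  rwa [show c.pos y + (c.pos y' - c.pos y) = c.pos y' by omega, c.coord_eq hy', ← h,
    c.coord_eq hy] at this

theorem src_inj {y y' : ℕ} (hy : y ∈ c.B) (hy' : y' ∈ c.B) (h : c.pc y = c.pc y')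
    (hs : c.src (c.x y) = c.src (c.x y')) : y = y' := by
  have key : ∀ {y y' : ℕ}, y ∈ c.B → y' ∈ c.B → c.pc y = c.pc y' →
      c.src (c.x y) = c.src (c.x y') → ¬ c.pos y < c.pos y' := by
    intro y y' hy hy' h hs hl
    obtain ⟨a, b, e, f, -⟩ := c.back hy' (by omega)
    exact c.tgt_ne hy a (h.trans b.symm) (by omega) (f.symm.trans hs.symm)
  exact c.ext_pos hy hy' h (by
    have := key hy hy' h hs; have := key hy' hy h.symm hs.symm; omega)

theorem edge_inj {y y' : ℕ} (hy : y ∈ c.B) (hy' : y' ∈ c.B) (h : c.pc y = c.pc y')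
    (hs : c.x y' = c.x y ∨ c.x y' = c.ρ (c.x y)) : y = y' := by
  rcases hs with hs | hs
  · exact c.src_inj hy hy' h (by rw [hs])
  · exfalso
    rcases le_total (c.pos y) (c.pos y') with hl | hl
    · exact c.tgt_ne hy hy' h hl (by rw [hs, c.ρρ])
    · exact c.tgt_ne hy' hy h.symm hl (by rw [hs])

/-- two passes through a vertex using the same two edges -/
def Same (y y' : ℕ) : Prop :=
  (c.x y' = c.x y ∧ c.x (c.φ⁻¹ y') = c.x (c.φ⁻¹ y)) ∨
    (c.x y' = c.ρ (c.x (c.φ⁻¹ y)) ∧ c.x (c.φ⁻¹ y') = c.ρ (c.x y))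

theorem inv_pow_succ (k u : ℕ) : c.φ⁻¹ ((c.φ ^ (k + 1)) u) = (c.φ ^ k) u := by
  rw [pow_succ', Perm.mul_apply]; simp

theorem same_of_between {y1 y2 y3 z1 z2 z3 : ℕ} (h1 : y1 ∈ c.B) (h2 : y2 ∈ c.B) (h3 : y3 ∈ c.B)
    (k1 : z1 ∈ c.B) (k2 : z2 ∈ c.B) (k3 : z3 ∈ c.B) (p1 : c.pc y1 = c.pc y3)
    (p2 : c.pc y2 = c.pc y3) (q1 : c.pc z1 = c.pc z3) (q2 : c.pc z2 = c.pc z3)
    (s1 : c.src (c.x y1) = c.src (c.x z1)) (s2 : c.src (c.x y2) = c.src (c.x z2))
    (s3 : c.src (c.x y3) = c.src (c.x z3)) (l1 : c.pos y1 < c.pos y2) (l2 : c.pos y2 < c.pos y3) :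
    c.Same y2 z2 := by
  have b3 := c.lt _ h3
  have b1' := c.lt _ k1
  have b3' := c.lt _ k3
  have hP := c.Pg
  obtain ⟨k, hk⟩ : ∃ k, c.pos y3 = c.pos y1 + k + 1 := ⟨c.pos y3 - c.pos y1 - 1, by omega⟩
  obtain ⟨i, hi⟩ : ∃ i, c.pos y2 = c.pos y1 + i + 1 := ⟨c.pos y2 - c.pos y1 - 1, by omega⟩
  have wp := c.wk h3 (c.pos y1) (k + 1) (by omega)
  have e1 : (c.φ ^ (c.pos y1 + 0)) (c.pc y3) = y1 := by rw [← p1]; exact c.coord_eq h1
  have e2 : (c.φ ^ (c.pos y1 + (i + 1))) (c.pc y3) = y2 := by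
    rw [← p2, ← add_assoc, ← hi]; exact c.coord_eq h2
  have e2' : (c.φ ^ (c.pos y1 + i)) (c.pc y3) = c.φ⁻¹ y2 := by
    rw [← e2, ← add_assoc, c.inv_pow_succ]
  have e3 : c.src (c.ρ (c.x ((c.φ ^ (c.pos y1 + k)) (c.pc y3)))) = c.src (c.x y3) := by
    rw [(c.back h3 (by omega)).2.2.2.1]
    conv_rhs => rw [← c.coord_eq h3, hk, c.inv_pow_succ]
  rcases lt_trichotomy (c.pos z1) (c.pos z3) with l | l | l
  · obtain ⟨k', hk'⟩ : ∃ k, c.pos z3 = c.pos z1 + k + 1 := ⟨c.pos z3 - c.pos z1 - 1, by omega⟩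
    have wq := c.wk k3 (c.pos z1) (k' + 1) (by omega)
    have f1 : (c.φ ^ (c.pos z1 + 0)) (c.pc z3) = z1 := by rw [← q1]; exact c.coord_eq k1
    have f3 : c.src (c.ρ (c.x ((c.φ ^ (c.pos z1 + k')) (c.pc z3)))) = c.src (c.x z3) := by
      rw [(c.back k3 (by omega)).2.2.2.1]
      conv_rhs => rw [← c.coord_eq k3, hk', c.inv_pow_succ]
    obtain ⟨rfl, u⟩ := wp.uniq c.ρρ c.girth wq (by simp only [e1, f1, s1])
      (by simp only [e3, f3, s3]) (by omega)
    have u1 := u (i + 1) (by omega)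
    have u2 := u i (by omega)
    simp only [e2, e2'] at u1 u2
    have m := (c.coord _ z3 k3 rfl).2 (c.pos z1 + (i + 1)) (by omega)
    have : z2 = (c.φ ^ (c.pos z1 + (i + 1))) (c.pc z3) :=
      c.src_inj k2 m.1 (q2.trans m.2.1.symm) (by rw [← s2, u1])
    left
    rw [this, ← add_assoc, c.inv_pow_succ]
    exact ⟨u1.symm, u2.symm⟩
  · have : z1 = z3 := c.ext_pos k1 k3 q1 l
    have : y1 = y3 := c.src_inj h1 h3 p1 (by rw [s1, s3, this])
    rw [this] at l1; omega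
  · obtain ⟨k', hk'⟩ : ∃ k, c.pos z1 = c.pos z3 + k + 1 := ⟨c.pos z1 - c.pos z3 - 1, by omega⟩
    have wq := (c.wk k1 (c.pos z3) (k' + 1) (by omega)).rev c.ρρ
    have f1 : (c.φ ^ (c.pos z3 + 0)) (c.pc z1) = z3 := by rw [q1]; exact c.coord_eq k3
    have f3 : c.src (c.ρ (c.x ((c.φ ^ (c.pos z3 + k')) (c.pc z1)))) = c.src (c.x z1) := by
      rw [(c.back k1 (by omega)).2.2.2.1]
      conv_rhs => rw [← c.coord_eq k1, hk', c.inv_pow_succ]
    obtain ⟨rfl, u⟩ := wp.uniq c.ρρ c.girth wq (by simp only [e1, Nat.sub_zero, f3, s1])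
      (by simp only [e3, Nat.sub_self, f1, s3, c.ρρ]) (by omega)
    have u1 := u (i + 1) (by omega)
    have u2 := u i (by omega)
    simp only [e2, e2'] at u1 u2
    have m := (c.coord _ z1 k1 rfl).2 (c.pos z3 + (k - i)) (by omega)
    have : z2 = (c.φ ^ (c.pos z3 + (k - i))) (c.pc z1) :=
      c.src_inj k2 m.1 (q2.trans (q1.symm.trans m.2.1.symm)) (by
        rw [← s2, (c.back h2 (by omega)).2.2.2.1, u2, c.ρρ])
    right
    rw [u2, u1, c.ρρ, c.ρρ]
    refine ⟨by rw [this], ?_⟩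
    rw [this, show c.pos z3 + (k - i) = c.pos z3 + (k - (i + 1)) + 1 by omega, c.inv_pow_succ]

open Classical in
/-- branching occurrences -/
noncomputable def Br : Finset ℕ :=
  c.W.filter fun y => ∃ z ∈ c.W, c.src (c.x y) = c.src (c.x z) ∧ ¬ c.Same y z

theorem Br_card : c.Br.card ≤ 2 * c.X.card ^ 2 := by
  classical
  let S : ℕ × ℕ → Finset ℕ := fun p => c.B.filter fun y => c.pc y = p.1 ∧
    ∃ z ∈ c.B, c.pc z = p.2 ∧ c.src (c.x y) = c.src (c.x z) ∧ ¬ c.Same y z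
  have h1 : c.Br ⊆ (c.X ×ˢ c.X).biUnion S := by
    intro y hy
    simp only [Br, mem_filter, mem_W] at hy
    obtain ⟨⟨a, b⟩, z, ⟨e, f⟩, h⟩ := hy
    simp only [mem_biUnion, mem_product, S, mem_filter]
    exact ⟨(c.pc y, c.pc z), ⟨b, f⟩, a, rfl, z, e, rfl, h⟩
  have h2 : ∀ p, (S p).card ≤ 2 := by
    intro p
    rcases (S p).eq_empty_or_nonempty with h | h
    · simp [h]
    obtain ⟨y1, a1, b1⟩ := exists_min_image (S p) c.pos h
    obtain ⟨y3, a3, b3⟩ := exists_max_image (S p) c.pos h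
    refine le_trans (card_le_card (t := {y1, y3}) fun y2 a2 => ?_) card_le_two
    have c1 := b1 y2 a2
    have c3 := b3 y2 a2
    simp only [S, mem_filter] at a1 a2 a3
    obtain ⟨h1, p1, z1, k1, q1, s1, -⟩ := a1
    obtain ⟨h2, p2, z2, k2, q2, s2, n2⟩ := a2
    obtain ⟨h3, p3, z3, k3, q3, s3, -⟩ := a3
    by_contra hc
    simp only [mem_insert, mem_singleton, not_or] at hc
    refine n2 (c.same_of_between h1 h2 h3 k1 k2 k3 (by omega) (by omega) (by omega) (by omega)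
      s1 s2 s3 ?_ ?_)
    · exact lt_of_le_of_ne c1 fun e => hc.1 (c.ext_pos h2 h1 (by omega) e.symm)
    · exact lt_of_le_of_ne c3 fun e => hc.2 (c.ext_pos h2 h3 (by omega) e)
  have := (card_le_card h1).trans (card_biUnion_le_card_mul _ _ 2 fun p _ => h2 p)
  rw [card_product] at this
  nlinarith

/-- non-straight corners -/
def NS : Finset ℕ := c.W.filter fun y => c.φ (c.α (c.φ (c.α y))) ≠ y

/-- last darts of pieces -/
def Last : Finset ℕ := c.W.filter fun y => c.pos (c.φ y) = 0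

theorem Last_card : c.Last.card ≤ c.X.card := by
  refine card_le_card_of_injOn c.pc (fun y hy => (c.mem_W.1 (mem_filter.1 hy).1).2) ?_
  have key : ∀ y ∈ c.Last, ∀ z ∈ c.Last, c.pc y = c.pc z → ¬ c.pos y < c.pos z := by
    intro y hy z hz h hl
    simp only [Last, mem_filter, mem_W] at hy hz
    have := ((c.coord _ z hz.1.1 rfl).2 (c.pos y + 1) (by omega)).2.2
    rw [pow_succ', Perm.mul_apply, ← h, c.coord_eq hy.1.1] at this
    omega
  intro y hy z hz h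
  refine c.ext_pos (c.mem_W.1 (mem_filter.1 hy).1).1 (c.mem_W.1 (mem_filter.1 hz).1).1 h ?_
  have := key y hy z hz h
  have := key z hz y hy h.symm
  omega

/-- first darts of pieces -/
def Init : Finset ℕ := c.W.filter fun y => c.pos y = 0

theorem Init_card : c.Init.card ≤ c.X.card := by
  refine card_le_card fun y hy => ?_
  simp only [Init, mem_filter, mem_W] at hy
  rw [← c.start y hy.1.1 hy.2]; exact hy.1.2

/-- exceptional vertices -/
noncomputable def NP : Finset V :=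
  insert c.root ((c.Init ∪ c.NS ∪ c.Br ∪ c.Init.image (fun y => c.α (c.φ⁻¹ y)) ∪
    c.Last.image c.α).image (fun y => c.src (c.x y)) ∪
    c.Last.image fun y => c.src (c.ρ (c.x y)))

theorem NP_card : c.NP.card ≤ 2 * c.X.card ^ 2 + 4 * c.X.card + c.NS.card + 1 := by
  have h1 := c.Br_card
  have h2 := c.Last_card
  have h3 := c.Init_card
  unfold NP
  refine (card_insert_le _ _).trans (Nat.succ_le_succ ?_)
  refine (card_union_le _ _).trans ?_
  have a1 := card_image_le (s := c.Last) (f := fun y => c.src (c.ρ (c.x y)))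
  have a2 := card_image_le (s := c.Init ∪ c.NS ∪ c.Br ∪ c.Init.image (fun y => c.α (c.φ⁻¹ y)) ∪
    c.Last.image c.α) (f := fun y => c.src (c.x y))
  have a3 := card_union_le (c.Init ∪ c.NS ∪ c.Br ∪ c.Init.image (fun y => c.α (c.φ⁻¹ y)))
    (c.Last.image c.α)
  have a4 := card_union_le (c.Init ∪ c.NS ∪ c.Br) (c.Init.image (fun y => c.α (c.φ⁻¹ y)))
  have a5 := card_union_le (c.Init ∪ c.NS) c.Br
  have a6 := card_union_le c.Init c.NS
  have a7 := card_image_le (s := c.Last) (f := c.α)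
  have a8 := card_image_le (s := c.Init) (f := fun y => c.α (c.φ⁻¹ y))
  omega

theorem W_step {y : ℕ} (hy : y ∈ c.B) (h : c.pos (c.φ y) ≠ 0) : c.φ y ∈ c.W ↔ y ∈ c.W := by
  rw [mem_W, mem_W, c.Bφ, (c.step y hy h).1]

theorem plain_src {y : ℕ} (hy : y ∈ c.W) (h : c.src (c.x y) ∉ c.NP) :
    c.pos y ≠ 0 ∧ c.φ⁻¹ y ∈ c.W ∧ c.α (c.φ (c.α y)) = c.φ⁻¹ y ∧
    (c.α y ∈ c.W → c.pos (c.φ (c.α y)) ≠ 0 ∧ c.φ (c.α y) ∈ c.W) ∧
    (c.φ (c.α y) ∈ c.W → c.α y ∈ c.W) ∧
    ∀ z ∈ c.W, c.src (c.x y) = c.src (c.x z) → c.Same y z := by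
  simp only [NP, mem_insert, mem_union, mem_image, not_or, not_exists, not_and] at h
  have h' := fun a => h.2.1 y a rfl
  have h1 : c.pos y ≠ 0 := fun e => h' (by simp [Init, hy, e])
  have hB := (c.mem_W.1 hy).1
  refine ⟨h1, ?_, ?_, ?_, ?_, ?_⟩
  · rw [← c.W_step (c.back hB h1).1 (by simpa using h1)]; simpa using hy
  · by_contra e
    refine h' (Or.inl (Or.inl (Or.inl (Or.inr ?_))))
    simp only [NS, mem_filter, hy, true_and]
    intro e'
    exact e (by rw [Perm.eq_inv_iff_eq]; exact e')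
  · intro ha
    have : c.pos (c.φ (c.α y)) ≠ 0 := fun e =>
      h' (Or.inr ⟨c.α y, by simp [Last, ha, e], c.αα y⟩)
    exact ⟨this, (c.W_step (c.mem_W.1 ha).1 this).2 ha⟩
  · intro ha
    have : c.pos (c.φ (c.α y)) ≠ 0 := fun e =>
      h' (Or.inl (Or.inr ⟨c.φ (c.α y), by simp [Init, ha, e], by simp [c.αα]⟩))
    exact (c.W_step (c.Bφ _ |>.1 (c.mem_W.1 ha).1) this).1 ha
  · intro z hz e
    by_contra hs
    refine h' (Or.inl (Or.inl (Or.inr ?_)))
    simp only [Br, mem_filter]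
    exact ⟨hy, z, hz, e, hs⟩

theorem plain_tgt {y : ℕ} (hy : y ∈ c.W) (h : c.src (c.ρ (c.x y)) ∉ c.NP) :
    c.pos (c.φ y) ≠ 0 ∧ c.φ y ∈ c.W := by
  simp only [NP, mem_insert, mem_union, mem_image, not_or, not_exists, not_and] at h
  have : c.pos (c.φ y) ≠ 0 := fun e => h.2.2 y (by simp [Last, hy, e]) rfl
  exact ⟨this, (c.W_step (c.mem_W.1 hy).1 this).2 hy⟩

theorem root_NP : c.root ∈ c.NP := by simp [NP]

theorem occ_card (v : V) : (c.W.filter fun y => c.src (c.x y) = v).card ≤ c.X.card := by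
  refine card_le_card_of_injOn c.pc (fun y hy => (c.mem_W.1 (mem_filter.1 hy).1).2) ?_
  intro y hy z hz h
  have a := mem_filter.1 hy
  have b := mem_filter.1 hz
  exact c.src_inj (c.mem_W.1 a.1).1 (c.mem_W.1 b.1).1 h (a.2.trans b.2.symm)

theorem occ_card' (S : Finset V) :
    (c.W.filter fun y => c.src (c.x y) ∈ S).card ≤ c.X.card * S.card := by
  have : (c.W.filter fun y => c.src (c.x y) ∈ S) ⊆
      S.biUnion fun v => c.W.filter fun y => c.src (c.x y) = v := by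
    intro y hy
    simp only [mem_filter, mem_biUnion] at hy ⊢
    exact ⟨_, hy.2, hy.1, rfl⟩
  rw [mul_comm]
  exact (card_le_card this).trans (card_biUnion_le_card_mul _ _ _ fun v _ => c.occ_card v)

end Cf

end Vale.Agent.P201
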