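import Vale.Agent.P201.Basic

namespace Vale.Agent.P201

open Finset

/-- an abstract projective plane of order 128 -/
theorem exists_plane0 : ∃ (P : Type) (_ : Fintype P) (_ : DecidableEq P) (inc : P → Finset P),
    Fintype.card P = 16513 ∧ (∀ l l', Odd (inc l ∩ inc l').card) ∧
    (∀ s, (univ.filter fun l => s ∈ inc l).card = 129) ∧
    (∀ s t, s ≠ t → (univ.filter fun l => s ∈ inc l ∧ t ∈ inc l).card ≤ 1) := by
  classical
  haveI : Fact (Nat.Prime 2) := ⟨Nat.prime_two⟩
  let K := GaloisField 2 7
  have hK : Nat.card K = 128 := by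
    have := GaloisField.card 2 7 (by norm_num)
    simpa using this
  haveI : Finite K := Nat.finite_of_card_ne_zero (by rw [hK]; norm_num)
  let P := Projectivization K (Fin 3 → K)
  haveI : Finite P := inferInstance
  letI : Fintype P := Fintype.ofFinite P
  letI : Membership P P := Configuration.ofField.instMembershipProjectivizationForallFinOfNatNat
  letI : Configuration.ProjectivePlane P P :=
    Configuration.ofField.instProjectivePlaneProjectivizationForallFinOfNatNatOfDecidableEq
  have hP : Fintype.card P = 16513 := by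
    have h := Projectivization.card_of_finrank K (Fin 3 → K) (n := 3) (by simp)
    rw [hK] at h
    rw [← Nat.card_eq_fintype_card]
    refine h.trans ?_
    decide
  have hord : Configuration.ProjectivePlane.order P P = 128 := by
    have h := Configuration.ProjectivePlane.card_points P P
    rw [hP] at h
    generalize Configuration.ProjectivePlane.order P P = q at h
    rcases lt_trichotomy q 128 with h1 | h1 | h1
    · nlinarith
    · exact h1
    · nlinarith
  refine ⟨P, inferInstance, inferInstance, fun l => univ.filter fun p => p ∈ l, hP, ?_, ?_, ?_⟩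
  · intro l l'
    by_cases h : l = l'
    · subst h
      have h1 := Configuration.ProjectivePlane.pointCount_eq P l
      rw [hord, Configuration.pointCount, Nat.card_eq_fintype_card, Fintype.card_subtype] at h1
      rw [inter_self, h1]
      decide
    · obtain ⟨p, hp, hu⟩ := Configuration.HasPoints.existsUnique_point P P l l' h
      have : (univ.filter fun p => p ∈ l) ∩ (univ.filter fun p => p ∈ l') = {p} := by
        ext q
        simp only [mem_inter, mem_filter, mem_univ, true_and, mem_singleton]
        exact ⟨fun hq => hu q hq, fun hq => hq ▸ hp⟩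
      rw [this]
      simp
  · intro s
    have h1 := Configuration.ProjectivePlane.lineCount_eq P s
    rw [hord, Configuration.lineCount, Nat.card_eq_fintype_card, Fintype.card_subtype] at h1
    simpa using h1
  · intro s t hst
    obtain ⟨l, _, hu⟩ := Configuration.HasLines.existsUnique_line P P s t hst
    refine card_le_one.2 fun a ha b hb => ?_
    simp only [mem_filter, mem_univ, true_and] at ha hb
    rw [hu a ha, hu b hb]


/-- the extra letters -/
def ex (s : Fin 8260 × Bool) : Prop := s.2 = true ∧ s.1.val < 7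

instance : DecidablePred ex := fun s => inferInstanceAs (Decidable (s.2 = true ∧ s.1.val < 7))

/-- the embedding of the seven extra letters -/
def exE (i : Fin 7) : Fin 8260 × Bool := (⟨i.val, by omega⟩, true)

theorem exE_inj : Function.Injective exE := by
  intro i j h
  simp only [exE, Prod.mk.injEq, Fin.mk.injEq, and_true] at h
  exact Fin.ext h

theorem ex_iff (s : Fin 8260 × Bool) : ex s ↔ ∃ i, exE i = s := by
  constructor
  · rintro ⟨h1, h2⟩
    refine ⟨⟨s.1.val, h2⟩, ?_⟩
    rcases s with ⟨a, b⟩
    simp only at h1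
    subst h1
    rfl
  · rintro ⟨i, rfl⟩
    exact ⟨rfl, i.2⟩

theorem filter_ex : univ.filter ex = univ.map ⟨exE, exE_inj⟩ := by
  ext s
  simp [ex_iff]

theorem card_ex : (univ.filter ex).card = 7 := by
  rw [filter_ex]; simp

theorem card_nex : (univ.filter fun s => ¬ ex s).card = 16513 := by
  have h := card_filter_add_card_filter_not (s := (univ : Finset (Fin 8260 × Bool))) ex
  rw [card_ex, card_univ] at h
  simp only [Fintype.card_prod, Fintype.card_fin, Fintype.card_bool] at h
  omega

theorem not_ex_iv {s : Fin 8260 × Bool} (h : ex s) : ¬ ex (iv s) := by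
  rintro ⟨h1, _⟩
  have := h.1
  simp [iv, this] at h1

theorem card_iv {Gen : Type} [Fintype Gen] (Q : Gen × Bool → Prop) [DecidablePred Q] :
    (univ.filter fun s => Q (iv s)).card = (univ.filter Q).card := by
  refine card_bij (fun s _ => iv s) ?_ ?_ ?_
  · intro s hs
    rw [mem_filter] at hs ⊢
    exact ⟨mem_univ _, hs.2⟩
  · intro a _ b _ h; exact iv_inj h
  · intro b hb
    refine ⟨iv b, ?_, iv_iv b⟩
    rw [mem_filter] at hb ⊢
    rw [iv_iv]
    exact ⟨mem_univ _, hb.2⟩

theorem card_ex_iv : (univ.filter fun s => ex (iv s)).card = 7 := by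
  rw [card_iv ex, card_ex]

theorem exists_plane : ∃ (L : Type) (_ : Fintype L) (_ : DecidableEq L)
    (inc : L → Finset (Fin 8260 × Bool)),
    Fintype.card L = 16513 ∧ (∀ l, ∀ s ∈ inc l, ¬ ex s) ∧ (∀ l l', Odd (inc l ∩ inc l').card) ∧
    (∀ s, ¬ ex s → (univ.filter fun l => s ∈ inc l).card = 129) ∧
    (∀ s t, s ≠ t → (univ.filter fun l => s ∈ inc l ∧ t ∈ inc l).card ≤ 1) := by
  obtain ⟨P, _, _, inc, hP, hodd, hone, htwo⟩ := exists_plane0
  have hc : Fintype.card P = Fintype.card {s : Fin 8260 × Bool // ¬ ex s} := by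
    rw [hP, Fintype.card_subtype, card_nex]
  let e := Fintype.equivOfCardEq hc
  let g : P ↪ Fin 8260 × Bool := ⟨fun p => (e p).1, fun a b h => e.injective (Subtype.ext h)⟩
  have hg : ∀ s, ¬ ex s → ∃ p, g p = s := fun s hs => ⟨e.symm ⟨s, hs⟩,
    congrArg Subtype.val (e.apply_symm_apply ⟨s, hs⟩)⟩
  have hg' : ∀ p, ¬ ex (g p) := fun p => (e p).2
  refine ⟨P, inferInstance, inferInstance, fun l => (inc l).map g, hP, ?_, ?_, ?_, ?_⟩
  · intro l s hs
    obtain ⟨p, _, rfl⟩ := mem_map.1 hs
    exact hg' p
  · intro l l'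
    rw [← map_inter, card_map]
    exact hodd l l'
  · intro s hs
    obtain ⟨p, rfl⟩ := hg s hs
    simpa using hone p
  · intro s t hst
    by_cases hs : ex s
    · have : (univ.filter fun l => s ∈ (inc l).map g ∧ t ∈ (inc l).map g) = ∅ := by
        refine filter_eq_empty_iff.2 fun l _ h => ?_
        obtain ⟨p, _, rfl⟩ := mem_map.1 h.1
        exact hg' p hs
      rw [this]; simp
    by_cases ht : ex t
    · have : (univ.filter fun l => s ∈ (inc l).map g ∧ t ∈ (inc l).map g) = ∅ := by
        refine filter_eq_empty_iff.2 fun l _ h => ?_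
        obtain ⟨p, _, rfl⟩ := mem_map.1 h.2
        exact hg' p ht
      rw [this]; simp
    obtain ⟨p, rfl⟩ := hg s hs
    obtain ⟨q, rfl⟩ := hg t ht
    simpa using htwo p q fun h => hst (by rw [h])

/-- complements of the lines of the Fano plane -/
def fano (j : Fin 7) : Finset (Fin 7) :=
  univ.filter fun i => i - j ≠ 0 ∧ i - j ≠ 1 ∧ i - j ≠ 3

theorem fano_even : ∀ j j', (fano j ∩ fano j').card % 2 = 0 := by decide

theorem fano_one : ∀ i, (univ.filter fun j => i ∈ fano j).card = 4 := by decide

theorem fano_two : ∀ i i', i ≠ i' → (univ.filter fun j => i ∈ fano j ∧ i' ∈ fano j).card = 2 := by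
  decide

theorem count_sum (Q : (Fin 7 × Fin 129) ⊕ Fin 65149 → Prop) [DecidablePred Q]
    (q : Fin 7 → Prop) [DecidablePred q] (h1 : ∀ j k, Q (Sum.inl (j, k)) ↔ q j)
    (h2 : ∀ k, ¬ Q (Sum.inr k)) :
    (univ.filter Q).card = (univ.filter q).card * 129 := by
  rw [card_filter, card_filter, Fintype.sum_sum_type, Fintype.sum_prod_type]
  simp only [h1, h2, if_false, sum_const_zero, add_zero, sum_const, card_univ, Fintype.card_fin,
    smul_eq_mul, sum_mul]
  exact sum_congr rfl fun j _ => mul_comm _ _

theorem exists_fano : ∃ (I : Type) (_ : Fintype I) (_ : DecidableEq I)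
    (D : I → Finset (Fin 8260 × Bool)),
    Fintype.card I = 66052 ∧ (∀ j, ∀ s ∈ D j, ex s) ∧ (∀ j j', Even (D j ∩ D j').card) ∧
    (∀ s, ex s → (univ.filter fun j => s ∈ D j).card = 516) ∧
    (∀ s t, ex s → ex t → s ≠ t → (univ.filter fun j => s ∈ D j ∧ t ∈ D j).card = 258) := by
  let g : Fin 7 ↪ Fin 8260 × Bool := ⟨exE, exE_inj⟩
  refine ⟨(Fin 7 × Fin 129) ⊕ Fin 65149, inferInstance, inferInstance,
    Sum.elim (fun x => (fano x.1).map g) (fun _ => ∅), by simp, ?_, ?_, ?_, ?_⟩
  · rintro (⟨j, k⟩ | k) s hs
    · obtain ⟨i, _, rfl⟩ := mem_map.1 hs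
      exact (ex_iff _).2 ⟨i, rfl⟩
    · simp at hs
  · rintro (⟨j, k⟩ | k) (⟨j', k'⟩ | k')
    · simp only [Sum.elim_inl]
      rw [← map_inter, card_map, Nat.even_iff]
      exact fano_even j j'
    all_goals simp
  · intro s hs
    obtain ⟨i, rfl⟩ := (ex_iff s).1 hs
    rw [count_sum _ (fun j => i ∈ fano j), fano_one]
    · intro j k
      exact mem_map' g
    · intro k; simp
  · intro s t hs ht hst
    obtain ⟨i, rfl⟩ := (ex_iff s).1 hs
    obtain ⟨i', rfl⟩ := (ex_iff t).1 ht
    rw [count_sum _ (fun j => i ∈ fano j ∧ i' ∈ fano j), fano_two i i' fun h => hst (by rw [h])]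
    · intro j k
      exact and_congr (mem_map' g) (mem_map' g)
    · intro k; simp

/-- the weights of pairs of letters -/
noncomputable def pw (t s : Fin 8260 × Bool) : ℝ :=
  if ex t then (if ex s then 11 / 20 else 1 / 127) else (if ex s then 1 / 127 else 4 / 515)

/-- the weights of letters -/
noncomputable def fw (s : Fin 8260 × Bool) : ℝ := if ex s then 3 else 1

theorem row_bound (a b : ℝ) (t : Fin 8260 × Bool) :
    ∑ s ∈ univ.erase t, (if ex s then a else b) ^ 2 * fw (iv s)
      = 7 * a ^ 2 + 16527 * b ^ 2 - (if ex t then a else b) ^ 2 * fw (iv t) := by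
  rw [eq_sub_iff_add_eq, sum_erase_add _ _ (mem_univ t)]
  have h : ∀ s : Fin 8260 × Bool, (if ex s then a else b) ^ 2 * fw (iv s)
      = (if ex s then a ^ 2 else 0) + (if ¬ ex s then b ^ 2 else 0)
        + (if ex (iv s) then 2 * b ^ 2 else 0) := by
    intro s
    by_cases h1 : ex s
    · simp [fw, h1, not_ex_iv h1]
    · by_cases h2 : ex (iv s)
      · simp [fw, h1, h2]; ring
      · simp [fw, h1, h2]
  simp only [h, sum_add_distrib, ← sum_filter, sum_const, card_ex, card_nex, card_ex_iv,
    nsmul_eq_mul]
  push_cast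
  ring

/-- the alphabet data -/
noncomputable def alph : Alph (Fin 8260) where
  p := pw
  f := fw
  r := 998 / 1000
  r_lt := by norm_num
  p_pos := by
    intro t s; unfold pw; split_ifs <;> norm_num
  p_sq := by
    intro t s; unfold pw; split_ifs <;> norm_num
  p_symm := by
    intro t s; unfold pw; split_ifs <;> rfl
  f_ge := by
    intro s; unfold fw; split_ifs <;> norm_num
  row := by
    intro t
    have hf : 1 ≤ fw (iv t) := by unfold fw; split_ifs <;> norm_num
    by_cases ht : ex t
    · simp only [pw, ht, if_true]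
      rw [row_bound]
      simp only [ht, if_true, fw] at hf ⊢
      nlinarith
    · simp only [pw, ht, if_false]
      rw [row_bound]
      simp only [ht, if_false, fw] at hf ⊢
      nlinarith

theorem count_V {L I : Type} [Fintype L] [Fintype I] (Bd : ℕ) (b : Bool)
    (Q : Option (Bool × L × I × Fin Bd) → Prop) [DecidablePred Q]
    (A : L → Prop) [DecidablePred A] (B : I → Prop) [DecidablePred B]
    (h0 : Q none ↔ b = true) (h1 : ∀ c l j k, Q (some (c, l, j, k)) ↔ c = b ∧ A l ∧ B j) :
    (univ.filter Q).card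
      = (if b = true then 1 else 0) + (univ.filter A).card * (univ.filter B).card * Bd := by
  rw [card_filter, Fintype.sum_option]
  simp only [h0]
  congr 1
  have h2 : ∀ x : Bool × L × I × Fin Bd, (if Q (some x) then 1 else 0)
      = (if x.1 = b then 1 else 0) * ((if A x.2.1 then 1 else 0) * (if B x.2.2.1 then 1 else 0)) := by
    rintro ⟨c, l, j, k⟩
    simp only [h1]
    by_cases c = b <;> by_cases A l <;> by_cases B j <;> simp [*]
  have h3 : ∀ (F : Bool → ℕ) (G : L → ℕ) (H : I → ℕ),
      ∑ x : Bool × L × I × Fin Bd, F x.1 * (G x.2.1 * H x.2.2.1)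
        = (∑ c, F c) * ((∑ l, G l) * (∑ j, H j) * Bd) := by
    intro F G H
    simp only [Fintype.sum_prod_type, sum_const, card_univ, Fintype.card_fin, smul_eq_mul]
    simp only [← mul_sum, ← sum_mul]
    ring
  rw [sum_congr rfl fun x _ => h2 x, h3 (fun c => if c = b then 1 else 0)
    (fun l => if A l then 1 else 0) (fun j => if B j then 1 else 0), card_filter, card_filter,
    sum_ite_eq' univ b fun _ => 1]
  simp only [mem_univ, if_true, one_mul]

theorem exists_design : ∃ (A : Alph (Fin 8260)) (C : ℕ), ∀ Bd : ℕ, 1 ≤ Bd →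
    ∃ (V : Type) (_ : Fintype V) (_ : DecidableEq V), Nonempty (Lay A C Bd V) := by
  obtain ⟨L, _, _, inc, hL, hin, hodd, hone, htwo⟩ := exists_plane
  obtain ⟨I, _, _, D, hI, hD, heven, fone, ftwo⟩ := exists_fano
  refine ⟨alph, 10 ^ 7, fun Bd hBd => ⟨Option (Bool × L × I × Fin Bd), inferInstance,
    inferInstance, ?_⟩⟩
  obtain ⟨l0⟩ : Nonempty L := Fintype.card_pos_iff.1 (by omega)
  obtain ⟨j0⟩ : Nonempty I := Fintype.card_pos_iff.1 (by omega)
  let ty : Option (Bool × L × I × Fin Bd) → Finset (Fin 8260 × Bool) :=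
    fun v => v.elim univ fun x => inc x.2.1 ∪ D x.2.2.1
  let side : Option (Bool × L × I × Fin Bd) → Bool := fun v => v.elim true fun x => x.1
  have m1 : ∀ s l j, ex s → (s ∈ inc l ∪ D j ↔ s ∈ D j) := fun s l j hs => by
    rw [mem_union]; exact ⟨fun h => h.resolve_left fun h' => hin l s h' hs, Or.inr⟩
  have m2 : ∀ s l j, ¬ ex s → (s ∈ inc l ∪ D j ↔ s ∈ inc l) := fun s l j hs => by
    rw [mem_union]; exact ⟨fun h => h.resolve_right fun h' => hs (hD j s h'), Or.inl⟩
  have hcnt : ∀ b s, (univ.filter fun v => side v = b ∧ s ∈ ty v).card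
      = (if b = true then 1 else 0) + 8520708 * Bd := by
    intro b s
    by_cases hs : ex s
    · rw [count_V Bd b _ (fun _ => True) (fun j => s ∈ D j), fone s hs, filter_true, card_univ, hL]
      · simp [side, ty, eq_comm]
      · intro c l j k
        simp only [side, ty, Option.elim_some, m1 s l j hs, true_and]
    · rw [count_V Bd b _ (fun l => s ∈ inc l) (fun _ => True), hone s hs, filter_true, card_univ,
        hI]
      · simp [side, ty, eq_comm]
      · intro c l j k
        simp only [side, ty, Option.elim_some, m2 s l j hs, and_true]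
  have hint : ∀ l l' j j', Odd ((inc l ∪ D j) ∩ (inc l' ∪ D j')).card := by
    intro l l' j j'
    have e : (inc l ∪ D j) ∩ (inc l' ∪ D j') = (inc l ∩ inc l') ∪ (D j ∩ D j') := by
      ext s
      by_cases hs : ex s
      · have a1 : s ∉ inc l := fun h => hin l s h hs
        have a2 : s ∉ inc l' := fun h => hin l' s h hs
        simp [a1, a2]
      · have a1 : s ∉ D j := fun h => hs (hD j s h)
        have a2 : s ∉ D j' := fun h => hs (hD j' s h)
        simp [a1, a2]
    rw [e, card_union_of_disjoint]
    · exact (hodd l l').add_even (heven j j')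
    · exact disjoint_left.2 fun s h1 h2 =>
        hin l s (mem_inter.1 h1).1 (hD j s (mem_inter.1 h2).1)
  have hB : (1 : ℝ) ≤ Bd := by exact_mod_cast hBd
  have hite : ∀ b : Bool, (if b = true then 1 else 0 : ℕ) ≤ 1 := fun b => by split_ifs <;> omega
  refine ⟨⟨ty, side, none, some (false, l0, j0, ⟨0, hBd⟩), 8520707 * Bd, rfl, rfl, ?_, ?_, ?_, ?_,
    ?_, ?_, ?_, ?_⟩⟩
  · simp only [ty, Option.elim_none, card_univ, Fintype.card_prod, Fintype.card_fin,
      Fintype.card_bool]
    decide
  · rintro (_ | ⟨c, l, j, k⟩) (_ | ⟨c', l', j', k'⟩) h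
    · exact absurd ⟨rfl, rfl⟩ h
    · have := hint l' l' j' j'
      simpa [ty] using this
    · have := hint l l j j
      simpa [ty] using this
    · exact hint l l' j j'
  · intro b s
    rw [hcnt, hcnt]
  · intro b s
    rw [hcnt]
    omega
  · intro b t s hts
    have key : ∀ (N M : ℕ) (p : ℝ), N ≤ 1 + M * Bd → (M + 1 : ℝ) ≤ p * 8520707 →
        (N : ℝ) ≤ p * ((8520707 * Bd : ℕ) : ℝ) := by
      intro N M p h1 h2
      have h3 : (N : ℝ) ≤ 1 + M * Bd := by exact_mod_cast h1
      push_cast
      nlinarith
    have hb := hite b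
    by_cases ht : ex t <;> by_cases hs : ex s
    · refine key _ (16513 * 258) _ ?_ (by simp only [alph, pw, ht, hs, if_true]; norm_num)
      rw [count_V Bd b _ (fun _ => True) (fun j => t ∈ D j ∧ s ∈ D j), ftwo t s ht hs hts,
        filter_true, card_univ, hL]
      · omega
      · simp [side, ty, eq_comm]
      · intro c l j k
        simp only [side, ty, Option.elim_some, m1 s l j hs, m1 t l j ht, true_and]
    · refine key _ (129 * 516) _ ?_
        (by simp only [alph, pw, ht, hs, if_true, if_false]; norm_num)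
      rw [count_V Bd b _ (fun l => s ∈ inc l) (fun j => t ∈ D j), fone t ht, hone s hs]
      · omega
      · simp [side, ty, eq_comm]
      · intro c l j k
        simp only [side, ty, Option.elim_some, m2 s l j hs, m1 t l j ht]
        tauto
    · refine key _ (129 * 516) _ ?_
        (by simp only [alph, pw, ht, hs, if_true, if_false]; norm_num)
      rw [count_V Bd b _ (fun l => t ∈ inc l) (fun j => s ∈ D j), fone s hs, hone t ht]
      · omega
      · simp [side, ty, eq_comm]
      · intro c l j k
        simp only [side, ty, Option.elim_some, m1 s l j hs, m2 t l j ht]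
    · refine key _ 66052 _ ?_
        (by simp only [alph, pw, ht, hs, if_false]; norm_num)
      rw [count_V Bd b _ (fun l => t ∈ inc l ∧ s ∈ inc l) (fun _ => True), filter_true, card_univ,
        hI]
      · have h1 := htwo t s hts
        have h2 : (univ.filter fun l => t ∈ inc l ∧ s ∈ inc l).card * 66052 * Bd ≤ 1 * 66052 * Bd :=
          Nat.mul_le_mul_right _ (Nat.mul_le_mul_right _ h1)
        omega
      · simp [side, ty, eq_comm]
      · intro c l j k
        simp only [side, ty, Option.elim_some, m2 s l j hs, m2 t l j ht, and_true]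
  · simp only [Fintype.card_option, Fintype.card_prod, Fintype.card_bool, Fintype.card_fin, hL, hI]
    omega
  · omega
  · omega

end Vale.Agent.P201
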