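import Vale.Agent.P201.Cfg

set_option linter.unusedSectionVars false

namespace Vale.Agent.P201

open Finset Equiv

section enum
variable (F : Finset ℕ) (o : ℕ → ℕ)

/-- position in the order given by `o` -/
def idxF (y : ℕ) : ℕ := (F.filter fun y' => o y' < o y).card

open Classical in
/-- enumeration in the order given by `o` -/
noncomputable def yyF (i : ℕ) : ℕ := if h : ∃ y ∈ F, idxF F o y = i then h.choose else 0

variable {F o}

theorem idxF_lt {y : ℕ} (hy : y ∈ F) : idxF F o y < F.card :=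
  card_lt_card ⟨filter_subset _ _, fun h => by simpa using h hy⟩

theorem idxF_mono {y y' : ℕ} (hy' : y' ∈ F) (h : o y' < o y) : idxF F o y' < idxF F o y :=
  card_lt_card ⟨fun z hz => by
    simp only [mem_filter] at hz ⊢; exact ⟨hz.1, by omega⟩,
    fun hs => by simpa using hs (mem_filter.2 ⟨hy', h⟩)⟩

theorem idxF_inj (ho : Set.InjOn o F) : Set.InjOn (idxF F o) F := by
  intro y hy y' hy' h
  apply ho hy hy'
  rcases lt_trichotomy (o y) (o y') with l | l | l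
  · have := idxF_mono hy l; omega
  · exact l
  · have := idxF_mono hy' l; omega

theorem idxF_succ (ho : Set.InjOn o F) {y y' : ℕ} (hy' : y' ∈ F) (h : o y = o y' + 1) :
    idxF F o y = idxF F o y' + 1 := by
  unfold idxF
  rw [← card_insert_of_notMem (a := y') (by simp)]
  congr 1
  ext z
  simp only [mem_filter, mem_insert]
  constructor
  · rintro ⟨a, b⟩
    by_cases e : o z = o y'
    · exact Or.inl (ho a hy' e)
    · exact Or.inr ⟨a, by omega⟩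
  · rintro (rfl | ⟨a, b⟩)
    · exact ⟨hy', by omega⟩
    · exact ⟨a, by omega⟩

theorem yyF_spec (ho : Set.InjOn o F) {i : ℕ} (hi : i < F.card) :
    yyF F o i ∈ F ∧ idxF F o (yyF F o i) = i := by
  have : F.image (idxF F o) = range F.card :=
    eq_of_subset_of_card_le (fun j hj => by
      obtain ⟨y, hy, rfl⟩ := mem_image.1 hj
      exact mem_range.2 (idxF_lt hy)) (by rw [card_image_of_injOn (idxF_inj ho), card_range])
  have h : ∃ y ∈ F, idxF F o y = i := mem_image.1 (this ▸ mem_range.2 hi)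
  unfold yyF
  rw [dif_pos h]
  exact h.choose_spec

theorem yyF_idx (ho : Set.InjOn o F) {y : ℕ} (hy : y ∈ F) : yyF F o (idxF F o y) = y :=
  have := yyF_spec ho (idxF_lt hy)
  idxF_inj ho this.1 hy this.2

end enum

namespace Cf

variable {Gen V Dt : Type} [DecidableEq V] [DecidableEq Dt] (c : Cf Gen V Dt)

/-- traversals of an edge -/
def Occ (t : Dt) : Finset ℕ := c.W.filter fun y => c.x y = t ∨ c.x y = c.ρ t

theorem mem_Occ {t : Dt} {y : ℕ} : y ∈ c.Occ t ↔ y ∈ c.W ∧ (c.x y = t ∨ c.x y = c.ρ t) := by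
  simp [Occ]

theorem Occ_ρ (t : Dt) : c.Occ (c.ρ t) = c.Occ t := by
  ext y; simp [mem_Occ, c.ρρ, or_comm]

theorem Occ_inj (t : Dt) : Set.InjOn c.pc (c.Occ t) := by
  intro y hy z hz h
  have a := c.mem_Occ.1 hy
  have b := c.mem_Occ.1 hz
  refine c.edge_inj (c.mem_W.1 a.1).1 (c.mem_W.1 b.1).1 h ?_
  rcases a.2 with a | a <;> rcases b.2 with b | b <;> simp [a, b, c.ρρ]

theorem Occ_card (t : Dt) : (c.Occ t).card ≤ c.X.card :=
  card_le_card_of_injOn c.pc (fun _ hy => (c.mem_W.1 (c.mem_Occ.1 hy).1).2) (c.Occ_inj t)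

/-- linear position -/
def rank (y : ℕ) : ℕ := c.pc y * c.P + c.pos y

theorem rank_inj {y z : ℕ} (hy : y ∈ c.B) (hz : z ∈ c.B) (h : c.rank y = c.rank z) : y = z := by
  have a := c.lt y hy
  have b := c.lt z hz
  unfold rank at h
  have : c.pc y = c.pc z := by
    rcases lt_trichotomy (c.pc y) (c.pc z) with l | l | l
    · nlinarith
    · exact l
    · nlinarith
  exact c.ext_pos hy hz this (by rw [this] at h; omega)

theorem rank_lt {y : ℕ} (hy : y ∈ c.W) : c.rank y < (c.X.sup id + 1) * c.P := by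
  have a := c.lt y (c.mem_W.1 hy).1
  have b : c.pc y ≤ c.X.sup id := le_sup (f := id) (c.mem_W.1 hy).2
  unfold rank
  nlinarith

theorem rank_step {y : ℕ} (hy : y ∈ c.B) (h : c.pos (c.φ y) ≠ 0) :
    c.rank (c.φ y) = c.rank y + 1 := by
  have := c.step y hy h
  unfold rank; rw [this.1, this.2, add_assoc]

theorem rank_back {y : ℕ} (hy : y ∈ c.B) (h : c.pos y ≠ 0) :
    c.rank y = c.rank (c.φ⁻¹ y) + 1 := by
  have := c.back hy h
  unfold rank; rw [this.2.1, ← this.2.2.1, add_assoc]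

/-- sorting key -/
def ord (y : ℕ) : ℕ := (c.X.card - (c.Occ (c.x y)).card) * ((c.X.sup id + 1) * c.P) + c.rank y

/-- first traversals -/
def Fst : Finset ℕ := c.W.filter fun y => ∀ z ∈ c.Occ (c.x y), c.rank y ≤ c.rank z

theorem ord_lt {y z : ℕ} (hy : y ∈ c.W) (h : (c.Occ (c.x z)).card < (c.Occ (c.x y)).card) :
    c.ord y < c.ord z := by
  have a := c.rank_lt hy
  have b := c.Occ_card (c.x y)
  unfold ord
  have : c.X.card - (c.Occ (c.x y)).card + 1 ≤ c.X.card - (c.Occ (c.x z)).card := by omega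
  nlinarith

theorem ord_inj : Set.InjOn c.ord c.Fst := by
  intro y hy z hz h
  have a := (mem_filter.1 hy).1
  have b := (mem_filter.1 hz).1
  refine c.rank_inj (c.mem_W.1 a).1 (c.mem_W.1 b).1 ?_
  rcases lt_trichotomy (c.Occ (c.x z)).card (c.Occ (c.x y)).card with l | l | l
  · have := c.ord_lt a l; omega
  · unfold ord at h; rw [l] at h; omega
  · have := c.ord_lt b l; omega

/-- number of edges -/
def N : ℕ := c.Fst.card

/-- first traversal of edge number `i` -/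
noncomputable def yy (i : ℕ) : ℕ := yyF c.Fst c.ord i

/-- edge number `i` -/
noncomputable def d (i : ℕ) : Dt := c.x (c.yy i)

theorem yy_Fst {i : ℕ} (hi : i < c.N) : c.yy i ∈ c.Fst := (yyF_spec c.ord_inj hi).1

theorem yy_W {i : ℕ} (hi : i < c.N) : c.yy i ∈ c.W := (mem_filter.1 (c.yy_Fst hi)).1

theorem yy_idx {i : ℕ} (hi : i < c.N) : idxF c.Fst c.ord (c.yy i) = i :=
  (yyF_spec c.ord_inj hi).2

theorem d_dist {i k : ℕ} (hi : i < c.N) (hk : k < c.N)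
    (h : c.d i = c.d k ∨ c.d i = c.ρ (c.d k)) : i = k := by
  have a := mem_filter.1 (c.yy_Fst hi)
  have b := mem_filter.1 (c.yy_Fst hk)
  have e1 := b.2 (c.yy i) (c.mem_Occ.2 ⟨a.1, h⟩)
  have e2 := a.2 (c.yy k) (c.mem_Occ.2 ⟨b.1, by
    unfold d at h
    rcases h with h | h <;> simp [h, c.ρρ]⟩)
  have := c.rank_inj (c.mem_W.1 a.1).1 (c.mem_W.1 b.1).1 (by omega)
  rw [← c.yy_idx hi, this, c.yy_idx hk]

theorem d_ne_ρ {i k : ℕ} (hi : i < c.N) (hk : k < c.N) : c.d i ≠ c.ρ (c.d k) := fun h => by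
  obtain rfl := c.d_dist hi hk (Or.inr h)
  exact c.ρ_ne _ h.symm

theorem exists_d {y : ℕ} (hy : y ∈ c.W) : ∃ i < c.N, y ∈ c.Occ (c.d i) := by
  obtain ⟨z, a, b⟩ := exists_min_image (c.Occ (c.x y)) c.rank ⟨y, c.mem_Occ.2 ⟨hy, Or.inl rfl⟩⟩
  have a' := c.mem_Occ.1 a
  have e : c.Occ (c.x z) = c.Occ (c.x y) := by
    rcases a'.2 with h | h <;> simp [h, c.Occ_ρ]
  have hz : z ∈ c.Fst := mem_filter.2 ⟨a'.1, by rw [e]; exact b⟩
  refine ⟨_, idxF_lt (o := c.ord) hz, ?_⟩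
  unfold d yy
  rw [yyF_idx c.ord_inj hz, e]
  exact c.mem_Occ.2 ⟨hy, Or.inl rfl⟩

theorem mu_anti {i k : ℕ} (hi : i < c.N) (hk : k < c.N) (h : i ≤ k) :
    (c.Occ (c.d k)).card ≤ (c.Occ (c.d i)).card := by
  by_contra hc
  have := idxF_mono (c.yy_Fst hk) (c.ord_lt (c.yy_W hk) (not_le.1 hc))
  rw [c.yy_idx hi, c.yy_idx hk] at this
  omega

theorem transfer {y0 : ℕ} (h0 : y0 ∈ c.W) (hp : c.src (c.x y0) ∉ c.NP) :
    (∀ y ∈ c.Occ (c.x y0), ∃ z ∈ c.Occ (c.x (c.φ⁻¹ y0)), c.pc z = c.pc y) ∧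
    (∀ y ∈ c.Occ (c.x (c.φ⁻¹ y0)), ∃ z ∈ c.Occ (c.x y0), c.pc z = c.pc y ∧
      c.rank z ≤ c.rank y + 1) := by
  have p0 := c.plain_src h0 hp
  have b0 := c.back (c.mem_W.1 h0).1 p0.1
  have key1 : ∀ y ∈ c.W, c.src (c.x y) = c.src (c.x y0) → c.Same y0 y ∧ c.φ⁻¹ y ∈ c.W ∧
      c.pc (c.φ⁻¹ y) = c.pc y ∧ c.rank (c.φ⁻¹ y) ≤ c.rank y + 1 := fun y hy e => by
    have p := c.plain_src hy (e ▸ hp)
    have := c.rank_back (c.mem_W.1 hy).1 p.1
    exact ⟨p0.2.2.2.2.2 y hy e.symm, p.2.1, (c.back (c.mem_W.1 hy).1 p.1).2.1, by omega⟩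
  have key2 : ∀ y ∈ c.W, c.src (c.ρ (c.x y)) = c.src (c.x y0) → c.Same y0 (c.φ y) ∧
      c.φ y ∈ c.W ∧ c.pc (c.φ y) = c.pc y ∧ c.rank (c.φ y) ≤ c.rank y + 1 ∧
      c.x (c.φ y) ≠ c.ρ (c.x y) := fun y hy e => by
    have p := c.plain_tgt hy (e ▸ hp)
    have hB := (c.mem_W.1 hy).1
    have q := c.cont' hB p.1
    exact ⟨p0.2.2.2.2.2 _ p.2 (e.symm.trans q.1.symm), p.2, (c.step y hB p.1).1,
      (c.rank_step hB p.1).le, q.2⟩
  constructor
  · intro y hy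
    obtain ⟨hy, h | h⟩ := c.mem_Occ.1 hy
    · obtain ⟨s | s, a, b, -⟩ := key1 y hy (by rw [h])
      · exact ⟨_, c.mem_Occ.2 ⟨a, Or.inl s.2⟩, b⟩
      · exact ⟨_, c.mem_Occ.2 ⟨hy, Or.inr s.1⟩, rfl⟩
    · obtain ⟨s | s, a, b, -, e⟩ := key2 y hy (by rw [h, c.ρρ])
      · exact absurd (by rw [s.1, h, c.ρρ]) e
      · exact ⟨_, c.mem_Occ.2 ⟨a, Or.inr s.1⟩, b⟩
  · intro y hy
    obtain ⟨hy, h | h⟩ := c.mem_Occ.1 hy
    · obtain ⟨s | s, a, b, r, e⟩ := key2 y hy (by rw [h, b0.2.2.2.1])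
      · exact ⟨_, c.mem_Occ.2 ⟨a, Or.inl s.1⟩, b, r⟩
      · exact absurd (by rw [s.1, h]) e
    · obtain ⟨s | s, a, b, r⟩ := key1 y hy (by rw [h, b0.2.2.2.1])
      · exact ⟨_, c.mem_Occ.2 ⟨hy, Or.inl s.1⟩, rfl, by omega⟩
      · exact ⟨_, c.mem_Occ.2 ⟨a, Or.inr s.2⟩, b, r⟩

theorem pred_Fst {y : ℕ} (hy : y ∈ c.Fst) (hp : c.src (c.x y) ∉ c.NP) :
    c.φ⁻¹ y ∈ c.Fst ∧ c.ord y = c.ord (c.φ⁻¹ y) + 1 := by
  obtain ⟨h0, h1⟩ := mem_filter.1 hy
  have p0 := c.plain_src h0 hp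
  obtain ⟨t1, t2⟩ := c.transfer h0 hp
  have r := c.rank_back (c.mem_W.1 h0).1 p0.1
  refine ⟨mem_filter.2 ⟨p0.2.1, fun z hz => ?_⟩, ?_⟩
  · obtain ⟨w, a, -, b⟩ := t2 z hz
    have := h1 w a
    omega
  · have : (c.Occ (c.x y)).card = (c.Occ (c.x (c.φ⁻¹ y))).card := by
      rw [← card_image_of_injOn (c.Occ_inj _), ← card_image_of_injOn (c.Occ_inj _)]
      congr 1
      ext p
      simp only [mem_image]
      constructor
      · rintro ⟨z, hz, rfl⟩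
        exact t1 z hz
      · rintro ⟨z, hz, rfl⟩
        obtain ⟨w, a, b, -⟩ := t2 z hz
        exact ⟨w, a, b⟩
    unfold ord
    rw [this, r, add_assoc]

theorem pred_d {i : ℕ} (hi : i < c.N) (hp : c.src (c.d i) ∉ c.NP) :
    1 ≤ i ∧ c.yy (i - 1) = c.φ⁻¹ (c.yy i) := by
  obtain ⟨a, b⟩ := c.pred_Fst (c.yy_Fst hi) hp
  have := idxF_succ c.ord_inj a b
  rw [c.yy_idx hi] at this
  refine ⟨by omega, ?_⟩
  rw [show i - 1 = idxF c.Fst c.ord (c.φ⁻¹ (c.yy i)) by omega]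
  exact yyF_idx c.ord_inj a

theorem src_d {i : ℕ} (hi : i < c.N) (hp : c.src (c.d i) ∉ c.NP) :
    c.src (c.d i) = c.src (c.ρ (c.d (i - 1))) := by
  unfold d
  rw [(c.pred_d hi hp).2]
  exact (c.back (c.mem_W.1 (c.yy_W hi)).1 (c.plain_src (c.yy_W hi) hp).1).2.2.2.1

theorem corner {i y : ℕ} (hi : i < c.N) (hp : c.src (c.d i) ∉ c.NP) (hy : y ∈ c.W)
    (h : c.src (c.x y) = c.src (c.d i)) :
    (c.x y = c.d i ∧ c.x (c.φ⁻¹ y) = c.d (i - 1)) ∨
      (c.x y = c.ρ (c.d (i - 1)) ∧ c.x (c.φ⁻¹ y) = c.ρ (c.d i)) := by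
  have := (c.plain_src (c.yy_W hi) hp).2.2.2.2.2 y hy h.symm
  unfold d
  rw [(c.pred_d hi hp).2]
  exact this

/-- darts of the image graph -/
def Dl (t : Dt) : Prop := ∃ y ∈ c.W, c.x y = t ∨ c.x y = c.ρ t

theorem Dl_x {y : ℕ} (hy : y ∈ c.W) : c.Dl (c.x y) := ⟨y, hy, Or.inl rfl⟩

theorem Dl.rev {t : Dt} (h : c.Dl t) : c.Dl (c.ρ t) := by
  obtain ⟨y, hy, h⟩ := h
  exact ⟨y, hy, by rw [c.ρρ]; exact h.symm⟩

theorem Dl_d {i : ℕ} (hi : i < c.N) : c.Dl (c.d i) := c.Dl_x (c.yy_W hi)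

theorem two {i : ℕ} (hi : i < c.N) (hp : c.src (c.d i) ∉ c.NP) {t : Dt} (ht : c.Dl t)
    (h : c.src t = c.src (c.d i)) : t = c.d i ∨ t = c.ρ (c.d (i - 1)) := by
  obtain ⟨y, hy, rfl | e⟩ := ht
  · exact (c.corner hi hp hy h).imp And.left And.left
  · have e' : t = c.ρ (c.x y) := by rw [e, c.ρρ]
    subst e'
    have p := c.plain_tgt hy (h ▸ hp)
    have := c.corner hi hp p.2 ((c.cont' (c.mem_W.1 hy).1 p.1).1.trans h)
    simp only [Perm.inv_def, symm_apply_apply] at this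
    rcases this with a | a
    · exact Or.inr (by rw [a.2])
    · exact Or.inl (by rw [a.2, c.ρρ])

theorem src_d_inj {i k : ℕ} (hi : i < c.N) (hk : k < c.N) (hp : c.src (c.d i) ∉ c.NP)
    (h : c.src (c.d k) = c.src (c.d i)) : k = i := by
  rcases c.two hi hp (c.Dl_d hk) h with e | e
  · exact c.d_dist hk hi (Or.inl e)
  · exact absurd e (c.d_ne_ρ hk (by omega))

theorem exists_I {t : Dt} (ht : c.Dl t) (hp : c.src t ∉ c.NP) :
    ∃ i, i < c.N ∧ c.src (c.d i) = c.src t := by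
  have key : ∀ y ∈ c.W, c.src (c.x y) ∉ c.NP → ∃ i, i < c.N ∧ c.src (c.d i) = c.src (c.x y) := by
    intro y hy hp
    obtain ⟨z, a, b⟩ := exists_min_image (c.W.filter fun z => c.src (c.x z) = c.src (c.x y))
      c.rank ⟨y, by simp [hy]⟩
    obtain ⟨a1, a2⟩ := mem_filter.1 a
    have hz : z ∈ c.Fst := by
      refine mem_filter.2 ⟨a1, fun w hw => ?_⟩
      obtain ⟨hw, e | e⟩ := c.mem_Occ.1 hw
      · exact b w (mem_filter.2 ⟨hw, by rw [e, a2]⟩)
      · have hB := (c.mem_W.1 hw).1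
        have p := c.plain_tgt hw (by rw [e, c.ρρ, a2]; exact hp)
        have q := c.cont' hB p.1
        have r := b (c.φ w) (mem_filter.2 ⟨p.2, by rw [q.1, e, c.ρρ, a2]⟩)
        have r' := c.rank_step hB p.1
        by_contra hc
        have : z = c.φ w := c.rank_inj (c.mem_W.1 a1).1 (c.mem_W.1 p.2).1 (by omega)
        exact q.2 (by rw [e, c.ρρ, this])
    refine ⟨_, idxF_lt (o := c.ord) hz, ?_⟩
    unfold d yy
    rw [yyF_idx c.ord_inj hz, a2]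
  obtain ⟨y, hy, rfl | e⟩ := ht
  · exact key y hy hp
  · have e' : t = c.ρ (c.x y) := by rw [e, c.ρρ]
    subst e'
    have p := c.plain_tgt hy hp
    have q := (c.cont' (c.mem_W.1 hy).1 p.1).1
    rw [← q] at hp ⊢
    exact key _ p.2 hp

open Classical in
/-- index of a plain vertex -/
noncomputable def I (v : V) : ℕ :=
  if h : ∃ i, i < c.N ∧ c.src (c.d i) = v then h.choose else 0

theorem I_spec {t : Dt} (ht : c.Dl t) (hp : c.src t ∉ c.NP) :
    c.I (c.src t) < c.N ∧ c.src (c.d (c.I (c.src t))) = c.src t := by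
  have h := c.exists_I ht hp
  unfold I
  rw [dif_pos h]
  exact h.choose_spec

theorem I_d {i : ℕ} (hi : i < c.N) (hp : c.src (c.d i) ∉ c.NP) : c.I (c.src (c.d i)) = i :=
  have := c.I_spec (c.Dl_d hi) hp
  c.src_d_inj hi this.1 hp this.2

theorem two' {t : Dt} (ht : c.Dl t) (hp : c.src t ∉ c.NP) : 1 ≤ c.I (c.src t) ∧
    (t = c.d (c.I (c.src t)) ∨ t = c.ρ (c.d (c.I (c.src t) - 1))) := by
  have := c.I_spec ht hp
  have hp' : c.src (c.d (c.I (c.src t))) ∉ c.NP := by rw [this.2]; exact hp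
  exact ⟨(c.pred_d this.1 hp').1, c.two this.1 hp' ht this.2.symm⟩

theorem I_adj {t : Dt} (ht : c.Dl t) (hp : c.src t ∉ c.NP) (hp' : c.src (c.ρ t) ∉ c.NP) :
    c.I (c.src t) ≤ c.I (c.src (c.ρ t)) + 1 := by
  have a := (c.I_spec ht hp).1
  have b := (c.I_spec ht.rev hp').1
  obtain ⟨a1, a2⟩ := c.two' ht hp
  obtain ⟨b1, b2⟩ := c.two' ht.rev hp'
  generalize c.I (c.src t) = k at *
  generalize c.I (c.src (c.ρ t)) = k' at *
  rcases a2 with rfl | rfl <;> rcases b2 with e | e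
  · exact absurd e.symm (c.d_ne_ρ b a)
  · have := c.d_dist a (by omega) (Or.inl (c.ρ_inj e)); omega
  · rw [c.ρρ] at e
    have := c.d_dist (by omega) b (Or.inl e); omega
  · rw [c.ρρ] at e
    exact absurd e (c.d_ne_ρ (by omega) (by omega))

open Classical in
/-- address of a dart -/
noncomputable def cd (t : Dt) : ℕ × Bool :=
  if h : ∃ k, k < c.N ∧ t = c.d k then (h.choose, true)
  else if h : ∃ k, k < c.N ∧ t = c.ρ (c.d k) then (h.choose, false) else (0, false)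

theorem cd_d {k : ℕ} (hk : k < c.N) : c.cd (c.d k) = (k, true) := by
  have h : ∃ k', k' < c.N ∧ c.d k = c.d k' := ⟨k, hk, rfl⟩
  unfold cd
  rw [dif_pos h, ← c.d_dist hk h.choose_spec.1 (Or.inl h.choose_spec.2)]

theorem cd_ρ {k : ℕ} (hk : k < c.N) : c.cd (c.ρ (c.d k)) = (k, false) := by
  have h : ∃ k', k' < c.N ∧ c.ρ (c.d k) = c.ρ (c.d k') := ⟨k, hk, rfl⟩
  unfold cd
  rw [dif_neg (fun ⟨k', a, b⟩ => c.d_ne_ρ a hk b.symm), dif_pos h,
    ← c.d_dist hk h.choose_spec.1 (Or.inl (c.ρ_inj h.choose_spec.2))]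

theorem cd_nxt {t t' : Dt} (ht : c.Dl t) (ht' : c.Dl t') (hp : c.src t' ∉ c.NP)
    (h1 : c.src t' = c.src (c.ρ t)) (h2 : t' ≠ c.ρ t) : some (c.cd t') = nxt (some (c.cd t)) := by
  have a := (c.I_spec ht' hp).1
  obtain ⟨a1, a2⟩ := c.two' ht' hp
  obtain ⟨-, b2⟩ := c.two' ht.rev (h1 ▸ hp)
  rw [← h1] at b2
  generalize c.I (c.src t') = k at *
  rcases a2 with rfl | rfl <;> rcases b2 with e | e
  · exact absurd e.symm h2
  · rw [c.ρ_inj e, c.cd_d a, c.cd_d (by omega)]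
    simp only [nxt]; congr 2; omega
  · have : t = c.ρ (c.d k) := by rw [← e, c.ρρ]
    rw [this, c.cd_ρ a, c.cd_ρ (by omega)]
    rfl
  · exact absurd e.symm h2

theorem cd_spec {t : Dt} (ht : c.Dl t) (hp : c.src t ∉ c.NP) :
    (c.cd t).1 ≤ c.I (c.src t) ∧ c.lab t = sg (c.cd t).2 (c.lab (c.d (c.cd t).1)) := by
  have a := (c.I_spec ht hp).1
  obtain ⟨a1, a2⟩ := c.two' ht hp
  generalize c.I (c.src t) = k at *
  rcases a2 with rfl | rfl
  · rw [c.cd_d a]; simp [sg]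
  · rw [c.cd_ρ (by omega)]; simp [sg, c.labρ]

end Cf

end Vale.Agent.P201
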