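import Vale.Agent.P201.Basic

namespace Vale.Agent.P201

open Finset

/-- adjacency of darts in the trivalent graph of a map -/
def HAdj (φ α : Equiv.Perm ℕ) (a b : ℕ) : Prop := b = α a ∨ b = φ a ∨ a = φ b

namespace Eu

lemma z2_add_self (a : ZMod 2) : a + a = 0 := by revert a; decide

lemma z2_eq {a b : ZMod 2} (h : a + b = 0) : a = b := by revert a b; decide

/-- counting form of MacLane's criterion -/
lemma maclane {Q ι κ : Type} [Fintype ι] [Fintype κ] [DecidableEq κ] (l r : ι → Q) (emb : κ → ι)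
    (h3 : ∀ χ : Q → ZMod 2, ∀ e, χ (l e) + χ (r e) ≠ 0 →
      3 ≤ (univ.filter fun e => χ (l e) + χ (r e) ≠ 0).card)
    (hs : ∀ x : κ, ∃ χ : Q → ZMod 2, ∀ y, χ (l (emb y)) + χ (r (emb y)) = if y = x then 1 else 0) :
    3 * Fintype.card κ ≤ 2 * Fintype.card ι := by
  classical
  let Q₀ : Finset Q := (univ.filter fun e => l e ≠ r e).biUnion fun e => {l e, r e}
  have c1 : Q₀.card * 3 ≤ (univ : Finset ι).card * 2 := by
    refine card_mul_le_card_mul (fun q e => l e ≠ r e ∧ (q = l e ∨ q = r e)) (fun q hq => ?_)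
      (fun e _ => ?_)
    · obtain ⟨e, he, hq⟩ := mem_biUnion.1 hq
      have key : ∀ e, (if l e = q then (1 : ZMod 2) else 0) + (if r e = q then 1 else 0) ≠ 0 ↔
          l e ≠ r e ∧ (q = l e ∨ q = r e) := by
        intro e
        by_cases h1 : l e = q <;> by_cases h2 : r e = q
        · simp [h1, h2, z2_add_self]
        · simp [h1, h2, Ne.symm h2]
        · simp [h1, h2]
        · simp [h1, h2, Ne.symm h1, Ne.symm h2]
      have := h3 (fun f => if f = q then 1 else 0) e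
        ((key e).2 ⟨(mem_filter.1 he).2, by simpa using hq⟩)
      simp only [key] at this
      exact this
    · refine (card_le_card (t := {l e, r e}) fun q hq => ?_).trans card_le_two
      simpa using (mem_filter.1 hq).2.2
  let E : (Q₀ → ZMod 2) →ₗ[ZMod 2] Q → ZMod 2 :=
    { toFun := fun b q => if h : q ∈ Q₀ then b ⟨q, h⟩ else 0
      map_add' := fun a b => by funext q; by_cases h : q ∈ Q₀ <;> simp [h]
      map_smul' := fun a b => by funext q; by_cases h : q ∈ Q₀ <;> simp [h] }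
  let Ψ : (Q₀ → ZMod 2) →ₗ[ZMod 2] κ → ZMod 2 := LinearMap.pi fun y =>
    (LinearMap.proj (l (emb y))).comp E + (LinearMap.proj (r (emb y))).comp E
  have hΨ : LinearMap.range Ψ = ⊤ := by
    rw [eq_top_iff, ← (Pi.basisFun (ZMod 2) κ).span_eq, Submodule.span_le]
    rintro _ ⟨x, rfl⟩
    obtain ⟨χ, hχ⟩ := hs x
    refine ⟨fun q => χ q, ?_⟩
    funext y
    rw [Pi.basisFun_apply, Pi.single_apply, ← hχ y]
    show (if h : l (emb y) ∈ Q₀ then χ (l (emb y)) else 0) +
      (if h : r (emb y) ∈ Q₀ then χ (r (emb y)) else 0) = _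
    by_cases h : l (emb y) = r (emb y)
    · rw [h, z2_add_self, z2_add_self]
    · rw [dif_pos, dif_pos] <;> exact mem_biUnion.2 ⟨emb y, by simpa using h, by simp⟩
  have c2 := LinearMap.finrank_range_le Ψ
  rw [hΨ, finrank_top, Module.finrank_fintype_fun_eq_card, Module.finrank_fintype_fun_eq_card,
    Fintype.card_coe] at c2
  rw [card_univ] at c1
  omega

variable (φ α : Equiv.Perm ℕ)

/-- the opposite half-edge in the trivalent graph -/
def opp (h : ℕ × Fin 3) : ℕ × Fin 3 :=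
  if h.2 = 0 then (α h.1, 0) else if h.2 = 1 then (φ.symm h.1, 2) else (φ h.1, 1)

def lf (h : ℕ × Fin 3) : ℕ ⊕ ℕ := if h.2 = 2 then .inl (φ h.1) else .inl h.1

def rf (h : ℕ × Fin 3) : ℕ ⊕ ℕ :=
  if h.2 = 0 then .inl (α h.1) else if h.2 = 1 then .inr h.1 else .inr (φ h.1)

def bd (v : ℕ × Fin 3 → ZMod 2) (y : ℕ) : ZMod 2 := ∑ i, v (y, i)

variable {φ α}

lemma opp_opp (hα : ∀ d, α (α d) = d) (h) : opp φ α (opp φ α h) = h := by
  obtain ⟨y, i⟩ := h
  fin_cases i <;> simp [opp, hα]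

lemma opp_ne (hα' : ∀ d, α d ≠ d) (h) : opp φ α h ≠ h := by
  obtain ⟨y, i⟩ := h
  fin_cases i <;> simp [opp, hα']

lemma exists_half {a b} (h : HAdj φ α a b) : ∃ x : ℕ × Fin 3, x.1 = a ∧ (opp φ α x).1 = b := by
  rcases h with rfl | rfl | rfl
  · exact ⟨(a, 0), rfl, by simp [opp]⟩
  · exact ⟨(a, 2), rfl, by simp [opp]⟩
  · exact ⟨(φ b, 1), rfl, by simp [opp]⟩

/-- the chain of one edge -/
def unit (φ α : Equiv.Perm ℕ) (h x : ℕ × Fin 3) : ZMod 2 :=
  (if x = h then 1 else 0) + if x = opp φ α h then 1 else 0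

lemma unit_opp (hα : ∀ d, α (α d) = d) (h x) : unit φ α h (opp φ α x) = unit φ α h x := by
  have inj : Function.Injective (opp φ α) := Function.Involutive.injective (opp_opp hα)
  unfold unit
  rw [add_comm]
  congr 1
  · exact if_congr inj.eq_iff rfl rfl
  · exact if_congr ⟨fun e => by rw [← e, opp_opp hα], fun e => by rw [e, opp_opp hα]⟩ rfl rfl

lemma bd_unit (h y) : bd (unit φ α h) y =
    (if y = h.1 then 1 else 0) + if y = (opp φ α h).1 then 1 else 0 := by
  have key : ∀ h : ℕ × Fin 3, ∑ i, (if (y, i) = h then (1 : ZMod 2) else 0) =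
      if y = h.1 then 1 else 0 := by
    rintro ⟨a, j⟩
    by_cases e : y = a <;> simp [e]
  simp only [bd, unit, sum_add_distrib, key]

lemma bd_add (v w y) : bd (v + w) y = bd v y + bd w y := by simp [bd, sum_add_distrib]

lemma exists_path (hα : ∀ d, α (α d) = d) {B : Finset ℕ} {u v : ℕ}
    (h : Relation.ReflTransGen (fun a b => a ∈ B ∧ b ∈ B ∧ HAdj φ α a b) u v) :
    ∃ w : ℕ × Fin 3 → ZMod 2, (∀ x, w (opp φ α x) = w x) ∧
      (∀ x, ¬ (x.1 ∈ B ∧ (opp φ α x).1 ∈ B) → w x = 0) ∧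
      ∀ y, bd w y = (if y = u then 1 else 0) + if y = v then 1 else 0 := by
  induction h with
  | refl => exact ⟨0, fun _ => rfl, fun _ _ => rfl, fun y => by simp [bd, z2_add_self]⟩
  | @tail a b _ hab ih =>
    obtain ⟨w, h1, h2, h3⟩ := ih
    obtain ⟨x, rfl, rfl⟩ := exists_half hab.2.2
    refine ⟨w + unit φ α x, fun y => by simp [h1, unit_opp hα], fun y hy => ?_, fun y => ?_⟩
    · rw [Pi.add_apply, h2 y hy, unit, if_neg, if_neg]
      · simp
      · rintro rfl
        exact hy ⟨hab.2.1, by rw [opp_opp hα]; exact hab.1⟩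
      · rintro rfl
        exact hy ⟨hab.1, hab.2.1⟩
    · rw [bd_add, h3, bd_unit, add_assoc, ← add_assoc (if y = x.1 then _ else _), z2_add_self,
        zero_add]

/-- invariance of a colouring of the faces -/
def Inv (φ α : Equiv.Perm ℕ) (χ : ℕ ⊕ ℕ → ZMod 2) : Prop :=
  (∀ y, χ (.inl (φ (α y))) = χ (.inl y)) ∧ ∀ y, χ (.inr (φ y)) = χ (.inr y)

def sval (φ α : Equiv.Perm ℕ) (χ : ℕ ⊕ ℕ → ZMod 2) (h : ℕ × Fin 3) : ZMod 2 :=
  χ (lf φ h) + χ (rf φ α h)

lemma val_opp (hα : ∀ d, α (α d) = d) (χ h) : sval φ α χ (opp φ α h) = sval φ α χ h := by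
  obtain ⟨y, i⟩ := h
  fin_cases i <;> simp [sval, lf, rf, opp, hα, add_comm]

lemma bd_val (hα : ∀ d, α (α d) = d) {χ} (h : Inv φ α χ) (y) : bd (sval φ α χ) y = 0 := by
  have h1 := h.1 (α y)
  rw [hα] at h1
  simp only [bd, Fin.sum_univ_three, sval, lf, rf]
  simp only [Fin.reduceEq, if_true, if_false, h1, h.2]
  generalize χ (.inl y) = a
  generalize χ (.inl (α y)) = b
  generalize χ (.inr y) = c
  revert a b c; decide

lemma exists_col (hα : ∀ d, α (α d) = d) (hP : Planar φ α) {v : ℕ × Fin 3 → ZMod 2}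
    (h1 : ∀ x, v (opp φ α x) = v x) (h2 : ∀ y, bd v y = 0) : ∃ χ, Inv φ α χ ∧ sval φ α χ = v := by
  have e2 : ∀ y, v (φ y, 1) = v (y, 2) := fun y => by rw [← h1 (y, 2)]; simp [opp]
  have e0 : ∀ y, v (α y, 0) = v (y, 0) := fun y => by rw [← h1 (y, 0)]; simp [opp]
  have e1 : ∀ y, v (y, 1) + v (φ y, 1) = v (y, 0) := fun y => by
    have := h2 y
    rw [bd, Fin.sum_univ_three, add_assoc] at this
    rw [e2, z2_eq this]
  obtain ⟨k, k1, k2⟩ := hP (fun y => v (y, 1)) fun d => by rw [e1, e1, e0]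
  refine ⟨Sum.elim (fun y => v (y, 1) + k y) k, ⟨k2, k1⟩, ?_⟩
  funext ⟨y, i⟩
  have := k2 (α y)
  rw [hα, k1] at this
  fin_cases i
  · simp only [sval, lf, rf, Fin.zero_eta, Fin.reduceEq, if_true, if_false, Sum.elim_inl, ← this,
      ← e1]
    rw [add_add_add_comm, z2_add_self, add_zero]
  · simp [sval, lf, rf, add_assoc, z2_add_self]
  · simp [sval, lf, rf, add_assoc, z2_add_self, e2]

lemma sum_leaving (hα : ∀ d, α (α d) = d) (hα' : ∀ d, α d ≠ d) {v : ℕ × Fin 3 → ZMod 2}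
    (h1 : ∀ x, v (opp φ α x) = v x) (h2 : ∀ y, bd v y = 0) (B : Finset ℕ) :
    ∑ x ∈ (B ×ˢ univ).filter (fun x => (opp φ α x).1 ∉ B), v x = 0 := by
  have e1 : ∑ x ∈ B ×ˢ (univ : Finset (Fin 3)), v x = 0 := by
    rw [sum_product]
    exact sum_eq_zero fun y _ => h2 y
  have e2 : ∑ x ∈ (B ×ˢ univ).filter (fun x => (opp φ α x).1 ∈ B), v x = 0 := by
    refine sum_involution (fun x _ => opp φ α x) (fun x _ => by rw [h1, z2_add_self])
      (fun x _ _ => opp_ne hα' x) (fun x hx => ?_) (fun x _ => opp_opp hα x)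
    simp only [mem_filter, mem_product, mem_univ, and_true, opp_opp hα] at hx ⊢
    exact hx.symm
  rw [← sum_filter_add_sum_filter_not _ (fun x => (opp φ α x).1 ∈ B), e2, zero_add] at e1
  exact e1

lemma sameCycle_inv {β : Type} {σ : Equiv.Perm ℕ} {f : ℕ → β} (h : ∀ x, f (σ x) = f x) {x y}
    (e : σ.SameCycle x y) : f x = f y := by
  obtain ⟨i, rfl⟩ := e
  induction i using Int.induction_on with
  | zero => rfl
  | succ i ih => rw [add_comm, zpow_add, zpow_one, Equiv.Perm.mul_apply, h, ← ih]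
  | pred i ih =>
    rw [ih, ← h ((σ ^ (-(i : ℤ) - 1)) x), ← Equiv.Perm.mul_apply, ← zpow_one_add]
    congr 3; ring

end Eu

open Eu

theorem planar_noK7 (φ α : Equiv.Perm ℕ) (hα : ∀ d, α (α d) = d) (hα' : ∀ d, α d ≠ d)
    (hP : Planar φ α) (B : Fin 7 → Finset ℕ)
    (hc : ∀ i, ∀ u ∈ B i, ∀ v ∈ B i,
      Relation.ReflTransGen (fun a b => a ∈ B i ∧ b ∈ B i ∧ HAdj φ α a b) u v)
    (hd : ∀ i j, i ≠ j → Disjoint (B i) (B j))
    (ha : ∀ i j, i ≠ j → ∃ a ∈ B i, ∃ b ∈ B j, HAdj φ α a b) : False := by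
  classical
  have hB : ∀ i j y, y ∈ B i → y ∈ B j → i = j := fun i j y h1 h2 => by
    by_contra h; exact disjoint_left.1 (hd i j h) h1 h2
  obtain ⟨H, H1, H2⟩ : ∃ H : Fin 7 → Fin 7 → ℕ × Fin 3, (∀ i j, i ≠ j → (H i j).1 ∈ B i) ∧
      ∀ i j, i ≠ j → opp φ α (H i j) = H j i := by
    have : ∀ i j, i ≠ j → ∃ x : ℕ × Fin 3, x.1 ∈ B i ∧ (opp φ α x).1 ∈ B j := by
      intro i j h
      obtain ⟨a, h1, b, h2, h3⟩ := ha i j h
      obtain ⟨x, rfl, rfl⟩ := exists_half h3
      exact ⟨x, h1, h2⟩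
    choose! G G1 G2 using this
    refine ⟨fun i j => if i < j then G i j else opp φ α (G j i), fun i j h => ?_, fun i j h => ?_⟩
    · beta_reduce
      split_ifs
      · exact G1 i j h
      · exact G2 j i h.symm
    · beta_reduce
      rcases lt_or_gt_of_ne h with h | h
      · rw [if_pos h, if_neg h.not_gt]
      · rw [if_neg h.not_gt, if_pos h, opp_opp hα]
  have H3 : ∀ i j, i ≠ j → (opp φ α (H i j)).1 ∈ B j := fun i j h => by
    rw [H2 i j h]; exact H1 j i h.symm
  have Hinj : ∀ i j i' j', i ≠ j → i' ≠ j' → H i j = H i' j' → i = i' ∧ j = j' :=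
    fun i j i' j' h h' e => ⟨hB _ _ _ (H1 i j h) (e ▸ H1 i' j' h'),
      hB _ _ _ (H3 i j h) (e ▸ H3 i' j' h')⟩
  let Out : ℕ × Fin 3 → Prop := fun x => (∀ i, ¬ (x.1 ∈ B i ∧ (opp φ α x).1 ∈ B i)) ∧
    ∀ i j, i ≠ j → x ≠ H i j
  let R : ℕ ⊕ ℕ → ℕ ⊕ ℕ → Prop := fun f g => (∃ y, f = .inl (φ (α y)) ∧ g = .inl y) ∨
    (∃ y, f = .inr (φ y) ∧ g = .inr y) ∨ ∃ x, Out x ∧ f = lf φ x ∧ g = rf φ α x
  have := maclane (ι := {p : Fin 7 × Fin 7 // p.1 < p.2}) (κ := {p : Fin 6 × Fin 6 // p.1 < p.2})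
    (fun p => Quot.mk R (lf φ (H p.1.1 p.1.2))) (fun p => Quot.mk R (rf φ α (H p.1.1 p.1.2)))
    (fun p => ⟨(p.1.1.castSucc, p.1.2.castSucc), by simpa using p.2⟩) ?_ ?_
  · have c1 : Fintype.card {p : Fin 7 × Fin 7 // p.1 < p.2} = 21 := by decide
    have c2 : Fintype.card {p : Fin 6 × Fin 6 // p.1 < p.2} = 15 := by decide
    rw [c1, c2] at this
    omega
  · intro χ e he
    let v := sval φ α fun f => χ (Quot.mk R f)
    have hI : Inv φ α fun f => χ (Quot.mk R f) :=
      ⟨fun y => congrArg χ (Quot.sound (Or.inl ⟨y, rfl, rfl⟩)),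
        fun y => congrArg χ (Quot.sound (Or.inr (Or.inl ⟨y, rfl, rfl⟩)))⟩
    have hO : ∀ x, Out x → v x = 0 := fun x hx => by
      simp only [v, sval]
      rw [Quot.sound (r := R) (Or.inr (Or.inr ⟨x, hx, rfl, rfl⟩)), z2_add_self]
    have hs : ∀ i j, i ≠ j → v (H j i) = v (H i j) := fun i j h => by
      rw [← H2 i j h]; exact val_opp hα _ _
    have hdeg : ∀ i j, i ≠ j → v (H i j) ≠ 0 → ∃ k, k ≠ i ∧ k ≠ j ∧ v (H i k) ≠ 0 := by
      intro i j hij hv
      by_contra hn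
      push Not at hn
      have := sum_leaving hα hα' (val_opp hα _) (bd_val hα hI) (B i)
      rw [sum_eq_single (H i j)] at this
      · exact hv this
      · intro x hx hne
        simp only [mem_filter, mem_product, mem_univ, and_true] at hx
        by_cases h : ∃ a b, a ≠ b ∧ x = H a b
        · obtain ⟨a, b, hab, rfl⟩ := h
          obtain rfl := hB _ _ _ hx.1 (H1 a b hab)
          exact hn b hab.symm fun e => hne (by rw [e])
        · push Not at h
          refine hO x ⟨fun a ha => ?_, h⟩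
          obtain rfl := hB _ _ _ hx.1 ha.1
          exact hx.2 ha.2
      · intro h
        refine absurd ?_ h
        simp only [mem_filter, mem_product, mem_univ, and_true]
        exact ⟨H1 i j hij, fun h => hij (hB _ _ _ h (H3 i j hij))⟩
    obtain ⟨⟨i, j⟩, hij⟩ := e
    have hne : i ≠ j := ne_of_lt hij
    obtain ⟨a, a1, a2, a3⟩ := hdeg i j hne he
    obtain ⟨b, b1, b2, b3⟩ := hdeg j i hne.symm (by rwa [hs i j hne])
    have mk : ∀ i a, a ≠ i → v (H i a) ≠ 0 → ∃ p : {p : Fin 7 × Fin 7 // p.1 < p.2},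
        v (H p.1.1 p.1.2) ≠ 0 ∧ (p.1 = (i, a) ∨ p.1 = (a, i)) := by
      intro i a h hv
      rcases lt_or_gt_of_ne h with h' | h'
      · exact ⟨⟨(a, i), h'⟩, by rwa [hs i a h.symm], Or.inr rfl⟩
      · exact ⟨⟨(i, a), h'⟩, hv, Or.inl rfl⟩
    obtain ⟨p, p1, p2⟩ := mk i a a1 a3
    obtain ⟨q, q1, q2⟩ := mk j b b1 b3
    refine two_lt_card_iff.2 ⟨⟨(i, j), hij⟩, p, q, mem_filter.2 ⟨mem_univ _, he⟩,
      mem_filter.2 ⟨mem_univ _, p1⟩, mem_filter.2 ⟨mem_univ _, q1⟩, ?_, ?_, ?_⟩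
    · rintro rfl
      simp only [Prod.mk.injEq] at p2
      omega
    · rintro rfl
      simp only [Prod.mk.injEq] at q2
      omega
    · rintro rfl
      rcases p2 with p2 | p2 <;> simp only [p2, Prod.mk.injEq] at q2 <;> omega
  · rintro ⟨⟨i', j'⟩, hij'⟩
    obtain ⟨i, hi⟩ : ∃ i, i = i'.castSucc := ⟨_, rfl⟩
    obtain ⟨j, hj⟩ : ∃ j, j = j'.castSucc := ⟨_, rfl⟩
    have n1 : i ≠ j := by rw [hi, hj]; simpa using ne_of_lt hij'
    have n2 : j ≠ Fin.last 6 := hj ▸ (Fin.castSucc_lt_last _).ne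
    have n3 : Fin.last 6 ≠ i := hi ▸ (Fin.castSucc_lt_last _).ne'
    obtain ⟨w1, a1, a2, a3⟩ := exists_path hα (hc i _ (H1 i j n1) _ (H3 _ i n3))
    obtain ⟨w2, b1, b2, b3⟩ := exists_path hα (hc j _ (H1 j _ n2) _ (H3 i j n1))
    obtain ⟨w3, c1, c2, c3⟩ := exists_path hα (hc _ _ (H1 _ i n3) _ (H3 j _ n2))
    obtain ⟨χ, hI, hv⟩ := exists_col hα hP (v := (w1 + w2 + w3) +
      (unit φ α (H i j) + unit φ α (H j (Fin.last 6)) + unit φ α (H (Fin.last 6) i)))
      (fun x => by simp [a1, b1, c1, unit_opp hα]) (fun y => by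
        simp only [bd_add, a3, b3, c3, bd_unit]
        generalize (if y = (H i j).1 then (1 : ZMod 2) else 0) = t1
        generalize (if y = (H j (Fin.last 6)).1 then (1 : ZMod 2) else 0) = t2
        generalize (if y = (H (Fin.last 6) i).1 then (1 : ZMod 2) else 0) = t3
        generalize (if y = (opp φ α (H i j)).1 then (1 : ZMod 2) else 0) = t4
        generalize (if y = (opp φ α (H j (Fin.last 6))).1 then (1 : ZMod 2) else 0) = t5
        generalize (if y = (opp φ α (H (Fin.last 6) i)).1 then (1 : ZMod 2) else 0) = t6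
        revert t1 t2 t3 t4 t5 t6; decide)
    refine ⟨Quot.lift χ ?_, ?_⟩
    · rintro f g (⟨y, rfl, rfl⟩ | ⟨y, rfl, rfl⟩ | ⟨x, hx, rfl, rfl⟩)
      · exact hI.1 y
      · exact hI.2 y
      · refine z2_eq ((congrFun hv x).trans ?_)
        simp only [Pi.add_apply, a2 x (hx.1 _), b2 x (hx.1 _), c2 x (hx.1 _), unit, H2 _ _ n1,
          H2 _ _ n2, H2 _ _ n3, hx.2 _ _ n1, hx.2 _ _ n2, hx.2 _ _ n3, hx.2 _ _ n1.symm,
          hx.2 _ _ n2.symm, hx.2 _ _ n3.symm, if_false, add_zero]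
    · rintro ⟨⟨a', b'⟩, hab'⟩
      obtain ⟨a, ha⟩ : ∃ a, a = a'.castSucc := ⟨_, rfl⟩
      obtain ⟨b, hb⟩ : ∃ b, b = b'.castSucc := ⟨_, rfl⟩
      have m1 : a ≠ b := by rw [ha, hb]; simpa using ne_of_lt hab'
      have m2 : b ≠ Fin.last 6 := hb ▸ (Fin.castSucc_lt_last _).ne
      have m3 : a ≠ Fin.last 6 := ha ▸ (Fin.castSucc_lt_last _).ne
      refine (congrFun hv (H a'.castSucc b'.castSucc)).trans ?_
      rw [← ha, ← hb]
      have hno : ∀ t, ¬ ((H a b).1 ∈ B t ∧ (opp φ α (H a b)).1 ∈ B t) := fun t ht =>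
        m1 ((hB _ _ _ (H1 a b m1) ht.1).trans (hB _ _ _ ht.2 (H3 a b m1)))
      have hi' : ∀ s t, s ≠ t → (H a b = H s t ↔ a = s ∧ b = t) := fun s t h =>
        ⟨Hinj _ _ _ _ m1 h, fun e => by rw [e.1, e.2]⟩
      have m4 : ¬ (a = j ∧ b = i) := by
        rw [ha, hb, hi, hj]
        simp only [Fin.castSucc_inj]
        simp only at hab' hij'
        omega
      simp only [Pi.add_apply, a2 _ (hno _), b2 _ (hno _), c2 _ (hno _), unit, H2 _ _ n1, H2 _ _ n2,
        H2 _ _ n3, hi' _ _ n1, hi' _ _ n2, hi' _ _ n3, hi' _ _ n1.symm, hi' _ _ n2.symm,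
        hi' _ _ n3.symm, m2, m3, m4, and_false, false_and, if_false, add_zero, zero_add]
      refine if_congr ?_ rfl rfl
      rw [ha, hb, hi, hj]
      simp

theorem planar_count (φ α : Equiv.Perm ℕ) (hα : ∀ d, α (α d) = d) (hα' : ∀ d, α d ≠ d)
    (hP : Planar φ α) (A : Finset ℕ) (hA : ∀ d ∈ A, α d ∈ A) (hφ : ∀ d ∈ A, φ d ∈ A)
    (Cut : Finset ℕ) (hCut : ∀ d ∈ A, ∃ c ∈ Cut, ∃ j : ℕ, (φ ^ j) c = d)
    (d0 : ℕ) (h1 : ∀ d ∈ A, φ (α d) = d → d = d0) :
    (A.filter fun d => φ (α d) = d ∨ φ (α (φ (α d))) ≠ d).card ≤ 6 * Cut.card + 4 := by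
  classical
  have hA' : ∀ d, α d ∈ A ↔ d ∈ A := fun d => ⟨fun h => hα d ▸ hA _ h, hA d⟩
  have hφ' : ∀ d, φ d ∈ A ↔ d ∈ A := fun d => ⟨fun h => by
    have : A.image φ = A := eq_of_subset_of_card_le (image_subset_iff.2 hφ)
      (card_image_of_injective _ φ.injective).ge
    rw [← this] at h
    obtain ⟨x, hx, e⟩ := mem_image.1 h
    exact φ.injective e ▸ hx, hφ d⟩
  obtain ⟨σ, hσ⟩ : ∃ σ : Equiv.Perm ℕ, ∀ d, φ (α d) = σ d := ⟨φ * α, fun _ => rfl⟩
  have hσA : ∀ d, σ d ∈ A ↔ d ∈ A := fun d => by rw [← hσ, hφ', hA']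
  let Rep := A.filter fun d => ∀ y, σ.SameCycle d y → d ≤ y
  have hRep : ∀ d ∈ A, ∃ r ∈ Rep, σ.SameCycle d r := by
    intro d hd
    have ex : ∃ y, σ.SameCycle d y := ⟨d, Equiv.Perm.SameCycle.refl _ _⟩
    refine ⟨Nat.find ex, mem_filter.2 ⟨?_, fun y hy => Nat.find_min' ex ((Nat.find_spec ex).trans hy)⟩,
      Nat.find_spec ex⟩
    exact (sameCycle_inv (f := fun x => x ∈ A) (fun x => propext (hσA x)) (Nat.find_spec ex)).mp hd
  have hRep' : ∀ r ∈ Rep, ∀ r' ∈ Rep, σ.SameCycle r r' → r = r' := fun r hr r' hr' h =>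
    le_antisymm ((mem_filter.1 hr).2 _ h) ((mem_filter.1 hr').2 _ h.symm)
  let Hf := A.filter fun d => d < α d
  have cH : 2 * Hf.card ≤ A.card := by
    have : Hf ∪ Hf.image α ⊆ A :=
      union_subset (filter_subset _ _) (image_subset_iff.2 fun d hd => hA d (mem_filter.1 hd).1)
    have h2 := card_le_card this
    rw [card_union_of_disjoint, card_image_of_injective _ α.injective] at h2
    · omega
    · rw [disjoint_left]
      intro d hd hd'
      obtain ⟨x, hx, rfl⟩ := mem_image.1 hd'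
      have := (mem_filter.1 hd).2
      have := (mem_filter.1 hx).2
      rw [hα] at *
      omega
  let E : (A → ZMod 2) →ₗ[ZMod 2] ℕ → ZMod 2 :=
    { toFun := fun b q => if h : q ∈ A then b ⟨q, h⟩ else 0
      map_add' := fun a b => by funext q; by_cases h : q ∈ A <;> simp [h]
      map_smul' := fun a b => by funext q; by_cases h : q ∈ A <;> simp [h] }
  have hE : ∀ b d, d ∉ A → E b d = 0 := fun b d h => dif_neg h
  let L : (A → ZMod 2) →ₗ[ZMod 2] Hf → ZMod 2 := LinearMap.pi fun d =>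
    ((LinearMap.proj (α d)).comp E + (LinearMap.proj (φ (α d))).comp E) +
      ((LinearMap.proj d.1).comp E + (LinearMap.proj (φ d)).comp E)
  have c1 : A.card ≤ Hf.card + Module.finrank (ZMod 2) (LinearMap.ker L) := by
    have := L.finrank_range_add_finrank_ker
    have h2 := (LinearMap.range L).finrank_le
    rw [Module.finrank_fintype_fun_eq_card, Fintype.card_coe] at this h2
    omega
  have hk : ∀ b : LinearMap.ker L, ∃ k : ℕ → ZMod 2, (∀ d, k (φ d) = k d) ∧
      ∀ d, E b (σ d) + k (σ d) = E b d + k d := by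
    intro b
    have hb : ∀ d ∈ Hf, E b (α d) + E b (φ (α d)) = E b d + E b (φ d) := fun d hd =>
      z2_eq (congrFun (LinearMap.mem_ker.1 b.2) ⟨d, hd⟩)
    simp only [← hσ]
    refine hP (E b) fun d => ?_
    by_cases hd : d ∈ A
    · rcases lt_or_gt_of_ne (hα' d) with h | h
      · have := hb (α d) (mem_filter.2 ⟨hA d hd, by rwa [hα]⟩)
        rw [hα] at this
        exact this.symm
      · exact hb d (mem_filter.2 ⟨hd, h⟩)
    · rw [hE _ _ hd, hE _ (α d) (by rwa [hA']), hE _ (φ d) (by rwa [hφ']),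
        hE _ (φ (α d)) (by rwa [hφ', hA'])]
  choose k k1 k2 using hk
  have c2 : Module.finrank (ZMod 2) (LinearMap.ker L) ≤ Cut.card + Rep.card := by
    have := Nat.card_le_card_of_injective (α := LinearMap.ker L)
      (β := (Cut → ZMod 2) × (Rep → ZMod 2)) (fun b => (fun c => k b c, fun r => E b r + k b r))
      (fun b b' e => by
        simp only [Prod.mk.injEq] at e
        refine Subtype.ext (funext fun d => ?_)
        have e1 : k b d = k b' d := by
          obtain ⟨c, hc, j, hj⟩ := hCut d d.2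
          have s : φ.SameCycle c d := ⟨j, hj⟩
          rw [← sameCycle_inv (k1 b) s, ← sameCycle_inv (k1 b') s]
          exact congrFun e.1 ⟨c, hc⟩
        have e2 : E b d + k b d = E b' d + k b' d := by
          obtain ⟨r, hr, s⟩ := hRep d d.2
          rw [sameCycle_inv (f := fun d => E b d + k b d) (k2 b) s,
            sameCycle_inv (f := fun d => E b' d + k b' d) (k2 b') s]
          exact congrFun e.2 ⟨r, hr⟩
        rw [e1, add_left_inj] at e2
        exact (dif_pos d.2).symm.trans (e2.trans (dif_pos d.2)))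
    rw [Module.natCard_eq_pow_finrank (K := ZMod 2)] at this
    simp only [Nat.card_prod, Nat.card_fun, Nat.card_zmod, Nat.card_eq_fintype_card (α := Cut),
      Nat.card_eq_fintype_card (α := Rep), Fintype.card_coe, ← pow_add] at this
    exact (Nat.pow_le_pow_iff_right (by omega)).1 this
  simp only [hσ] at h1 ⊢
  let N1 := A.filter fun d => σ d = d
  let N2 := A.filter fun d => σ d ≠ d ∧ σ (σ d) = d
  let N3 := A.filter fun d => σ (σ d) ≠ d
  have n1 : N1.card ≤ 1 := card_le_one.2 fun a ha b hb =>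
    (h1 a (mem_filter.1 ha).1 (mem_filter.1 ha).2).trans
      (h1 b (mem_filter.1 hb).1 (mem_filter.1 hb).2).symm
  have n0 : N1.card + N2.card + N3.card ≤ A.card := by
    rw [← card_union_of_disjoint, ← card_union_of_disjoint]
    · exact card_le_card (union_subset (union_subset (filter_subset _ _) (filter_subset _ _))
        (filter_subset _ _))
    · rw [disjoint_left]
      intro d hd hd'
      have := (mem_filter.1 hd').2
      rcases mem_union.1 hd with h | h
      · exact this (by rw [(mem_filter.1 h).2, (mem_filter.1 h).2])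
      · exact this (mem_filter.1 h).2.2
    · rw [disjoint_left]
      intro d hd hd'
      exact (mem_filter.1 hd').2.1 (mem_filter.1 hd).2
  have gen : ∀ (m : ℕ) (N : Finset ℕ), (∀ d ∈ N, σ d ∈ N) →
      (∀ d ∈ N, ∀ i < m, ∀ j < m, (σ ^ i) d = (σ ^ j) d → i = j) →
      (Rep ∩ N).card * m ≤ N.card := by
    intro m N hN hm
    rw [← card_range m, ← card_product]
    refine card_le_card_of_injOn (fun p => (σ ^ p.2) p.1) (fun p hp => ?_) fun p hp q hq e => ?_
    · have := (mem_inter.1 (mem_product.1 hp).1).2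
      simp only [mem_coe]
      induction p.2 with
      | zero => exact this
      | succ i ih => rw [pow_succ', Equiv.Perm.mul_apply]; exact hN _ ih
    · obtain ⟨a1, a2⟩ := mem_product.1 hp
      obtain ⟨b1, b2⟩ := mem_product.1 hq
      have s1 : σ.SameCycle p.1 ((σ ^ p.2) p.1) := ⟨p.2, rfl⟩
      have s2 : σ.SameCycle q.1 ((σ ^ q.2) q.1) := ⟨q.2, rfl⟩
      simp only at e
      have e1 := hRep' _ (mem_inter.1 a1).1 _ (mem_inter.1 b1).1 ((e ▸ s1).trans s2.symm)
      rw [← e1] at e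
      exact Prod.ext e1 (hm _ (mem_inter.1 a1).2 _ (mem_range.1 a2) _ (mem_range.1 b2) e)
  have r2 := gen 2 N2 (fun d hd => by
    obtain ⟨a, b, c⟩ := mem_filter.1 hd
    exact mem_filter.2 ⟨(hσA d).2 a, σ.injective.ne b, congrArg σ c⟩) (fun d hd i hi j hj e => by
    obtain ⟨a, b, c⟩ := mem_filter.1 hd
    have b' := b.symm
    interval_cases i <;> interval_cases j <;> simp [b, b'] at e ⊢)
  have r3 := gen 3 N3 (fun d hd => by
    obtain ⟨a, b⟩ := mem_filter.1 hd
    exact mem_filter.2 ⟨(hσA d).2 a, σ.injective.ne b⟩) (fun d hd i hi j hj e => by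
    obtain ⟨a, b⟩ := mem_filter.1 hd
    have c : σ d ≠ d := fun h => b (by rw [h, h])
    have b' := b.symm
    have c' := c.symm
    interval_cases i <;> interval_cases j <;> simp [b, b', c, c', pow_succ] at e ⊢)
  have r0 : Rep.card ≤ N1.card + (Rep ∩ N2).card + (Rep ∩ N3).card := by
    refine le_trans (card_le_card (t := N1 ∪ Rep ∩ N2 ∪ Rep ∩ N3) fun d hd => ?_)
      ((card_union_le _ _).trans (Nat.add_le_add_right (card_union_le _ _) _))
    have := (mem_filter.1 hd).1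
    simp only [mem_union, mem_inter, N1, N2, N3, mem_filter, hd, this, true_and]
    tauto
  have r1 : A.card ≤ N1.card + N2.card + N3.card := by
    refine le_trans (card_le_card (t := N1 ∪ N2 ∪ N3) fun d hd => ?_)
      ((card_union_le _ _).trans (Nat.add_le_add_right (card_union_le _ _) _))
    simp only [mem_union, N1, N2, N3, mem_filter, hd, true_and]
    tauto
  have r4 : (A.filter fun d => σ d = d ∨ σ (σ d) ≠ d).card ≤ N1.card + N3.card := by
    rw [filter_or]; exact card_union_le _ _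
  omega

theorem planar_single (φ α : Equiv.Perm ℕ) (hα : ∀ d, α (α d) = d) (hα' : ∀ d, α d ≠ d)
    (hP : Planar φ α) (d0 n : ℕ) (hn : 0 < n) (hper : (φ ^ n) d0 = d0)
    (hinj : ∀ i < n, ∀ j < n, (φ ^ i) d0 = (φ ^ j) d0 → i = j)
    (hcl : ∀ i < n, ∃ j < n, α ((φ ^ i) d0) = (φ ^ j) d0) :
    ∃ i, i + 1 < n ∧ α ((φ ^ i) d0) = (φ ^ (i + 1)) d0 := by
  classical
  obtain ⟨x, hx⟩ : ∃ x : ℕ → ℕ, ∀ t, (φ ^ t) d0 = x t := ⟨_, fun _ => rfl⟩
  have hs : ∀ t, φ (x t) = x (t + 1) := fun t => by rw [← hx, ← hx, pow_succ']; rfl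
  have h0 : x n = x 0 := by rw [← hx, hper, ← hx]; rfl
  simp only [hx] at hinj hcl ⊢
  have ex : ∃ g, ∃ i, i + g + 1 < n ∧ α (x i) = x (i + g + 1) := by
    obtain ⟨j, hj, e⟩ := hcl 0 hn
    have : j ≠ 0 := by rintro rfl; exact hα' _ e
    exact ⟨j - 1, 0, by omega, by rw [e]; congr 1; omega⟩
  obtain ⟨i, hi, hij⟩ := Nat.find_spec ex
  have hmin := fun g => Nat.find_min ex (m := g)
  generalize Nat.find ex = g at *
  rcases Nat.eq_zero_or_pos g with rfl | hg
  · exact ⟨i, hi, hij⟩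
  exfalso
  obtain ⟨e, he, hie⟩ := hcl (i + 1) (by omega)
  have key : ∀ lo hi, lo < hi → hi < n → α (x lo) = x hi →
      ((lo < i ∧ i ≤ hi) ↔ (lo < i + g + 2 ∧ i + g + 2 ≤ hi)) := by
    intro lo hi' h1 h2 h3
    let b : ℕ → ZMod 2 := fun d => if ∃ t, lo < t ∧ t ≤ hi' ∧ x t = d then 1 else 0
    have hb : ∀ t ≤ n, b (x t) = if lo < t ∧ t ≤ hi' then 1 else 0 := by
      intro t ht
      refine if_congr ⟨?_, fun h => ⟨t, h.1, h.2, rfl⟩⟩ rfl rfl
      rintro ⟨s, s1, s2, s3⟩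
      rcases lt_or_eq_of_le ht with h | rfl
      · have := hinj s (by omega) t h s3
        omega
      · have := hinj s (by omega) 0 hn (s3.trans h0)
        omega
    have hz : ∀ d, b d + b (φ d) = if d = x lo ∨ d = x hi' then 1 else 0 := by
      intro d
      by_cases hd : ∃ t < n, x t = d
      · obtain ⟨t, ht, rfl⟩ := hd
        rw [hs, hb t ht.le, hb _ ht]
        have e1 : x t = x lo ↔ t = lo := ⟨hinj _ ht _ (by omega), fun e => by rw [e]⟩
        have e2 : x t = x hi' ↔ t = hi' := ⟨hinj _ ht _ h2, fun e => by rw [e]⟩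
        simp only [e1, e2]
        split_ifs <;> first | rfl | omega
      · push Not at hd
        simp only [b]
        rw [if_neg, if_neg, if_neg]
        · rfl
        · rintro (e | e)
          · exact hd _ (by omega) e.symm
          · exact hd _ h2 e.symm
        · rintro ⟨t, t1, t2, t3⟩
          obtain ⟨s, rfl⟩ : ∃ s, t = s + 1 := ⟨t - 1, by omega⟩
          exact hd s (by omega) (φ.injective ((hs s).trans t3))
        · rintro ⟨t, t1, t2, t3⟩
          exact hd t (by omega) t3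
    obtain ⟨k, k1, k2⟩ := hP b fun d => by
      rw [hz, hz]
      have h4 : α (x hi') = x lo := by rw [← h3, hα]
      refine if_congr ⟨?_, ?_⟩ rfl rfl
      · rintro (e | e)
        · exact Or.inr (by rw [← hα d, e, h3])
        · exact Or.inl (by rw [← hα d, e, h4])
      · rintro (rfl | rfl)
        · exact Or.inr h3
        · exact Or.inl h4
    have k3 : ∀ t, k (x t) = k (x 0) := by
      intro t
      induction t with
      | zero => rfl
      | succ t ih => rw [← hs, k1, ih]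
    have := k2 (x i)
    rw [hij, hs, k3, k3 i, add_left_inj, hb _ (by omega), hb _ (by omega)] at this
    by_contra hne
    split_ifs at this with a b
    · tauto
    · cases this
    · cases this
    · tauto
  have n1 : e ≠ i + 1 := by rintro rfl; exact hα' _ hie
  have n2 : e ≠ i := by
    rintro rfl
    have := hinj _ (by omega) _ hi (by rw [← hij, ← hie, hα] : x (e + 1) = _)
    omega
  have n3 : e ≠ i + g + 1 := by
    rintro rfl
    have := hinj _ (by omega) _ (by omega) (α.injective (hie.trans hij.symm))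
    omega
  rcases lt_or_gt_of_ne n1 with h | h
  · have := key e (i + 1) h (by omega) (by rw [← hie, hα])
    omega
  · have := key (i + 1) e h he hie
    have := hmin (e - i - 2)
    by_cases h' : e < i + g + 1
    · exact this (by omega) ⟨i + 1, by omega, by rw [hie]; congr 1; omega⟩
    · omega

end Vale.Agent.P201
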