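import Vale.Agent.P201.Main
import Vale.Agent.P201.Design

set_option linter.unusedSectionVars false

namespace Vale.Agent.P201

open Finset Equiv Filter

theorem exists_large (a b : ℝ) (N : ℕ) : ∃ L : ℕ, N ≤ L ∧ a + b * Real.log L < L := by
  have h1 := Real.isLittleO_log_id_atTop.bound (c := 1 / (2 * (|b| + 1))) (by positivity)
  have h2 := (h1.and (eventually_gt_atTop (2 * |a| + 1)))
  obtain ⟨L, ⟨e1, e2⟩, e3⟩ :=
    ((tendsto_natCast_atTop_atTop.eventually h2).and (eventually_ge_atTop N)).exists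
  refine ⟨L, e3, ?_⟩
  simp only [Real.norm_eq_abs, id, Nat.abs_cast] at e1
  have a1 := le_abs_self a
  have a2 : b * Real.log L ≤ |b| * |Real.log L| := by rw [← abs_mul]; exact le_abs_self _
  have a3 : (|b| + 1) * |Real.log L| ≤ L / 2 := by
    refine (mul_le_mul_of_nonneg_left e1 (by positivity)).trans (le_of_eq ?_)
    field_simp
  have := abs_nonneg (Real.log L)
  have := abs_nonneg a
  nlinarith

/-- darts of a typed vertex set -/
abbrev Dart {V S : Type} (ty : V → Finset S) := {p : V × S // p.2 ∈ ty p.1}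

/-- linear isoperimetric property -/
def MainP {Gen V Dt : Type} (src : Dt → V) (lab : Dt → Gen × Bool) (ρ : Dt → Dt) (root : V)
    (Cst : ℕ) : Prop :=
  ∀ R : RM src lab ρ root, R.B.card ≤ Cst * ((R.A \ R.B).card + 1) ∧ (R.A ⊆ R.B → R.A = ∅)

theorem exists_graph' {Gen : Type} [Fintype Gen] [DecidableEq Gen] (s0 : Gen × Bool)
    (A : Alph Gen) (C : ℕ) (hD : ∀ Bd : ℕ, 1 ≤ Bd →
      ∃ (V : Type) (_ : Fintype V) (_ : DecidableEq V), Nonempty (Lay A C Bd V)) :
    ∃ (V : Type) (_ : Fintype V) (_ : DecidableEq V) (Bd : ℕ) (Y : Lay A C Bd V)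
      (ρ : Perm (Dart Y.ty)) (Cst : ℕ), Adm (fun d => d.1.1) (fun d => d.1.2) Y.side ρ ∧
      MainP (fun d => d.1.1) (fun d => d.1.2) ρ Y.c0 Cst := by
  set κ := - Real.log A.r with hκd
  have hκ : 0 < κ := neg_pos.2 (Real.log_neg (A.r_pos s0) A.r_lt)
  obtain ⟨H0, hH0⟩ := (Set.finite_range fun x : (Gen × Bool) × (Gen × Bool) =>
    - Real.log (A.p x.1 x.2)).bddAbove
  set H := max H0 0
  have hH : ∀ t s, - Real.log (A.p t s) ≤ H := fun t s =>
    (hH0 ⟨(t, s), rfl⟩).trans (le_max_left _ _)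
  have H0' : 0 ≤ H := le_max_right _ _
  set ε := min 1 (κ / (16 * (κ + H)))
  have hε : 0 < ε := lt_min one_pos (by positivity)
  have h1 : (κ + H) * (2 * ε) ≤ κ / 8 := by
    have : ε ≤ κ / (16 * (κ + H)) := min_le_right _ _
    rw [le_div_iff₀ (by positivity)] at this
    linarith
  set r := ⌈36 / ε⌉₊ + 8 with hr
  have hrε : 36 ≤ ε * r := by
    have := Nat.le_ceil (36 / ε)
    rw [div_le_iff₀ hε] at this
    rw [hr]; push_cast; nlinarith
  have hr8 : 8 ≤ r := by omega
  have hr0 : (0 : ℝ) < r := by exact_mod_cast (by omega : 0 < r)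
  set S := Fintype.card (Gen × Bool)
  have hS : 1 ≤ S := Fintype.card_pos_iff.2 ⟨s0⟩
  set c1 := Real.log (S + 1) + 1
  have hc1 : 0 < c1 := by
    have : 0 ≤ Real.log (S + 1) := Real.log_nonneg (by simp)
    positivity
  set Λ := 16 * ε * c1 * r / κ with hΛd
  have hΛ : 0 < Λ := by positivity
  obtain ⟨K, hK⟩ := local_lemma ε (3 + Λ) hε (by positivity)
  set Q := (K + 1) * (4 * (K * (2 * K ^ 2 + 132 * K + 1)) + 2) + (2 * K ^ 2 + 132 * K + 1) + 2
  set Fm := ∑ s, Real.log (A.f s)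
  have hFm : 0 ≤ Fm := sum_nonneg fun s _ => Real.log_nonneg (A.f_ge s)
  obtain ⟨L, hL, hL2⟩ := exists_large
    (4 / κ * (K * Q * (Fm + 7 * Real.log (10 * C * S * (3 * K + 3)) + (κ + H))))
    (4 / κ * (K * Q * 7)) (K + 1 + 6 * C)
  have hL' : (1 : ℝ) ≤ L := by exact_mod_cast (by omega : 1 ≤ L)
  set g := r * L with hg
  set M := K * (2 * L + 1) + 1 with hM
  have hMg : M ≤ (S + 1) ^ g := by
    have a := Nat.lt_two_pow_self (n := L)
    have b : 2 ^ (L + L + 3) ≤ (S + 1) ^ g :=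
      (Nat.pow_le_pow_right (by omega) (by nlinarith)).trans (Nat.pow_le_pow_left (by omega) _)
    rw [pow_add, pow_add] at b
    nlinarith
  obtain ⟨V, _, _, ⟨Y⟩⟩ := hD (6 * (S + 1) ^ g) (by omega)
  have hcls : ∀ b s, (cls (Dt := Dart Y.ty) (fun d => d.1.1) (fun d => d.1.2) Y.side b s).card =
      (univ.filter fun v => Y.side v = b ∧ s ∈ Y.ty v).card := by
    intro b s
    refine card_nbij (fun d => d.1.1) ?_ ?_ ?_
    · rintro ⟨⟨v, t⟩, h⟩ hd
      simp only [cls, coe_filter, mem_univ, true_and, Set.mem_ofPred_eq] at hd ⊢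
      exact ⟨hd.1, hd.2 ▸ h⟩
    · intro x hx y hy h
      simp only [cls, coe_filter, mem_univ, true_and, Set.mem_ofPred_eq] at hx hy
      exact Subtype.ext (Prod.ext h (hx.2.trans hy.2.symm))
    · intro v hv
      simp only [coe_filter, mem_univ, true_and, Set.mem_ofPred_eq] at hv
      exact ⟨⟨(v, s), hv.2⟩, by simp [cls, hv.1], rfl⟩
  have hf : ∀ t t' : Dart Y.ty, t.1.1 = t'.1.1 → t.1.2 = t'.1.2 → t = t' :=
    fun t t' a b => Subtype.ext (Prod.ext a b)
  obtain ⟨t0, -⟩ : (cls (Dt := Dart Y.ty) (fun d => d.1.1) (fun d => d.1.2) Y.side true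
      s0).Nonempty := by
    rw [← card_pos, hcls]
    have := Y.big true s0
    have := Y.n_pos
    omega
  obtain ⟨ρ, hρ, hgi, hG⟩ := exists_good A (src := fun d : Dart Y.ty => d.1.1)
    (lab := fun d => d.1.2) (side := Y.side) Y.c0 t0 hf C g Y.n M (by omega) Y.n_pos Y.card_le
    (fun b s => by rw [hcls, hcls]; exact Y.bal b s)
    (fun b s => by rw [hcls]; exact le_trans (show Y.n + (4 * (S + 1) ^ g + 2 * M) ≤ _ by omega) (Y.big b s))
    (fun b t s hts => by
      convert Y.two b t s hts using 4 with v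
      · refine and_congr_right fun _ => and_congr ?_ ?_
        · exact ⟨fun ⟨y, a, b⟩ => a ▸ b ▸ y.2, fun h => ⟨⟨(v, t), h⟩, rfl, rfl⟩⟩
        · exact ⟨fun ⟨y, a, b⟩ => a ▸ b ▸ y.2, fun h => ⟨⟨(v, s), h⟩, rfl, rfl⟩⟩)
  have hC : 1 ≤ C := by
    have := Y.n_le; have := Y.n_pos
    rcases Nat.eq_zero_or_pos C with h | h
    · subst h; omega
    · exact h
  have hC' : (1 : ℝ) ≤ C := by exact_mod_cast hC
  have hS' : (1 : ℝ) ≤ S := by exact_mod_cast hS
  have hCS : (1 : ℝ) ≤ C * S := by nlinarith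
  have h2 : 2 * ε / Λ * Real.log Y.n ≤ κ / 8 * L := by
    have a : (Y.n : ℝ) ≤ (6 * C) * (S + 1) ^ g := by
      have := Y.n_le
      exact_mod_cast this.trans (le_of_eq (by ring))
    have b := Real.log_le_log (by exact_mod_cast Y.n_pos) a
    rw [Real.log_mul (by positivity) (by positivity), Real.log_pow] at b
    have c : Real.log (6 * C) ≤ g := by
      refine (Real.log_le_self (by positivity)).trans ?_
      exact_mod_cast (by nlinarith : 6 * C ≤ g)
    have e : Real.log Y.n ≤ c1 * (r * L) := by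
      have : (g : ℝ) = r * L := by rw [hg]; push_cast; ring
      rw [← this]; simp only [c1]; linarith
    refine (mul_le_mul_of_nonneg_left e (by positivity)).trans (le_of_eq ?_)
    rw [hΛd]; field_simp; ring
  have hM0 : (0 : ℝ) ≤ M := Nat.cast_nonneg _
  have hE1 : 0 ≤ Real.log (10 * C * S * (M + 1)) := Real.log_nonneg (by nlinarith)
  have h3 : K * Q * (Fm + 7 * Real.log (10 * C * S * (M + 1)) + (κ + H)) < κ / 4 * L := by
    have a : Real.log (10 * C * S * (M + 1)) ≤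
        Real.log (10 * C * S * (3 * K + 3)) + Real.log L := by
      rw [← Real.log_mul (by positivity) (by positivity), mul_assoc _ _ (L : ℝ)]
      refine Real.log_le_log (by positivity) (mul_le_mul_of_nonneg_left ?_ (by positivity))
      exact_mod_cast (by nlinarith : M + 1 ≤ (3 * K + 3) * L)
    have b := mul_lt_mul_of_pos_left hL2 (show 0 < κ / 4 by positivity)
    have c := mul_le_mul_of_nonneg_left a (show (0 : ℝ) ≤ K * Q * 7 by positivity)
    have e : κ / 4 * (4 / κ * (K * Q * (Fm + 7 * Real.log (10 * C * S * (3 * K + 3)) + (κ + H))) +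
        4 / κ * (K * Q * 7) * Real.log L) =
        K * Q * (Fm + 7 * Real.log (10 * C * S * (3 * K + 3)) + (κ + H)) +
          K * Q * 7 * Real.log L := by field_simp
    linarith
  refine ⟨V, inferInstance, inferInstance, _, Y, ρ, (2 * L + 1) * (⌈4 / ε⌉₊ + 1), hρ, fun R => ?_⟩
  obtain ⟨a, b⟩ := rm_main A hH hρ.1 hρ.2.1 hf hε (min_le_left _ _) hΛ hgi (by omega) hr8 hrε hK
    (by omega) Y.n_pos (by positivity) hG le_rfl hκ H0' h1 h2 h3 R
  refine ⟨?_, b⟩
  have c := Nat.le_ceil (4 / ε)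
  have l0 : (0 : ℝ) ≤ (R.A \ R.B).card := Nat.cast_nonneg _
  have : (R.B.card : ℝ) ≤ (2 * L + 1) * (⌈4 / ε⌉₊ + 1) * ((R.A \ R.B).card + 1) := by
    refine a.trans ?_
    rw [mul_assoc]
    refine mul_le_mul_of_nonneg_left ?_ (by positivity)
    have := mul_le_mul_of_nonneg_right c l0
    rw [mul_div_right_comm]
    have : (0 : ℝ) ≤ ⌈4 / ε⌉₊ := Nat.cast_nonneg _
    nlinarith
  exact_mod_cast this

end Vale.Agent.P201
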