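import Vale.Agent.P201.Alg
import Vale.Agent.P201.Param

namespace Vale.Agent.P201

open Finset Equiv

theorem handshake {V S G R : Type} [DecidableEq V] [DecidableEq S] [Group G] [AddCommGroup R]
    (h2 : ∀ x : R, x + x = 0) (ty : V → Finset S) (i : S → S) (hi : ∀ s, i s ≠ s)
    (hii : ∀ s, i (i s) = s) (nb : V → S → V) (gv : V → G) (lt : S → G) (P Q : Finset V)
    (h : ∀ v, ∀ s ∈ ty v, i s ∈ ty (nb v s) ∧ nb (nb v s) (i s) = v ∧ gv (nb v s) = gv v * lt s ∧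
      (v ∈ P → nb v s ∈ P) ∧ (v ∈ Q → nb v s ∈ Q)) (F : G → R) :
    ∑ v ∈ P, ∑ w ∈ Q, (ty v ∩ ty w).card • F (gv v * (gv w)⁻¹) = 0 := by
  simp only [← sum_const]
  rw [sum_sigma', sum_sigma']
  refine sum_involution (fun x _ => ⟨⟨nb x.1.1 x.2, nb x.1.2 x.2⟩, i x.2⟩) ?_ ?_ ?_ ?_
  · rintro ⟨⟨v, w⟩, s⟩ hx
    simp only [mem_sigma, mem_inter] at hx
    simp only [(h v s hx.2.1).2.2.1, (h w s hx.2.2).2.2.1, mul_inv_rev, ← mul_assoc,
      mul_inv_cancel_right, h2]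
  · rintro ⟨⟨v, w⟩, s⟩ _ _ e
    exact hi s (congrArg (fun x : (_ : (_ : V) × V) × S => x.2) e)
  · rintro ⟨⟨v, w⟩, s⟩ hx
    simp only [mem_sigma, mem_inter] at hx ⊢
    exact ⟨⟨(h v s hx.2.1).2.2.2.1 hx.1.1, (h w s hx.2.2).2.2.2.2 hx.1.2⟩, (h v s hx.2.1).1,
      (h w s hx.2.2).1⟩
  · rintro ⟨⟨v, w⟩, s⟩ hx
    simp only [mem_sigma, mem_inter] at hx
    simp only [(h v s hx.2.1).2.1, (h w s hx.2.2).2.1, hii]

theorem exists_hyp {Gen D V : Type} (src : D → V) (rev : D → D) (lab : D → Gen × Bool)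
    (rr : ∀ t, rev (rev t) = t) (lr : ∀ t, lab (rev t) = iv (lab t))
    (fold : ∀ t t', src t = src t' → lab t = lab t' → t = t') (root : V) (ne : Nonempty D)
    (hM : ∀ R : RM src lab rev root, R.A ⊆ R.B → R.A = ∅) :
    ∃ (G : Type) (_ : Group G) (Γ : LG Gen D V G) (π : FreeGroup Gen →* G),
      Γ.src = src ∧ Γ.rev = rev ∧ Γ.lab = lab ∧ Hyp Γ π root := by
  let N := Subgroup.normalClosure
    {w | ∃ v l, IsPath src rev v l v ∧ w = FreeGroup.mk (l.map lab)}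
  let Γ : LG Gen D V (FreeGroup Gen ⧸ N) := ⟨src, rev, lab, fun s => QuotientGroup.mk' N (ltr s),
    rr, lr, fold, fun s => by rw [mk_iv, map_inv]⟩
  refine ⟨_, inferInstance, Γ, QuotientGroup.mk' N, rfl, rfl, rfl, ne,
    QuotientGroup.mk'_surjective N, fun _ => rfl, fun v l h => ?_, fun W h => ?_, hM⟩
  · exact (QuotientGroup.eq_one_iff _).2 (Subgroup.subset_normalClosure ⟨v, l, h, rfl⟩)
  · replace h : W ∈ N := (QuotientGroup.eq_one_iff _).1 h
    induction h using Subgroup.closure_induction with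
    | mem x hx =>
      obtain ⟨a, ⟨v, l, hl, rfl⟩, hc⟩ := Group.mem_conjugatesOfSet_iff.1 hx
      obtain ⟨c, rfl⟩ := isConj_iff.1 hc
      exact ⟨[(c, l)], by simpa [LG.Cl] using ⟨v, hl⟩, by simp [LG.val]; rfl⟩
    | one => exact ⟨[], by simp [LG.Cl], rfl⟩
    | mul x y _ _ a b =>
      obtain ⟨Z, a, rfl⟩ := a
      obtain ⟨Z', b, rfl⟩ := b
      exact ⟨Z ++ Z', a.append b, LG.val_append _ _⟩
    | inv x _ a =>
      obtain ⟨Z, a, rfl⟩ := a
      exact ⟨_, a.inv, LG.val_inv _⟩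

theorem main_alg : ∃ (G : Type) (_ : Group G), (∀ g : G, IsOfFinOrder g → g = 1) ∧
    ∃ a a' c c' : MonoidAlgebra (ZMod 2) G, c ≠ 0 ∧ c' ≠ 0 ∧ c * c' = 0 ∧ c * a' = 0 ∧
      a * a' = 1 := by
  classical
  obtain ⟨A, C, hD⟩ := exists_design
  obtain ⟨V, _, _, Bd, Y, ρ, Cst, hρ, hM⟩ := exists_graph' (0, true) A C hD
  obtain ⟨G, _, Γ, π, e1, e2, e3, H⟩ := exists_hyp (D := Dart Y.ty) (fun d => d.1.1) ρ
    (fun d => d.1.2) hρ.1 hρ.2.1 (fun t t' a b => Subtype.ext (Prod.ext a b)) Y.c0 (by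
      obtain ⟨s, hs⟩ := card_pos.1 (Y.odd Y.c0 Y.c0 fun h => by
        have := Y.side_a0; rw [← h.1, Y.side_c0] at this; cases this).pos
      exact ⟨⟨(_, s), (mem_inter.1 hs).1⟩⟩) fun R => (hM R).2
  obtain ⟨gv, hgv⟩ := H.exists_gv
  let cp : V → Finset V := fun u => univ.filter fun v => ∃ l, IsPath Γ.src Γ.rev u l v
  have hs : ∀ l u v, IsPath Γ.src Γ.rev u l v → Y.side v = Y.side u := by
    intro l
    induction l with
    | nil => rintro u v rfl; rfl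
    | cons t l ih =>
      rintro u v ⟨rfl, h⟩
      rw [ih _ _ h, e1, e2]; exact hρ.2.2 t
  let nb : V → Fin 8260 × Bool → V := fun v s =>
    if h : s ∈ Y.ty v then Γ.src (Γ.rev ⟨(v, s), h⟩) else v
  have hk : ∀ p q, ∑ v ∈ cp p, ∑ w ∈ cp q, (Y.ty v ∩ Y.ty w).card •
      MonoidAlgebra.single (gv v * (gv w)⁻¹) (1 : ZMod 2) = 0 := by
    intro p q
    refine handshake (fun x => by rw [← two_smul (ZMod 2)]; exact zero_smul _ _) Y.ty iv iv_ne iv_iv
      nb gv Γ.lt _ _ (fun v s h => ?_) fun g => MonoidAlgebra.single g (1 : ZMod 2)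
    have a : IsPath Γ.src Γ.rev v [⟨(v, s), h⟩] (nb v s) := ⟨by rw [e1], by simp [nb, h]⟩
    have b : ρ ⟨(v, s), h⟩ = ⟨(nb v s, iv s), by
        have := (ρ ⟨(v, s), h⟩).2
        rw [show (ρ ⟨(v, s), h⟩).1.2 = iv s from hρ.2.1 _] at this
        simpa [nb, h, e1, e2] using this⟩ :=
      Subtype.ext (Prod.ext (by simp [nb, h, e1, e2]) (hρ.2.1 _))
    have c : ∀ p, v ∈ cp p → nb v s ∈ cp p := fun p hp => by
      obtain ⟨l, hl⟩ := (mem_filter.1 hp).2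
      exact mem_filter.2 ⟨mem_univ _, _, hl.append a⟩
    have h' : iv s ∈ Y.ty (nb v s) := by
      have := (ρ ⟨(v, s), h⟩).2
      rwa [b] at this
    refine ⟨h', ?_, ?_, c p, c q⟩
    · rw [show nb (nb v s) (iv s) = _ from dif_pos h', ← b, e2, hρ.1, e1]
    · rw [hgv _ _ _ a, LG.wd_cons, LG.wd_nil, mul_one, ← H.hπ, e3]
  have od : ∀ (n : ℕ) (x : MonoidAlgebra (ZMod 2) G), Odd n → n • x = x := fun n x hn => by
    rw [← Nat.cast_smul_eq_nsmul (ZMod 2), ZMod.natCast_eq_one_iff_odd.2 hn, one_smul]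
  have mu : ∀ p q, (∑ v ∈ cp p, MonoidAlgebra.single (gv v) (1 : ZMod 2)) *
      (∑ w ∈ cp q, MonoidAlgebra.single (gv w)⁻¹ (1 : ZMod 2)) =
      ∑ v ∈ cp p, ∑ w ∈ cp q, MonoidAlgebra.single (gv v * (gv w)⁻¹) (1 : ZMod 2) := by
    intro p q
    simp only [sum_mul_sum, MonoidAlgebra.single_mul_single, mul_one]
  have z : ∀ q, (∑ v ∈ cp Y.c0, MonoidAlgebra.single (gv v) (1 : ZMod 2)) *
      (∑ w ∈ cp q, MonoidAlgebra.single (gv w)⁻¹ (1 : ZMod 2)) = 0 := by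
    intro q
    rw [mu, ← hk Y.c0 q]
    refine sum_congr rfl fun v hv => sum_congr rfl fun w _ => (od _ _ (Y.odd v w fun h => ?_)).symm
    obtain ⟨l, hl⟩ := (mem_filter.1 hv).2
    have := hs _ _ _ hl
    rw [h.1, Y.side_a0, Y.side_c0] at this; cases this
  have nz : ∀ f : G → G, Function.Injective f →
      ∑ v ∈ cp Y.c0, MonoidAlgebra.single (f (gv v)) (1 : ZMod 2) ≠ 0 := by
    intro f hf e
    have := congrArg (fun x : MonoidAlgebra (ZMod 2) G => x.coeff (f (gv Y.c0))) e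
    simp only [MonoidAlgebra.coeff_sum, Finsupp.coe_finsetSum, Finset.sum_apply] at this
    rw [sum_eq_single Y.c0] at this
    · simp at this
    · intro v hv hne
      obtain ⟨l, hl⟩ := (mem_filter.1 hv).2
      have := hgv _ _ _ (hl.reverse Γ.rr)
      rw [MonoidAlgebra.coeff_single, Finsupp.single_eq_of_ne]
      intro e
      rw [← hf e] at this
      exact hne (H.sep (hl.reverse Γ.rr) (by simpa using this))
    · intro h
      exact absurd (mem_filter.2 ⟨mem_univ _, [], rfl⟩) h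
  refine ⟨G, inferInstance, H.torsionFree, ∑ v ∈ cp Y.a0, MonoidAlgebra.single (gv v) 1, _, _, _,
    nz id Function.injective_id, nz _ inv_injective, z _, z Y.a0, ?_⟩
  have a0 : Y.a0 ∈ cp Y.a0 := mem_filter.2 ⟨mem_univ _, [], rfl⟩
  rw [mu, ← sub_zero (∑ _ ∈ _, _), ← hk Y.a0 Y.a0, ← sum_sub_distrib, sum_eq_single_of_mem _ a0,
    ← sum_sub_distrib, sum_eq_single_of_mem _ a0]
  · rw [inter_self, ← Nat.cast_smul_eq_nsmul (ZMod 2), ZMod.natCast_eq_zero_iff_even.2 Y.even_a0]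
    simp [MonoidAlgebra.one_def]
  · intro w _ hw
    rw [od _ _ (Y.odd _ _ fun h => hw h.2), sub_self]
  · intro v _ hv
    rw [← sum_sub_distrib]
    exact sum_eq_zero fun w _ => by rw [od _ _ (Y.odd _ _ fun h => hv h.1), sub_self]

end Vale.Agent.P201
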