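import Vale.Agent.P201.Kraft

set_option linter.unusedSectionVars false

namespace Vale.Agent.P201

open Finset Equiv

/-- pointer update -/
def nxt : Option (ℕ × Bool) → Option (ℕ × Bool)
  | none => none
  | some (k, true) => some (k + 1, true)
  | some (k, false) => some (k - 1, false)

theorem nxt_none {o : Option (ℕ × Bool)} : nxt o = none ↔ o = none := by
  rcases o with _ | ⟨k, _ | _⟩ <;> simp [nxt]

/-- signed letter -/
def sg {Gen : Type} (b : Bool) (s : Gen × Bool) : Gen × Bool := if b then s else iv s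

variable {Gen V Dt : Type} [Fintype Dt] [DecidableEq Dt] [Fintype V] [DecidableEq V] [Fintype Gen]
  [DecidableEq Gen]

/-- a description scheme of a sequence of edges -/
structure Code (src : Dt → V) (lab : Dt → Gen × Bool) (ρ : Dt → Dt) (root : V) (M m : ℕ)
    (d : ℕ → Dt) (brk : ℕ → Bool) (ptr : ℕ → Option (ℕ × Bool)) : Prop where
  dist : ∀ i < m, ∀ k < i, d i ≠ d k ∧ d i ≠ ρ (d k)
  brk0 : brk 0 = true
  cont : ∀ i < m, brk i = false → src (d i) = src (ρ (d (i - 1)))
  new : ∀ i < m, brk i = false → src (d i) ≠ root ∧ (∀ k < i, src (d k) ≠ src (d i)) ∧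
    ∀ k, k + 1 < i → src (ρ (d k)) ≠ src (d i)
  nx : ∀ i < m, brk i = false → ptr i = nxt (ptr (i - 1))
  cp : ∀ i < m, brk i = false → ∀ k b, ptr i = some (k, b) → k < i ∧ lab (d i) = sg b (lab (d k))
  bd : ∀ i < m, ∀ k b, ptr i = some (k, b) → k < M

/-- logarithmic gain of a step -/
noncomputable def gain (A : Alph Gen) (lab : Dt → Gen × Bool) (d : ℕ → Dt)
    (ptr : ℕ → Option (ℕ × Bool)) (i : ℕ) : ℝ :=
  if ptr i = none then - Real.log A.r + Real.log (A.p (iv (lab (d (i - 1)))) (lab (d i)))
  else - Real.log (A.p (iv (lab (d (i - 1)))) (lab (d i)))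

/-- non-root vertices of the first `m` edges -/
def vts (src : Dt → V) (ρ : Dt → Dt) (root : V) (d : ℕ → Dt) (m : ℕ) : Finset V :=
  (((range m).image fun i => src (d i)) ∪ (range m).image fun i => src (ρ (d i))).erase root

/-- the first-moment property -/
def Good (A : Alph Gen) (src : Dt → V) (lab : Dt → Gen × Bool) (ρ : Dt → Dt) (root : V)
    (n M : ℕ) (E : ℝ) : Prop :=
  ∀ m ≤ M, ∀ d brk ptr, Code src lab ρ root M m d brk ptr →
    ∑ i ∈ (range m).filter (fun i => brk i = false), gain A lab d ptr i +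
      ((m : ℝ) - (vts src ρ root d m).card) * Real.log n ≤
      (((range m).filter fun i => brk i = true).card + 2) * E

/-- symbols -/
abbrev Sy (M : ℕ) (Dt V : Type) := Bool × Option (Fin M × Bool) × Dt × V

/-- forget the bound -/
def em {M : ℕ} (o : Option (Fin M × Bool)) : Option (ℕ × Bool) := o.map fun x => (x.1.1, x.2)

theorem em_inj {M : ℕ} : Function.Injective (em (M := M)) := by
  rintro (_ | ⟨a, b⟩) (_ | ⟨c, e⟩) h <;> simp [em] at h ⊢
  exact ⟨Fin.ext h.1, h.2⟩

/-- restore the bound -/
def lf (M : ℕ) (o : Option (ℕ × Bool)) : Option (Fin M × Bool) :=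
  o.bind fun x => if h : x.1 < M then some (⟨x.1, h⟩, x.2) else none

theorem em_lf {M : ℕ} {o : Option (ℕ × Bool)} (h : ∀ k b, o = some (k, b) → k < M) :
    em (lf M o) = o := by
  rcases o with _ | ⟨k, b⟩
  · rfl
  · simp [lf, em, h k b rfl]

/-- vertex weight -/
noncomputable def wv (H : Finset V) (v : V) : ℝ :=
  if v ∈ H then 1 / (2 * (H.card + 1)) else 1 / (2 * Fintype.card V)

theorem wv_nonneg (H : Finset V) (v : V) : 0 ≤ wv H v := by
  unfold wv; split_ifs <;> positivity

theorem wv_sum (H : Finset V) : ∑ v, wv H v ≤ 1 := by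
  have h1 : ∀ v, wv H v ≤ (if v ∈ H then 1 / (2 * ((H.card : ℝ) + 1)) else 0) +
      1 / (2 * Fintype.card V) := fun v => by
    unfold wv; split_ifs
    · exact le_add_of_nonneg_right (by positivity)
    · simp
  refine (sum_le_sum fun v _ => h1 v).trans ?_
  rw [sum_add_distrib, sum_ite_mem, univ_inter, sum_const, sum_const, card_univ, nsmul_eq_mul,
    nsmul_eq_mul]
  have a : (H.card : ℝ) * (1 / (2 * (H.card + 1))) ≤ 1 / 2 := by
    rw [mul_one_div, div_le_div_iff₀ (by positivity) (by positivity)]; linarith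
  have b : (Fintype.card V : ℝ) * (1 / (2 * Fintype.card V)) ≤ 1 / 2 := by
    rcases Nat.eq_zero_or_pos (Fintype.card V) with h | h
    · simp [h]
    · have : (0 : ℝ) < Fintype.card V := by exact_mod_cast h
      apply le_of_eq; field_simp
  linarith

theorem wv_low (H : Finset V) (v : V) {n C : ℕ} (hn : 1 ≤ n) (hV : Fintype.card V ≤ C * n)
    {Y : ℝ} (hY : 2 * (H.card + 1) * C ≤ Y) :
    - Real.log Y ≤ Real.log (wv H v) + ((insert v H).card - H.card) * Real.log n := by
  have hV0 : 0 < Fintype.card V := Fintype.card_pos_iff.2 ⟨v⟩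
  have hC : 1 ≤ C := by
    rcases Nat.eq_zero_or_pos C with h | h
    · subst h; omega
    · exact h
  have hC' : (1 : ℝ) ≤ C := by exact_mod_cast hC
  have hn' : (1 : ℝ) ≤ n := by exact_mod_cast hn
  have hH : (0 : ℝ) ≤ H.card := by positivity
  unfold wv
  split_ifs with h
  · rw [insert_eq_of_mem h, sub_self, zero_mul, add_zero, one_div, Real.log_inv, neg_le_neg_iff]
    exact Real.log_le_log (by positivity) (by nlinarith)
  · rw [card_insert_of_notMem h]
    push_cast
    rw [add_sub_cancel_left, one_mul, ← Real.log_mul (by positivity) (by positivity),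
      ← Real.log_inv]
    have hV' : (Fintype.card V : ℝ) ≤ C * n := by exact_mod_cast hV
    have hV0' : (0 : ℝ) < Fintype.card V := by exact_mod_cast hV0
    refine Real.log_le_log (inv_pos.2 (by nlinarith)) ?_
    rw [inv_le_comm₀ (by nlinarith) (by positivity)]
    refine le_trans ?_ hY
    rw [inv_le_iff_one_le_mul₀ (by positivity)]
    have : 2 * ((H.card : ℝ) + 1) * C * (1 / (2 * Fintype.card V) * n) =
        (H.card + 1) * (C * n / Fintype.card V) := by field_simp
    rw [this]
    have : 1 ≤ (C * n : ℝ) / Fintype.card V := (one_le_div hV0').2 hV'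
    nlinarith

section kernel
variable (A : Alph Gen) (src : Dt → V) (lab : Dt → Gen × Bool) (side : V → Bool) (root : V)
  (n M : ℕ)

/-- visited vertices -/
def hist (i : ℕ) (z : ℕ → Sy M Dt V) : Finset V :=
  insert root (((range i).image fun k => src (z k).2.2.1) ∪ (range i).image fun k => (z k).2.2.2)

/-- letter weight -/
noncomputable def lw (i : ℕ) (z : ℕ → Sy M Dt V) (t : Gen × Bool) :
    Option (ℕ × Bool) → Gen × Bool → ℝ
  | none, s => A.p t s ^ 2 * A.f (iv s) / (A.r * A.f t)
  | some (k, b), s => if k < i ∧ s = sg b (lab (z k).2.2.1) then 1 else 0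

/-- weight of a break step -/
noncomputable def qB (i : ℕ) (z : ℕ → Sy M Dt V) (t : Dt) (u : V) : ℝ :=
  1 / (2 * M) * (1 / (2 * M + 1)) * (1 / Fintype.card (Gen × Bool) *
    (wv (hist src root M i z) u * wv (insert u (hist src root M i z)) (src t)))

open Classical in
/-- weight of a regular step -/
noncomputable def qN (i : ℕ) (z : ℕ → Sy M Dt V) (o : Option (Fin M × Bool)) (t : Dt) (u : V) :
    ℝ :=
  if i ≠ 0 ∧ em o = nxt (em (z (i - 1)).2.1) ∧ u = src t ∧
      side (src t) = side (src (z (i - 1)).2.2.1) ∧ lab t ≠ iv (lab (z (i - 1)).2.2.1) ∧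
      ∃ y, src y = src t ∧ lab y = iv (lab (z (i - 1)).2.2.1) then
    (1 - 1 / (2 * M)) * (lw A lab M i z (iv (lab (z (i - 1)).2.2.1)) (em o) (lab t) /
      (A.p (iv (lab (z (i - 1)).2.2.1)) (lab t) * n))
  else 0

/-- the kernel -/
noncomputable def qK (i : ℕ) (z : ℕ → Sy M Dt V) (a : Sy M Dt V) : ℝ :=
  if a.1 then qB (Gen := Gen) src root M i z a.2.2.1 a.2.2.2
  else qN A src lab side n M i z a.2.1 a.2.2.1 a.2.2.2

theorem Alph.r_pos (t : Gen × Bool) : 0 < A.r :=
  lt_of_lt_of_le (pow_pos (A.p_pos t t) 2) (A.p_sq t t)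

theorem lw_nonneg (i z t o s) : 0 ≤ lw A lab M (V := V) i z t o s := by
  rcases o with _ | ⟨k, b⟩
  · have := A.r_pos t; have := A.f_ge t; have := A.f_ge (iv s)
    simp only [lw]; positivity
  · simp only [lw]; split_ifs <;> simp

theorem lw_sum (i z t o) : ∑ s ∈ univ.erase t, lw A lab M (V := V) i z t o s ≤ 1 := by
  rcases o with _ | ⟨k, b⟩
  · have := A.r_pos t; have := A.f_ge t
    simp only [lw]
    rw [← sum_div, div_le_one (by positivity)]
    exact A.row t
  · simp only [lw]
    refine (sum_le_sum (g := fun s => if s = sg b (lab (z k).2.2.1) then (1 : ℝ) else 0)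
      fun s _ => ?_).trans ?_
    · split_ifs <;> simp_all
    · rw [sum_ite_eq']; split_ifs <;> simp

theorem qK_nonneg (hM : 1 ≤ M) (i z a) : 0 ≤ qK A src lab side root n M i z a := by
  have hM' : (1 : ℝ) ≤ M := by exact_mod_cast hM
  unfold qK qB qN
  split_ifs
  · have := wv_nonneg (hist src root M i z) a.2.2.2
    have := wv_nonneg (insert a.2.2.2 (hist src root M i z)) (src a.2.2.1)
    positivity
  · refine mul_nonneg ?_ (div_nonneg (lw_nonneg ..) (mul_nonneg (A.p_pos _ _).le (by positivity)))
    rw [sub_nonneg, div_le_one (by positivity)]; linarith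
  · exact le_rfl

theorem qK_dep (i : ℕ) (z z' : ℕ → Sy M Dt V) (a) (h : ∀ k < i, z k = z' k) :
    qK A src lab side root n M i z a = qK A src lab side root n M i z' a := by
  have hh : hist src root M i z = hist src root M i z' := by
    unfold hist
    rw [image_congr (g := fun k => src (z' k).2.2.1) fun k hk => by
        simp only [h k (by simpa using hk)],
      image_congr (f := fun k => (z k).2.2.2) (g := fun k => (z' k).2.2.2) fun k hk => by
        simp only [h k (by simpa using hk)]]
  unfold qK qB qN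
  rw [hh]
  by_cases hi : i = 0
  · simp [hi]
  · rw [h (i - 1) (by omega)]
    congr 4
    rcases em a.2.1 with _ | ⟨k, b⟩
    · rfl
    · simp only [lw]
      by_cases hk : k < i
      · rw [h k hk]
      · simp [hk]

theorem qK_sum (hM : 1 ≤ M) (hn : 1 ≤ n) (hf : ∀ t t', src t = src t' → lab t = lab t' → t = t')
    (htwo : ∀ b t s, t ≠ s → ((univ.filter fun v => side v = b ∧ (∃ y, src y = v ∧ lab y = t) ∧
      ∃ y, src y = v ∧ lab y = s).card : ℝ) ≤ A.p t s * n) (i : ℕ) (z : ℕ → Sy M Dt V) :
    ∑ a, qK A src lab side root n M i z a ≤ 1 := by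
  classical
  have hM' : (1 : ℝ) ≤ M := by exact_mod_cast hM
  have hn' : (1 : ℝ) ≤ n := by exact_mod_cast hn
  have hM2 : 0 ≤ 1 - 1 / (2 * (M : ℝ)) := by
    rw [sub_nonneg, div_le_one (by positivity)]; linarith
  rw [Fintype.sum_prod_type, Fintype.sum_bool]
  simp only [qK, if_true, Bool.false_eq_true, if_false, Fintype.sum_prod_type]
  have e1 : ∑ t : Dt, ∑ u : V, qB (Gen := Gen) src root M i z t u ≤
      1 / (2 * M) * (1 / (2 * M + 1)) := by
    simp only [qB, ← mul_sum]
    refine mul_le_of_le_one_right (by positivity) ?_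
    rw [sum_comm]
    simp only [← mul_sum]
    rw [mul_sum]
    refine le_trans (sum_le_sum fun u _ => ?_) (wv_sum (hist src root M i z))
    rw [mul_left_comm]
    refine mul_le_of_le_one_right (wv_nonneg _ _) ?_
    set H := insert u (hist src root M i z)
    have : ∑ t : Dt, wv H (src t) ≤ ∑ x : V × (Gen × Bool), wv H x.1 := by
      rw [← sum_image (s := univ) (g := fun t => (src t, lab t)) (f := fun x => wv H x.1)
        fun a _ b _ hab => hf a b (congrArg Prod.fst hab) (congrArg Prod.snd hab)]
      exact sum_le_sum_of_subset_of_nonneg (subset_univ _) fun x _ _ => wv_nonneg _ _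
    rw [Fintype.sum_prod_type] at this
    simp only [sum_const, card_univ, nsmul_eq_mul, ← mul_sum] at this
    rcases Nat.eq_zero_or_pos (Fintype.card (Gen × Bool)) with h | h
    · simp [h]
    · have h' : (0 : ℝ) < Fintype.card (Gen × Bool) := by exact_mod_cast h
      rw [one_div, inv_mul_le_iff₀ h']
      exact this.trans (mul_le_mul_of_nonneg_left (wv_sum H) h'.le)
  have e2 : ∀ o, ∑ t : Dt, ∑ u : V, qN A src lab side n M i z o t u ≤
      if o ∈ univ.filter (fun o => em o = nxt (em (z (i - 1)).2.1)) then 1 - 1 / (2 * (M : ℝ))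
      else 0 := by
    intro o
    split_ifs with ho
    · set t0 := iv (lab (z (i - 1)).2.2.1)
      set b0 := side (src (z (i - 1)).2.2.1)
      let F : Gen × Bool → ℝ := fun s => lw A lab M i z t0 (em o) s / (A.p t0 s * n)
      have hF : ∀ s, 0 ≤ F s := fun s =>
        div_nonneg (lw_nonneg ..) (mul_nonneg (A.p_pos _ _).le (by positivity))
      let T := univ.filter fun t => side (src t) = b0 ∧ lab t ≠ t0 ∧ ∃ y, src y = src t ∧ lab y = t0
      have a : ∀ t, ∑ u : V, qN A src lab side n M i z o t u ≤
          if t ∈ T then (1 - 1 / (2 * (M : ℝ))) * F (lab t) else 0 := by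
        intro t
        rw [sum_eq_single (src t) (fun u _ hu => by simp [qN, hu]) (by simp)]
        unfold qN
        split_ifs with h1 h2 h2
        · exact le_rfl
        · exact absurd (by simp only [T, mem_filter, mem_univ, true_and]; exact h1.2.2.2) h2
        · exact mul_nonneg hM2 (hF _)
        · exact le_rfl
      refine (sum_le_sum fun t _ => a t).trans ?_
      rw [sum_ite_mem, univ_inter, ← mul_sum]
      refine mul_le_of_le_one_right hM2 ?_
      rw [← sum_fiberwise_of_maps_to (s := T) (t := univ.erase t0) (g := lab)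
        (fun t ht => by simp only [T, mem_filter] at ht; simp [ht.2.2.1])]
      refine le_trans (sum_le_sum fun s hs => ?_) (lw_sum A lab M i z t0 (em o))
      rw [sum_congr rfl (g := fun _ => F s) fun t ht => by rw [(mem_filter.1 ht).2], sum_const,
        nsmul_eq_mul]
      have hs' : t0 ≠ s := fun h => by simp [h] at hs
      have c : ((T.filter fun t => lab t = s).card : ℝ) ≤ A.p t0 s * n := by
        refine le_trans ?_ (htwo b0 t0 s hs')
        refine Nat.cast_le.2 (card_le_card_of_injOn src ?_ ?_)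
        · intro t ht
          simp only [T, coe_filter, mem_filter, mem_univ, true_and, Set.mem_ofPred_eq] at ht ⊢
          exact ⟨ht.1.1, ht.1.2.2, t, rfl, ht.2⟩
        · intro a ha b hb hab
          exact hf a b hab ((mem_filter.1 ha).2.trans (mem_filter.1 hb).2.symm)
      have := A.p_pos t0 s
      calc _ ≤ A.p t0 s * n * F s := mul_le_mul_of_nonneg_right c (hF s)
        _ = _ := by simp only [F]; field_simp
    · simp only [mem_filter, mem_univ, true_and] at ho
      simp [qN, ho]
  have e3 : ∑ o : Option (Fin M × Bool), ∑ t : Dt, ∑ u : V, qN A src lab side n M i z o t u ≤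
      1 - 1 / (2 * (M : ℝ)) := by
    refine (sum_le_sum fun o _ => e2 o).trans ?_
    rw [sum_ite_mem, univ_inter, sum_const, nsmul_eq_mul]
    refine mul_le_of_le_one_left hM2 ?_
    refine Nat.cast_le_one.2 (card_le_one.2 fun a ha b hb => em_inj ?_)
    rw [(mem_filter.1 ha).2, (mem_filter.1 hb).2]
  have e4 : ∑ _o : Option (Fin M × Bool), ∑ t : Dt, ∑ u : V, qB (Gen := Gen) src root M i z t u ≤
      1 / (2 * (M : ℝ)) := by
    refine (sum_le_sum fun o _ => e1).trans (le_of_eq ?_)
    simp only [sum_const, card_univ, Fintype.card_option, Fintype.card_prod, Fintype.card_fin,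
      Fintype.card_bool, nsmul_eq_mul]
    push_cast
    field_simp
  linarith

end kernel

end Vale.Agent.P201
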