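import Vale.Agent.P201.Good

set_option linter.unusedSectionVars false

namespace Vale.Agent.P201

open Finset Equiv

variable {Gen V Dt : Type} [Fintype Dt] [DecidableEq Dt] [Fintype V] [DecidableEq V] [Fintype Gen]
  [DecidableEq Gen]

theorem wv_pos (H : Finset V) (v : V) : 0 < wv H v := by
  have : (0 : ℝ) < Fintype.card V := by exact_mod_cast Fintype.card_pos_iff.2 ⟨v⟩
  unfold wv; split_ifs <;> positivity

theorem hist_succ (src : Dt → V) (root : V) (M i : ℕ) (z : ℕ → Sy M Dt V) :
    hist src root M (i + 1) z =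
      insert (src (z i).2.2.1) (insert (z i).2.2.2 (hist src root M i z)) := by
  ext v
  simp only [hist, range_add_one, image_insert, mem_insert, mem_union]
  tauto

theorem hist_card (src : Dt → V) (root : V) (M i : ℕ) (z : ℕ → Sy M Dt V) :
    (hist src root M i z).card ≤ 2 * i + 1 := by
  induction i with
  | zero => simp [hist]
  | succ i ih =>
    rw [hist_succ]
    have a := card_insert_le (src (z i).2.2.1) (insert (z i).2.2.2 (hist src root M i z))
    have b := card_insert_le (z i).2.2.2 (hist src root M i z)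
    omega

theorem qB_low (src : Dt → V) (root : V) {M n C : ℕ} (hM : 1 ≤ M) (hn : 1 ≤ n)
    (hS : 1 ≤ Fintype.card (Gen × Bool))
    (hV : Fintype.card V ≤ C * n) (i : ℕ) (hi : i ≤ M) (z : ℕ → Sy M Dt V) :
    0 < qB (Gen := Gen) src root M i z (z i).2.2.1 (z i).2.2.2 ∧
    - (5 * Real.log (10 * C * Fintype.card (Gen × Bool) * (M + 1))) ≤
      Real.log (qB (Gen := Gen) src root M i z (z i).2.2.1 (z i).2.2.2) +
      (((hist src root M (i + 1) z).card : ℝ) - (hist src root M i z).card) * Real.log n := by
  have hV0 : 0 < Fintype.card V := Fintype.card_pos_iff.2 ⟨root⟩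
  have hC : 1 ≤ C := by
    rcases Nat.eq_zero_or_pos C with h | h
    · subst h; omega
    · exact h
  have hC' : (1 : ℝ) ≤ C := by exact_mod_cast hC
  have hM' : (1 : ℝ) ≤ M := by exact_mod_cast hM
  have hS' : (1 : ℝ) ≤ Fintype.card (Gen × Bool) := by exact_mod_cast hS
  set s : ℝ := (Fintype.card (Gen × Bool) : ℝ)
  set Y : ℝ := 10 * C * s * (M + 1) with hY
  set H := hist src root M i z
  have c1 : (H.card : ℝ) ≤ 2 * M + 1 := by
    have := hist_card src root M i z
    exact_mod_cast this.trans (by omega)
  have c2 : ((insert (z i).2.2.2 H).card : ℝ) ≤ 2 * M + 2 := by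
    have : ((insert (z i).2.2.2 H).card : ℝ) ≤ H.card + 1 := by
      exact_mod_cast card_insert_le _ _
    linarith
  have hCs : (C : ℝ) ≤ C * s := le_mul_of_one_le_right (by positivity) hS'
  have hsC : s ≤ C * s := le_mul_of_one_le_left (by positivity) hC'
  have hY' : Y = 10 * (C * s) * (M + 1) := by rw [hY]; ring
  have w1 := wv_low H (z i).2.2.2 hn hV (Y := Y) (by rw [hY']; nlinarith)
  have w2 := wv_low (insert (z i).2.2.2 H) (src (z i).2.2.1) hn hV (Y := Y)
    (by rw [hY']; nlinarith)
  have p1 := wv_pos H (z i).2.2.2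
  have p2 := wv_pos (insert (z i).2.2.2 H) (src (z i).2.2.1)
  refine ⟨by unfold qB; positivity, ?_⟩
  have hq : Real.log (qB (Gen := Gen) src root M i z (z i).2.2.1 (z i).2.2.2) =
      - Real.log (2 * M) - Real.log (2 * M + 1) - Real.log s + Real.log (wv H (z i).2.2.2) +
        Real.log (wv (insert (z i).2.2.2 H) (src (z i).2.2.1)) := by
    unfold qB
    rw [Real.log_mul (by positivity) (by positivity),
      Real.log_mul (by positivity) (by positivity), Real.log_mul (by positivity) (by positivity),
      Real.log_mul (by positivity) (by positivity), one_div, one_div, one_div, Real.log_inv,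
      Real.log_inv, Real.log_inv]
    ring
  rw [hist_succ, hq]
  have l1 : Real.log (2 * M) ≤ Real.log Y :=
    Real.log_le_log (by positivity) (by rw [hY']; nlinarith)
  have l2 : Real.log (2 * M + 1) ≤ Real.log Y :=
    Real.log_le_log (by positivity) (by rw [hY']; nlinarith)
  have l3 : Real.log s ≤ Real.log Y :=
    Real.log_le_log (by positivity) (by rw [hY']; nlinarith)
  linarith

theorem exists_good (A : Alph Gen) {src : Dt → V} {lab : Dt → Gen × Bool} {side : V → Bool}
    (root : V) (t0 : Dt) (hf : ∀ t t', src t = src t' → lab t = lab t' → t = t')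
    (C g n M : ℕ) (hM : 1 ≤ M) (hn : 1 ≤ n) (hV : Fintype.card V ≤ C * n)
    (hb : ∀ b s, (cls src lab side b s).card = (cls src lab side b (iv s)).card)
    (hbig : ∀ b s, n + (4 * (Fintype.card (Gen × Bool) + 1) ^ g + 2 * M) ≤
      (cls src lab side b s).card)
    (htwo : ∀ b t s, t ≠ s → ((univ.filter fun v => side v = b ∧ (∃ y, src y = v ∧ lab y = t) ∧
      ∃ y, src y = v ∧ lab y = s).card : ℝ) ≤ A.p t s * n) :
    ∃ ρ : Perm Dt, Adm src lab side ρ ∧ Girth src ρ g ∧ Good A src lab ρ root n M
      (∑ s, Real.log (A.f s) + 7 * Real.log (10 * C * Fintype.card (Gen × Bool) * (M + 1))) := by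
  obtain ⟨ρ, hρ, hg, H⟩ := exists_unlikely (Z := Sy M Dt V) (true, none, t0, root)
    (fun a => a.2.2.1) (fun a => a.2.2.2) (qK A src lab side root n M)
    (qK_nonneg A src lab side root n M hM) (qK_dep A src lab side root n M)
    (qK_sum A src lab side root n M hM hn hf htwo) hf g n M hn hb hbig
  refine ⟨ρ, hρ, hg, fun m hm d brk ptr hc => ?_⟩
  have hS : 1 ≤ Fintype.card (Gen × Bool) := Fintype.card_pos_iff.2 ⟨lab t0⟩
  have hV0 : 0 < Fintype.card V := Fintype.card_pos_iff.2 ⟨root⟩
  have hC : 1 ≤ C := by
    rcases Nat.eq_zero_or_pos C with h | h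
    · subst h; omega
    · exact h
  have hC' : (1 : ℝ) ≤ C := by exact_mod_cast hC
  have hM' : (1 : ℝ) ≤ M := by exact_mod_cast hM
  have hn' : (1 : ℝ) ≤ n := by exact_mod_cast hn
  have hS' : (1 : ℝ) ≤ Fintype.card (Gen × Bool) := by exact_mod_cast hS
  set Fm := ∑ s, Real.log (A.f s) with hFm
  have hF0 : ∀ s, 0 ≤ Real.log (A.f s) := fun s => Real.log_nonneg (A.f_ge s)
  have hF1 : ∀ s, Real.log (A.f s) ≤ Fm := fun s =>
    single_le_sum (f := fun s => Real.log (A.f s)) (fun s _ => hF0 s) (mem_univ s)
  have hF2 : 0 ≤ Fm := sum_nonneg fun s _ => hF0 s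
  have hCs : (1 : ℝ) ≤ C * Fintype.card (Gen × Bool) := by nlinarith
  have hL1 : Real.log (M + 2) ≤ Real.log (10 * C * Fintype.card (Gen × Bool) * (M + 1)) :=
    Real.log_le_log (by positivity) (by nlinarith)
  have hL2 : Real.log 2 ≤ Real.log (10 * C * Fintype.card (Gen × Bool) * (M + 1)) :=
    Real.log_le_log (by positivity) (by nlinarith)
  have hL3 : 0 ≤ Real.log 2 := Real.log_nonneg (by norm_num)
  rcases Nat.eq_zero_or_pos m with rfl | hm0
  · simp only [range_zero, filter_empty, sum_empty, vts, image_empty, union_empty, erase_empty,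
      card_empty]
    push_cast
    nlinarith
  let z : ℕ → Sy M Dt V := fun i => if i < m then
    (brk i, lf M (ptr i), d i, if i = 0 then root else src (ρ (d (i - 1))))
    else (true, none, ρ (d (m - 1)), src (ρ (d (m - 1))))
  have zd : ∀ i < m, (z i).2.2.1 = d i := fun i hi => by simp [z, hi]
  have zb : ∀ i < m, (z i).1 = brk i := fun i hi => by simp [z, hi]
  have zp : ∀ i < m, em (z i).2.1 = ptr i := fun i hi => by
    simp only [z, hi, if_true]; exact em_lf (hc.bd i hi)
  have zu : ∀ i < m, (z (i + 1)).2.2.2 = src (ρ (d i)) := fun i hi => by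
    by_cases h : i + 1 < m
    · simp [z, h]
    · have : m - 1 = i := by omega
      simp [z, h, this]
  have zu0 : (z 0).2.2.2 = root := by simp [z, hm0]
  have zm : (z m).2.2.1 = ρ (d (m - 1)) := by simp [z]
  have zm1 : (z m).1 = true := by simp [z]
  have HW := H m hm z fun i hi => by
    simp only [zd i hi, zu i hi, true_and]
    intro k hk
    rw [zd k (by omega)]
    exact hc.dist i hi k hk
  set L := Real.log (10 * C * Fintype.card (Gen × Bool) * (M + 1)) with hL
  let q : ℕ → ℝ := fun i => qK A src lab side root n M i z (z i)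
  let Hc : ℕ → ℝ := fun i => (hist src root M i z).card
  let ψ : ℕ → ℝ := fun i => if ptr i = none then Real.log (A.f (iv (lab (d i)))) else 0
  have ψ0 : ∀ i, 0 ≤ ψ i := fun i => by simp only [ψ]; split_ifs <;> simp [hF0]
  have ψ1 : ∀ i, ψ i ≤ Fm := fun i => by simp only [ψ]; split_ifs <;> simp [hF1, hF2]
  have hlog : Real.log (1 - 1 / (2 * M)) ≤ 0 := by
    refine Real.log_nonpos ?_ ?_
    · rw [sub_nonneg, div_le_one (by positivity)]; linarith
    · have : (0 : ℝ) ≤ 1 / (2 * M) := by positivity
      linarith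
  have hpos : (0 : ℝ) < 1 - 1 / (2 * M) := by
    rw [sub_pos, div_lt_one (by positivity)]; linarith
  have stepB : ∀ i ≤ m, (z i).1 = true → 0 < q i ∧
      - (5 * L) ≤ Real.log (q i) + (Hc (i + 1) - Hc i) * Real.log n := fun i hi hb => by
    have := qB_low (Gen := Gen) src root hM hn hS hV i (by omega) z
    simpa only [q, qK, hb, if_true] using this
  have step : ∀ i < m, 0 < q i ∧ (if brk i = false then gain A lab d ptr i else - (5 * L + Fm)) +
      (ψ i - ψ (i - 1)) + Real.log (1 - 1 / (2 * M)) ≤
      Real.log (q i) + (Hc (i + 1) - Hc i) * Real.log n := by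
    intro i hi
    by_cases hbi : brk i = false
    swap
    · have := stepB i hi.le (by rw [zb i hi]; simpa using hbi)
      refine ⟨this.1, ?_⟩
      rw [if_neg hbi]
      linarith [this.2, ψ0 (i - 1), ψ1 i]
    have hi0 : i ≠ 0 := by rintro rfl; simp [hc.brk0] at hbi
    obtain ⟨j, rfl⟩ := Nat.exists_eq_succ_of_ne_zero hi0
    simp only [Nat.succ_eq_add_one] at *
    have hj : j < m := by omega
    have c1 := hc.cont _ hi hbi
    have c2 := hc.new _ hi hbi
    have c3 := hc.nx _ hi hbi
    have c4 := hc.cp _ hi hbi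
    simp only [Nat.add_sub_cancel] at c1 c3
    have hne : lab (d (j + 1)) ≠ iv (lab (d j)) := fun h =>
      (hc.dist _ hi j (by omega)).2 (hf _ _ c1 (by rw [h, hρ.2.1]))
    have hq : q (j + 1) = (1 - 1 / (2 * M)) * (lw A lab M (j + 1) z (iv (lab (d j))) (ptr (j + 1))
        (lab (d (j + 1))) / (A.p (iv (lab (d j))) (lab (d (j + 1))) * n)) := by
      simp only [q, qK, zb _ hi, hbi, Bool.false_eq_true, if_false, qN, Nat.add_sub_cancel,
        zd _ hi, zd _ hj, zp _ hi, zp _ hj, zu _ hj]
      rw [if_pos]
      exact ⟨by omega, c3, c1.symm, by rw [c1, hρ.2.2], hne, ρ (d j), c1.symm, hρ.2.1 _⟩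
    have hH : Hc (j + 1 + 1) = Hc (j + 1) + 1 := by
      simp only [Hc]
      rw [hist_succ, zu _ hj, zd _ hi, ← c1, insert_idem, card_insert_of_notMem]
      · push_cast; ring
      · simp only [hist, mem_insert, mem_union, mem_image, mem_range, not_or, not_exists, not_and]
        refine ⟨c2.1, fun k hk => ?_, fun k hk => ?_⟩
        · rw [zd k (by omega)]; exact c2.2.1 k hk
        · rcases k with _ | k
          · rw [zu0]; exact c2.1.symm
          · rw [zu k (by omega)]; exact c2.2.2 k hk
    have pp := A.p_pos (iv (lab (d j))) (lab (d (j + 1)))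
    have pr := A.r_pos (lab t0)
    have f1 := A.f_ge (iv (lab (d j)))
    have f2 := A.f_ge (iv (lab (d (j + 1))))
    rw [if_pos hbi, hq, hH]
    rcases hp : ptr (j + 1) with _ | ⟨k, b⟩
    · have hp' : ptr j = none := nxt_none.1 (c3 ▸ hp)
      simp only [lw, gain, ψ, hp, hp', if_true, Nat.add_sub_cancel]
      refine ⟨by positivity, le_of_eq ?_⟩
      rw [Real.log_mul (by positivity) (by positivity), Real.log_div (by positivity)
        (by positivity), Real.log_div (by positivity) (by positivity),
        Real.log_mul (by positivity) (by positivity), Real.log_mul (by positivity) (by positivity),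
        Real.log_mul (by positivity) (by positivity), Real.log_pow]
      push_cast; ring
    · have hp' : ptr j ≠ none := fun h => by
        rw [nxt_none.2 h, hp] at c3; simp at c3
      obtain ⟨a1, a2⟩ := c4 k b hp
      simp only [lw, gain, ψ, hp, hp', if_false, Nat.add_sub_cancel, reduceCtorEq,
        zd k (by omega)]
      rw [if_pos ⟨a1, a2⟩]
      refine ⟨by positivity, le_of_eq ?_⟩
      rw [Real.log_mul (by positivity) (by positivity), Real.log_div (by positivity)
        (by positivity), Real.log_mul (by positivity) (by positivity), Real.log_one]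
      ring
  have last := stepB m le_rfl zm1
  have qpos : ∀ i ∈ range (m + 1), 0 < q i := fun i hi => by
    rcases Nat.lt_succ_iff_lt_or_eq.1 (mem_range.1 hi) with h | rfl
    · exact (step i h).1
    · exact last.1
  have e1 : ∑ i ∈ range (m + 1), Real.log (q i) + m * Real.log n ≤ L := by
    rw [← Real.log_prod fun i hi => (qpos i hi).ne', ← Real.log_pow,
      ← Real.log_mul (prod_pos qpos).ne' (by positivity)]
    exact (Real.log_le_log (mul_pos (prod_pos qpos) (by positivity)) HW.le).trans hL1
  have e2 : ∑ i ∈ range (m + 1), (Hc (i + 1) - Hc i) = (vts src ρ root d m).card := by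
    rw [sum_range_sub]
    have : hist src root M (m + 1) z = insert root (vts src ρ root d m) := by
      ext v
      simp only [hist, vts, mem_insert, mem_union, mem_image, mem_range, mem_erase]
      by_cases hv : v = root
      · simp [hv]
      simp only [hv, false_or, ne_eq, not_false_eq_true, true_and]
      constructor
      · rintro (⟨k, hk, rfl⟩ | ⟨k, hk, rfl⟩)
        · rcases Nat.lt_succ_iff_lt_or_eq.1 hk with h | rfl
          · exact Or.inl ⟨k, h, by rw [zd k h]⟩
          · exact Or.inr ⟨k - 1, by omega, by rw [zm]⟩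
        · rcases k with _ | k
          · exact absurd zu0 hv
          · exact Or.inr ⟨k, by omega, by rw [zu k (by omega)]⟩
      · rintro (⟨k, hk, rfl⟩ | ⟨k, hk, rfl⟩)
        · exact Or.inl ⟨k, by omega, by rw [zd k hk]⟩
        · exact Or.inr ⟨k + 1, by omega, by rw [zu k hk]⟩
    simp only [Hc]
    rw [this, card_insert_of_notMem (by simp [vts])]
    simp [hist]
  have e3 : ∀ j, ∑ i ∈ range j, (ψ i - ψ (i - 1)) = ψ (j - 1) - ψ 0 := by
    intro j
    induction j with
    | zero => simp
    | succ j ih => rw [sum_range_succ, ih]; simp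
  have e4 : - Real.log 2 ≤ m * Real.log (1 - 1 / (2 * M)) := by
    rw [← Real.log_pow, ← Real.log_inv]
    refine Real.log_le_log (by norm_num) ?_
    have := one_add_mul_le_pow (a := - (1 / (2 * (M : ℝ)))) (by linarith) m
    rw [← sub_eq_add_neg] at this
    refine le_trans ?_ this
    have hm' : (m : ℝ) ≤ M := by exact_mod_cast hm
    have : (m : ℝ) * (1 / (2 * M)) ≤ 1 / 2 := by
      rw [mul_one_div, div_le_div_iff₀ (by positivity) (by positivity)]; linarith
    linarith
  have e5 := sum_le_sum fun i (hi : i ∈ range m) => (step i (mem_range.1 hi)).2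
  rw [sum_add_distrib, sum_add_distrib, sum_add_distrib, e3, sum_ite, sum_const, sum_const,
    ← sum_mul, card_range, nsmul_eq_mul, nsmul_eq_mul] at e5
  rw [sum_range_succ] at e1 e2
  have e6 : ((range m).filter fun i => ¬ brk i = false) = (range m).filter fun i => brk i = true :=
    filter_congr fun i _ => by simp
  rw [e6] at e5
  have hB : (0 : ℝ) ≤ ((range m).filter fun i => brk i = true).card := Nat.cast_nonneg _
  have hL0 : 0 ≤ L := hL3.trans hL2
  rw [← e2]
  nlinarith [last.2, ψ0 (m - 1), ψ1 0]

end Vale.Agent.P201
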