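import Vale.Agent.P201.Switch

set_option linter.unusedSectionVars false

namespace Vale.Agent.P201

open Finset Equiv

section kraft
variable {Z : Type} [Fintype Z] (z0 : Z)

open Classical in
/-- sequences that are `z0` from index `m` on -/
noncomputable def Seqs : ℕ → Finset (ℕ → Z)
  | 0 => {fun _ => z0}
  | m + 1 => ((Seqs m) ×ˢ univ).image fun p => Function.update p.1 m p.2

theorem seqs_trunc (z : ℕ → Z) (m : ℕ) : ∃ z' ∈ Seqs z0 m, ∀ i < m, z' i = z i := by
  induction m with
  | zero => exact ⟨fun _ => z0, by simp [Seqs], by simp⟩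
  | succ m ih =>
    obtain ⟨z', h1, h2⟩ := ih
    refine ⟨Function.update z' m (z m), ?_, ?_⟩
    · simp only [Seqs, mem_image, mem_product, mem_univ, and_true]
      exact ⟨(z', z m), h1, rfl⟩
    · intro i hi
      by_cases h : i = m
      · subst h; simp
      · rw [Function.update_of_ne h]; exact h2 i (by omega)

theorem kraft (q : ℕ → (ℕ → Z) → Z → ℝ) (h0 : ∀ i z a, 0 ≤ q i z a)
    (h1 : ∀ i z z' a, (∀ k < i, z k = z' k) → q i z a = q i z' a)
    (h2 : ∀ i z, ∑ a, q i z a ≤ 1) (m : ℕ) :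
    ∑ z ∈ Seqs z0 m, ∏ i ∈ range m, q i z (z i) ≤ 1 := by
  classical
  induction m with
  | zero => simp [Seqs]
  | succ m ih =>
    rw [Seqs]
    refine (sum_image_le_of_nonneg (fun z _ => prod_nonneg fun i _ => h0 _ _ _)).trans ?_
    rw [sum_product]
    refine le_trans (sum_le_sum fun z _ => ?_) ih
    have : ∀ a, ∏ i ∈ range (m + 1), q i (Function.update z m a) (Function.update z m a i) =
        (∏ i ∈ range m, q i z (z i)) * q m z a := by
      intro a
      rw [prod_range_succ]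
      congr 1
      · refine prod_congr rfl fun i hi => ?_
        have := mem_range.1 hi
        rw [Function.update_of_ne (by omega)]
        exact h1 _ _ _ _ fun k hk => Function.update_of_ne (by omega) _ _
      · rw [Function.update_self]
        exact h1 _ _ _ _ fun k hk => Function.update_of_ne (by omega) _ _
    simp only [this, ← mul_sum]
    exact mul_le_of_le_one_right (prod_nonneg fun i _ => h0 _ _ _) (h2 m z)

end kraft

variable {Gen V Dt : Type} [Fintype Dt] [DecidableEq Dt] [DecidableEq V] [Fintype Gen]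
  [DecidableEq Gen] {src : Dt → V} {lab : Dt → Gen × Bool} {side : V → Bool}

theorem exists_unlikely {Z : Type} [Fintype Z] (z0 : Z) (pd : Z → Dt) (pu : Z → V)
    (q : ℕ → (ℕ → Z) → Z → ℝ) (h0 : ∀ i z a, 0 ≤ q i z a)
    (h1 : ∀ i z z' a, (∀ k < i, z k = z' k) → q i z a = q i z' a)
    (h2 : ∀ i z, ∑ a, q i z a ≤ 1)
    (hf : ∀ t t', src t = src t' → lab t = lab t' → t = t') (g n M : ℕ) (hn : 1 ≤ n)
    (hb : ∀ b s, (cls src lab side b s).card = (cls src lab side b (iv s)).card)
    (hbig : ∀ b s, n + (4 * (Fintype.card (Gen × Bool) + 1) ^ g + 2 * M) ≤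
      (cls src lab side b s).card) :
    ∃ ρ : Perm Dt, Adm src lab side ρ ∧ Girth src ρ g ∧ ∀ m ≤ M, ∀ z : ℕ → Z,
      (∀ i < m, src (ρ (pd (z i))) = pu (z (i + 1)) ∧
        ∀ k < i, pd (z i) ≠ pd (z k) ∧ pd (z i) ≠ ρ (pd (z k))) →
      (∏ i ∈ range (m + 1), q i z (z i)) * (n : ℝ) ^ m < M + 2 := by
  classical
  let Ω : Finset (Perm Dt) := Ev src lab side g (fun _ => pd z0) (fun _ => pu z0) 0
  have hΩ : ∀ d u, Ev src lab side g d u 0 = Ω := fun d u => by
    ext ρ; simp [Ω, Ev]
  have hpos : 0 < Ω.card := by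
    obtain ⟨ρ, a, b⟩ := exists_girth hf g hb fun b s => by have := hbig b s; omega
    exact card_pos.2 ⟨ρ, by simp [Ω, Ev, a, b]⟩
  let W : ℕ → (ℕ → Z) → ℝ := fun m z => ∏ i ∈ range (m + 1), q i z (z i)
  let E : ℕ → (ℕ → Z) → Finset (Perm Dt) := fun m z =>
    Ev src lab side g (fun i => pd (z i)) (fun i => pu (z i)) m
  let Bad : Finset (Perm Dt) := (range (M + 1)).biUnion fun m =>
    ((Seqs z0 (m + 1)).filter fun z => (M + 2 : ℝ) ≤ W m z * (n : ℝ) ^ m).biUnion (E m)
  have hcard : (Bad.card : ℝ) * (M + 2) ≤ (M + 1) * Ω.card := by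
    have e1 : (Bad.card : ℝ) ≤ ∑ m ∈ range (M + 1), ∑ z ∈ (Seqs z0 (m + 1)).filter
        fun z => (M + 2 : ℝ) ≤ W m z * (n : ℝ) ^ m, ((E m z).card : ℝ) := by
      have := card_biUnion_le (s := range (M + 1)) (t := fun m =>
        ((Seqs z0 (m + 1)).filter fun z => (M + 2 : ℝ) ≤ W m z * (n : ℝ) ^ m).biUnion (E m))
      have := this.trans (sum_le_sum fun m _ => card_biUnion_le)
      simp only [← Nat.cast_sum]
      exact Nat.cast_le.2 this
    have e2 : ∀ m ∈ range (M + 1), (∑ z ∈ (Seqs z0 (m + 1)).filter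
        fun z => (M + 2 : ℝ) ≤ W m z * (n : ℝ) ^ m, ((E m z).card : ℝ)) * (M + 2) ≤ Ω.card := by
      intro m hm
      rw [sum_mul]
      calc _ ≤ ∑ z ∈ (Seqs z0 (m + 1)).filter
              fun z => (M + 2 : ℝ) ≤ W m z * (n : ℝ) ^ m, W m z * Ω.card := by
            refine sum_le_sum fun z hz => ?_
            have a := (mem_filter.1 hz).2
            have b := ev_bound (side := side) hf g n M hbig (fun i => pd (z i))
              (fun i => pu (z i)) m (by have := mem_range.1 hm; omega)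
            rw [hΩ] at b
            have b' : ((E m z).card : ℝ) * (n : ℝ) ^ m ≤ Ω.card := by exact_mod_cast b
            have c : 0 ≤ W m z := prod_nonneg fun i _ => h0 _ _ _
            calc _ ≤ ((E m z).card : ℝ) * (W m z * (n : ℝ) ^ m) :=
                  mul_le_mul_of_nonneg_left a (Nat.cast_nonneg _)
              _ = W m z * (((E m z).card : ℝ) * (n : ℝ) ^ m) := by ring
              _ ≤ _ := mul_le_mul_of_nonneg_left b' c
        _ ≤ ∑ z ∈ Seqs z0 (m + 1), W m z * Ω.card :=
            sum_le_sum_of_subset_of_nonneg (filter_subset _ _) fun z _ _ =>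
              mul_nonneg (prod_nonneg fun i _ => h0 _ _ _) (Nat.cast_nonneg _)
        _ ≤ _ := by
            rw [← sum_mul]
            exact mul_le_of_le_one_left (Nat.cast_nonneg _) (kraft z0 q h0 h1 h2 (m + 1))
    calc _ ≤ _ := mul_le_mul_of_nonneg_right e1 (by positivity)
      _ ≤ ∑ m ∈ range (M + 1), (Ω.card : ℝ) := by rw [sum_mul]; exact sum_le_sum e2
      _ = _ := by simp
  have hlt : Bad.card < Ω.card := by
    have : (0 : ℝ) < Ω.card := by exact_mod_cast hpos
    have : (Bad.card : ℝ) < Ω.card := by nlinarith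
    exact_mod_cast this
  obtain ⟨ρ, hρ, hρ'⟩ := exists_mem_notMem_of_card_lt_card hlt
  simp only [Ω, Ev, mem_filter, mem_univ, true_and] at hρ
  refine ⟨ρ, hρ.1, hρ.2.1, fun m hm z hz => ?_⟩
  by_contra hcon
  apply hρ'
  obtain ⟨z', a, b⟩ := seqs_trunc z0 z (m + 1)
  have hW : W m z' = W m z := prod_congr rfl fun i hi => by
    have := mem_range.1 hi
    rw [b i this]; exact h1 _ _ _ _ fun k hk => b k (by omega)
  simp only [Bad, mem_biUnion, mem_range, mem_filter]
  refine ⟨m, by omega, z', ⟨a, by rw [hW]; exact not_lt.1 hcon⟩, ?_⟩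
  simp only [E, Ev, mem_filter, mem_univ, true_and]
  refine ⟨hρ.1, hρ.2.1, fun i hi => ?_⟩
  rw [b i (by omega), b (i + 1) (by omega)]
  refine ⟨(hz i hi).1, fun k hk => ?_⟩
  rw [b k (by omega)]
  exact (hz i hi).2 k hk

end Vale.Agent.P201
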