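import Vale.Agent.P201.Ptr

set_option linter.unusedSectionVars false

namespace Vale.Agent.P201

open Finset Equiv

theorem level_sum {N K : ℕ} (μ : ℕ → ℕ) (hμ : ∀ i, μ i ≤ K) (m : ℕ → ℕ) (hm : ∀ j, m j ≤ N)
    (h : ∀ j, ∀ i < N, i < m j ↔ j ≤ μ i) (f : ℕ → ℝ) :
    ∑ j ∈ Icc 1 K, ∑ i ∈ range (m j), f i = ∑ i ∈ range N, μ i * f i := by
  have : ∀ j, ∑ i ∈ range (m j), f i = ∑ i ∈ range N, if j ≤ μ i then f i else 0 := by
    intro j
    rw [← sum_filter]
    refine sum_congr ?_ fun _ _ => rfl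
    ext i
    simp only [mem_range, mem_filter]
    constructor
    · intro hi
      have := hm j
      exact ⟨by omega, (h j i (by omega)).1 hi⟩
    · intro hi; exact (h j i hi.1).2 hi.2
  simp only [this]
  rw [sum_comm]
  refine sum_congr rfl fun i _ => ?_
  rw [← sum_filter, sum_const, nsmul_eq_mul]
  congr 2
  have : (Icc 1 K).filter (fun j => j ≤ μ i) = Icc 1 (μ i) := by
    ext j
    have := hμ i
    simp only [mem_filter, mem_Icc]; omega
  rw [this]; simp

namespace Cf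

variable {Gen V Dt : Type} [DecidableEq V] [DecidableEq Dt] (c : Cf Gen V Dt)

theorem exists_levels : ∃ m : ℕ → ℕ, (∀ j, m j ≤ c.N) ∧
    ∀ j, ∀ i < c.N, i < m j ↔ j ≤ (c.Occ (c.d i)).card := by
  have h : ∀ j, ∃ i, c.N ≤ i ∨ (c.Occ (c.d i)).card < j := fun j => ⟨c.N, Or.inl le_rfl⟩
  classical
  refine ⟨fun j => Nat.find (h j), fun j => Nat.find_min' _ (Or.inl le_rfl), fun j i hi => ?_⟩
  simp only [Nat.lt_find_iff, not_or, not_le, not_lt]
  exact ⟨fun H => (H i le_rfl).2, fun H k hk =>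
    ⟨by omega, H.trans (c.mu_anti (by omega) hi hk)⟩⟩

theorem W_le : c.W.card ≤ ∑ i ∈ range c.N, (c.Occ (c.d i)).card := by
  refine le_trans (card_le_card fun y hy => ?_) card_biUnion_le
  obtain ⟨i, hi, h⟩ := c.exists_d hy
  exact mem_biUnion.2 ⟨i, mem_range.2 hi, h⟩

/-- vertex at a corner -/
def vs (s : ℕ) : V := if s = c.d0 then c.src (c.ρ (c.x (c.φ⁻¹ s))) else c.src (c.x s)

theorem Occ_le (t : Dt) (ht : c.src t ≠ c.root) :
    (c.Occ t).card ≤ ((c.W ∪ c.W.image c.φ).filter fun s => c.vs s = c.src t).card := by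
  have k1 : ∀ y ∈ c.W, c.x y = t → y ≠ c.d0 := fun y hy e h =>
    ht (by rw [← e, h]; exact c.root0 (h ▸ (c.mem_W.1 hy).1))
  refine card_le_card_of_injOn (fun y => if c.x y = t then y else c.φ y) ?_ ?_
  · intro y hy
    obtain ⟨hy, e⟩ := c.mem_Occ.1 hy
    simp only [coe_filter, mem_union, mem_image, Set.mem_ofPred_eq]
    split_ifs with h
    · exact ⟨Or.inl hy, by rw [vs, if_neg (k1 y hy h), h]⟩
    · have e := e.resolve_left h
      refine ⟨Or.inr ⟨y, hy, rfl⟩, ?_⟩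
      unfold vs
      split_ifs with h'
      · simp [e, c.ρρ]
      · rw [(c.cont y (c.mem_W.1 hy).1 h').1, e, c.ρρ]
  · have k2 : ∀ y ∈ c.Occ t, ∀ z ∈ c.Occ t, c.x y = t → c.x z ≠ t → y ≠ c.φ z := by
      intro y hy z hz e1 e2 h
      obtain ⟨hz, e⟩ := c.mem_Occ.1 hz
      have := (c.cont z (c.mem_W.1 hz).1 (h ▸ k1 y (c.mem_Occ.1 hy).1 e1)).2
      exact this (by rw [← h, e1, e.resolve_left e2, c.ρρ])
    intro y hy z hz h
    simp only at h
    split_ifs at h with h1 h2 h2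
    · exact h
    · exact absurd h (k2 y hy z hz h1 h2)
    · exact absurd h.symm (k2 z hz y hy h2 h1)
    · exact c.φ.injective h

theorem vts_sum (m : ℕ → ℕ) (hm : ∀ j, m j ≤ c.N)
    (h : ∀ j, ∀ i < c.N, i < m j ↔ j ≤ (c.Occ (c.d i)).card) :
    ∑ j ∈ Icc 1 c.X.card, (vts c.src c.ρ c.root c.d (m j)).card ≤
      c.W.card + (c.W.filter fun y => c.φ y ∉ c.W).card := by
  let U := vts c.src c.ρ c.root c.d c.N
  let Sl := c.W ∪ c.W.image c.φ
  have h1 : ∀ j, (vts c.src c.ρ c.root c.d (m j)).card =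
      ∑ v ∈ U, if v ∈ vts c.src c.ρ c.root c.d (m j) then 1 else 0 := by
    intro j
    rw [← card_filter]
    congr 1
    ext v
    simp only [mem_filter, iff_and_self]
    simp only [U, vts, mem_erase, mem_union, mem_image, mem_range]
    have := hm j
    rintro ⟨a, ⟨i, hi, b⟩ | ⟨i, hi, b⟩⟩
    · exact ⟨a, Or.inl ⟨i, by omega, b⟩⟩
    · exact ⟨a, Or.inr ⟨i, by omega, b⟩⟩
  simp only [h1]
  rw [sum_comm]
  have h2 : ∀ v ∈ U, (∑ j ∈ Icc 1 c.X.card, if v ∈ vts c.src c.ρ c.root c.d (m j) then 1 else 0) ≤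
      (Sl.filter fun s => c.vs s = v).card := by
    intro v _
    rw [← card_filter]
    refine le_trans (card_le_card (t := Icc 1 (Sl.filter fun s => c.vs s = v).card) ?_) (by simp)
    intro j hj
    simp only [mem_filter, mem_Icc, vts, mem_erase, mem_union, mem_image, mem_range] at hj ⊢
    have := hm j
    obtain ⟨⟨a, -⟩, b, ⟨i, hi, rfl⟩ | ⟨i, hi, rfl⟩⟩ := hj
    · exact ⟨a, ((h j i (by omega)).1 hi).trans (c.Occ_le _ b)⟩
    · exact ⟨a, ((h j i (by omega)).1 hi).trans (c.Occ_ρ _ ▸ c.Occ_le _ b)⟩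
  refine (sum_le_sum h2).trans ?_
  have h3 : ∑ v ∈ U, (Sl.filter fun s => c.vs s = v).card ≤ Sl.card := by
    rw [sum_card_fiberwise_eq_card_filter]; exact card_filter_le _ _
  refine h3.trans ?_
  have : Sl ⊆ c.W ∪ (c.W.filter fun y => c.φ y ∉ c.W).image c.φ := by
    intro s hs
    simp only [Sl, mem_union, mem_image, mem_filter] at hs ⊢
    by_cases h : s ∈ c.W
    · exact Or.inl h
    · obtain ⟨y, hy, rfl⟩ := hs.resolve_left h
      exact Or.inr ⟨y, ⟨hy, h⟩, rfl⟩
  have a := (card_le_card this).trans (card_union_le _ _)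
  have b := card_image_le (s := c.W.filter fun y => c.φ y ∉ c.W) (f := c.φ)
  omega

theorem occ_mu {i : ℕ} (hi : i < c.N) (hp : c.src (c.d i) ∉ c.NP) :
    (c.W.filter fun y => c.src (c.x y) = c.src (c.d i)).card = (c.Occ (c.d i)).card := by
  rw [← card_image_of_injOn (c.Occ_inj _), ← card_image_of_injOn (f := c.pc) fun y hy z hz h =>
    c.src_inj (c.mem_W.1 (mem_filter.1 hy).1).1 (c.mem_W.1 (mem_filter.1 hz).1).1 h
      ((mem_filter.1 hy).2.trans (mem_filter.1 hz).2.symm)]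
  congr 1
  ext p
  simp only [mem_image, mem_filter, mem_Occ]
  constructor
  · rintro ⟨y, ⟨hy, e⟩, rfl⟩
    have p := c.plain_src hy (e ▸ hp)
    rcases c.corner hi hp hy e with a | a
    · exact ⟨y, ⟨hy, Or.inl a.1⟩, rfl⟩
    · exact ⟨_, ⟨p.2.1, Or.inr a.2⟩, (c.back (c.mem_W.1 hy).1 p.1).2.1⟩
  · rintro ⟨y, ⟨hy, e | e⟩, rfl⟩
    · exact ⟨y, ⟨hy, by rw [e]⟩, rfl⟩
    · have p := c.plain_tgt hy (by rw [e, c.ρρ]; exact hp)
      exact ⟨c.φ y, ⟨p.2, by rw [(c.cont' (c.mem_W.1 hy).1 p.1).1, e, c.ρρ]⟩,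
        (c.step y (c.mem_W.1 hy).1 p.1).1⟩

variable [Fintype Gen] [DecidableEq Gen]

theorem gain_low (A : Alph Gen) {H : ℝ} (hH : ∀ t s, - Real.log (A.p t s) ≤ H) :
    - Real.log A.r / 2 * c.W.card - (- Real.log A.r + H) *
      ((c.W.filter fun y => c.α y ∉ c.W).card + c.X.card * (c.NP.card +
        ((range c.N).filter fun i => c.brk i = true).card)) ≤
    ∑ i ∈ (range c.N).filter (fun i => c.brk i = false),
      (c.Occ (c.d i)).card * gain A c.lab c.d c.ptr i := by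
  set κ := - Real.log A.r with hκ
  let NB := (range c.N).filter fun i => c.brk i = false
  let O := c.W.filter fun y => c.src (c.x y) ∈ NB.image fun i => c.src (c.d i)
  let G : ℕ → ℝ := fun y => gain A c.lab c.d c.ptr (c.I (c.src (c.x y)))
  let h : ℕ → ℝ := fun y => - Real.log (A.p (iv (c.lab (c.x (c.φ⁻¹ y)))) (c.lab (c.x y)))
  have hO : ∀ y ∈ O, y ∈ c.W ∧ c.src (c.x y) ∉ c.NP ∧ c.I (c.src (c.x y)) ∈ NB ∧
      c.src (c.x y) = c.src (c.d (c.I (c.src (c.x y)))) := by
    intro y hy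
    obtain ⟨hy, e⟩ := mem_filter.1 hy
    obtain ⟨i, hi, e⟩ := mem_image.1 e
    have hi' := mem_filter.1 hi
    have hp := (c.brk_false.1 hi'.2).2.1.1
    rw [← e, c.I_d (mem_range.1 hi'.1) hp]
    exact ⟨hy, hp, hi, rfl⟩
  have e1 : ∑ i ∈ NB, (c.Occ (c.d i)).card * gain A c.lab c.d c.ptr i = ∑ y ∈ O, G y := by
    rw [← sum_fiberwise_of_maps_to (s := O) (t := NB) (g := fun y => c.I (c.src (c.x y)))
      fun y hy => (hO y hy).2.2.1]
    refine sum_congr rfl fun i hi => ?_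
    have hi' := mem_filter.1 hi
    have hp := (c.brk_false.1 hi'.2).2.1.1
    rw [sum_congr rfl (g := fun _ => gain A c.lab c.d c.ptr i) fun y hy => by
      simp only [G, (mem_filter.1 hy).2], sum_const, nsmul_eq_mul,
      ← c.occ_mu (mem_range.1 hi'.1) hp]
    congr 3
    ext y
    simp only [mem_filter]
    constructor
    · rintro ⟨a, b⟩
      exact ⟨mem_filter.2 ⟨a, mem_image.2 ⟨i, hi, b.symm⟩⟩,
        by rw [b, c.I_d (mem_range.1 hi'.1) hp]⟩
    · rintro ⟨a, rfl⟩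
      exact ⟨(hO y a).1, (hO y a).2.2.2⟩
  have hκh : ∀ t s, κ ≤ 2 * - Real.log (A.p t s) := fun t s => by
    have := Real.log_le_log (pow_pos (A.p_pos t s) 2) (A.p_sq t s)
    rw [Real.log_pow] at this
    push_cast at this; linarith
  have hG : ∀ y ∈ O, G y = if c.ptr (c.I (c.src (c.x y))) = none then κ - h y else h y := by
    intro y hy
    obtain ⟨a, b, e, f⟩ := hO y hy
    have : A.p (iv (c.lab (c.d (c.I (c.src (c.x y)) - 1)))) (c.lab (c.d (c.I (c.src (c.x y))))) =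
        A.p (iv (c.lab (c.x (c.φ⁻¹ y)))) (c.lab (c.x y)) := by
      have := c.corner (mem_range.1 (mem_filter.1 e).1) (f ▸ b) a f
      generalize c.I (c.src (c.x y)) = i at this
      rcases this with s | s
      · rw [← s.1, ← s.2]
      · rw [A.p_symm, s.2, s.1, c.labρ, c.labρ, iv_iv]
    simp only [G, gain, h, this]
    split_ifs <;> ring
  obtain ⟨κ0, H0⟩ : 0 ≤ κ ∧ 0 ≤ H := by
    have a : 0 ≤ κ := by
      have := Real.log_nonpos (A.r_pos (c.lab (c.x 0))).le A.r_lt.le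
      linarith
    have := hκh (c.lab (c.x 0)) (c.lab (c.x 0))
    have := hH (c.lab (c.x 0)) (c.lab (c.x 0))
    exact ⟨a, by linarith⟩
  let Gd := O.filter fun y => c.α y ∈ c.W ∧ c.op y ∈ O
  have hop : ∀ y ∈ Gd, c.op y ∈ Gd ∧ c.op (c.op y) = y ∧ κ ≤ G y + G (c.op y) := by
    intro y hy
    obtain ⟨hy, ha, ho⟩ := mem_filter.1 hy
    obtain ⟨a, b, e, f⟩ := hO y hy
    obtain ⟨a', b', e', f'⟩ := hO _ ho
    have o := c.op_spec a b ha
    have p := c.plain_src a b
    have oo : c.op (c.op y) = y := by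
      rw [op, o.2.2.2.2.2.1]; simp
    have ha' : c.α (c.op y) ∈ c.W := by rw [o.2.2.2.2.2.1]; exact p.2.1
    refine ⟨mem_filter.2 ⟨ho, ha', by rw [oo]; exact hy⟩, oo, ?_⟩
    have hh : h (c.op y) = h y := by
      simp only [h]
      rw [A.p_symm, o.2.2.2.2.1, ← o.2.2.2.1, c.labρ]
      simp [op]
    have hne : c.I (c.src (c.x (c.op y))) ≠ c.I (c.src (c.x y)) := fun h =>
      o.2.2.2.2.2.2 (by rw [f', h, ← f])
    have k := hκh (iv (c.lab (c.x (c.φ⁻¹ y)))) (c.lab (c.x y))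
    have ch : ∀ z ∈ O, c.α z ∈ c.W → c.I (c.src (c.x (c.op z))) < c.I (c.src (c.x z)) →
        c.ptr (c.I (c.src (c.x z))) ≠ none := by
      intro z hz hz' hl hn
      obtain ⟨a, b, e, f⟩ := hO z hz
      refine (c.ptr_none (c.brk_false.1 (mem_filter.1 e).2).2.1).1 hn ⟨z, ?_⟩
      simp only [Ch, mem_filter]
      exact ⟨a, f, hz', hl⟩
    rw [hG y hy, hG _ ho, hh]
    rcases lt_or_gt_of_ne hne with l | l
    · rw [if_neg (ch y hy ha l)]
      split_ifs <;> simp only [h] <;> linarith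
    · rw [if_neg (ch _ ho ha' (by rwa [oo]))]
      split_ifs <;> simp only [h] <;> linarith
  have e2 : κ / 2 * Gd.card ≤ ∑ y ∈ Gd, G y := by
    have : ∑ y ∈ Gd, G (c.op y) = ∑ y ∈ Gd, G y :=
      sum_bij' (fun y _ => c.op y) (fun y _ => c.op y) (fun y hy => (hop y hy).1)
        (fun y hy => (hop y hy).1) (fun y hy => (hop y hy).2.1) (fun y hy => (hop y hy).2.1)
        fun _ _ => rfl
    have a := sum_le_sum fun y hy => (hop y hy).2.2
    rw [sum_add_distrib, this, sum_const, nsmul_eq_mul] at a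
    linarith
  have e3 : - H * (O \ Gd).card ≤ ∑ y ∈ O \ Gd, G y := by
    have : ∀ y ∈ O \ Gd, - H ≤ G y := fun y hy => by
      rw [hG y (mem_sdiff.1 hy).1]
      have k := hκh (iv (c.lab (c.x (c.φ⁻¹ y)))) (c.lab (c.x y))
      have k' := hH (iv (c.lab (c.x (c.φ⁻¹ y)))) (c.lab (c.x y))
      split_ifs <;> simp only [h] <;> linarith
    have := sum_le_sum this
    rw [sum_const, nsmul_eq_mul] at this
    linarith
  have e4 : (c.W \ O).card ≤ c.X.card * (c.NP.card +
      ((range c.N).filter fun i => c.brk i = true).card) := by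
    refine le_trans (card_le_card (t := c.W.filter fun y => c.src (c.x y) ∈ c.NP ∪
      ((range c.N).filter fun i => c.brk i = true).image fun i => c.src (c.d i)) ?_)
      ((c.occ_card' _).trans (Nat.mul_le_mul_left _ ((card_union_le _ _).trans
        (Nat.add_le_add_left card_image_le _))))
    intro y hy
    obtain ⟨a, b⟩ := mem_sdiff.1 hy
    refine mem_filter.2 ⟨a, ?_⟩
    by_cases hp : c.src (c.x y) ∈ c.NP
    · exact mem_union_left _ hp
    · obtain ⟨i, hi, e⟩ := c.exists_I (c.Dl_x a) hp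
      refine mem_union_right _ (mem_image.2 ⟨i, mem_filter.2 ⟨mem_range.2 hi, ?_⟩, e⟩)
      by_contra hb
      exact b (mem_filter.2 ⟨a, mem_image.2 ⟨i, mem_filter.2 ⟨mem_range.2 hi, by simpa using hb⟩,
        e⟩⟩)
  have e5 : (O \ Gd).card ≤ (c.W.filter fun y => c.α y ∉ c.W).card + (c.W \ O).card := by
    have : O \ Gd ⊆ (c.W.filter fun y => c.α y ∉ c.W) ∪
        (c.W \ O).image fun z => c.α (c.φ⁻¹ z) := by
      intro y hy
      obtain ⟨a, b⟩ := mem_sdiff.1 hy
      by_cases ha : c.α y ∈ c.W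
      · refine mem_union_right _ (mem_image.2 ⟨c.op y, mem_sdiff.2
          ⟨(c.op_spec (hO y a).1 (hO y a).2.1 ha).1, fun h => b (mem_filter.2 ⟨a, ha, h⟩)⟩, ?_⟩)
        simp [op, c.αα]
      · exact mem_union_left _ (mem_filter.2 ⟨(hO y a).1, ha⟩)
    exact (card_le_card this).trans ((card_union_le _ _).trans
      (Nat.add_le_add_left card_image_le _))
  have e6 := card_sdiff_add_card_eq_card (s := O) (t := c.W) (filter_subset _ _)
  have e7 := card_sdiff_add_card_eq_card (s := Gd) (t := O) (filter_subset _ _)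
  rw [e1, ← sum_sdiff (s₁ := Gd) (filter_subset _ _)]
  have e4' : ((c.W \ O).card : ℝ) ≤ c.X.card * (c.NP.card +
      ((range c.N).filter fun i => c.brk i = true).card) := by exact_mod_cast e4
  have e5' : ((O \ Gd).card : ℝ) ≤ (c.W.filter fun y => c.α y ∉ c.W).card + (c.W \ O).card := by
    exact_mod_cast e5
  have e6' : ((c.W \ O).card : ℝ) + O.card = c.W.card := by exact_mod_cast e6
  have e7' : ((O \ Gd).card : ℝ) + Gd.card = O.card := by exact_mod_cast e7
  have b0 : (0 : ℝ) ≤ (c.W.filter fun y => c.α y ∉ c.W).card := Nat.cast_nonneg _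
  nlinarith

theorem local_ineq (A : Alph Gen) {H E : ℝ} (hH : ∀ t s, - Real.log (A.p t s) ≤ H) {n M Q : ℕ}
    (hn : 1 ≤ n) (hM : c.X.card * c.P ≤ M) (hE : 0 ≤ E) [Fintype V] [Fintype Dt]
    (hG : Good A c.src c.lab c.ρ c.root n M E)
    (hQ : (c.X.card + 1) * (4 * (c.X.card * c.NP.card) + 2) + c.NP.card + 2 ≤ Q) :
    - Real.log A.r / 2 * c.W.card ≤ (- Real.log A.r + H) * (c.W.filter fun y => c.α y ∉ c.W).card +
      (c.W.filter fun y => c.φ y ∉ c.W).card * Real.log n +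
      c.X.card * Q * (E + (- Real.log A.r + H)) := by
  obtain ⟨m, hm, h⟩ := c.exists_levels
  have hN := c.N_le.trans hM
  have hb := c.brk_card
  have g1 := c.gain_low A hH
  have l1 := level_sum (fun i => (c.Occ (c.d i)).card) (fun i => c.Occ_card _) m hm h
    fun i => if c.brk i = false then gain A c.lab c.d c.ptr i else 0
  have l2 := level_sum (fun i => (c.Occ (c.d i)).card) (fun i => c.Occ_card _) m hm h
    fun _ => 1
  simp only [mul_ite, mul_zero, ← sum_filter] at l1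
  simp only [sum_const, card_range, nsmul_eq_mul, mul_one] at l2
  have w1 : (c.W.card : ℝ) ≤ ∑ i ∈ range c.N, ((c.Occ (c.d i)).card : ℝ) := by
    exact_mod_cast c.W_le
  have v1 : ∑ j ∈ Icc 1 c.X.card, ((vts c.src c.ρ c.root c.d (m j)).card : ℝ) ≤
      c.W.card + (c.W.filter fun y => c.φ y ∉ c.W).card := by exact_mod_cast c.vts_sum m hm h
  have s1 := sum_le_sum fun j (_ : j ∈ Icc 1 c.X.card) =>
    (hG (m j) ((hm j).trans hN) c.d c.brk c.ptr (c.code (hm j) hN)).trans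
      (mul_le_mul_of_nonneg_right (show _ ≤ (Q : ℝ) by
        have : ((range (m j)).filter fun i => c.brk i = true).card ≤
            ((range c.N).filter fun i => c.brk i = true).card :=
          card_le_card (filter_subset_filter _ (range_mono (hm j)))
        exact_mod_cast (by omega : ((range (m j)).filter fun i => c.brk i = true).card + 2 ≤ Q)) hE)
  rw [sum_add_distrib, l1, ← sum_mul, sum_sub_distrib, l2, sum_const, nsmul_eq_mul] at s1
  simp only [Nat.card_Icc, Nat.add_sub_cancel] at s1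
  have hl : 0 ≤ Real.log n := Real.log_nonneg (by exact_mod_cast hn)
  have κH : 0 ≤ - Real.log A.r + H := by
    have a := Real.log_nonpos (A.r_pos (c.lab (c.x 0))).le A.r_lt.le
    have := Real.log_le_log (pow_pos (A.p_pos (c.lab (c.x 0)) (c.lab (c.x 0))) 2) (A.p_sq _ _)
    rw [Real.log_pow] at this
    have := hH (c.lab (c.x 0)) (c.lab (c.x 0))
    push_cast at *; linarith
  have q1 : ((c.NP.card : ℝ) + ((range c.N).filter fun i => c.brk i = true).card) ≤ Q := by
    exact_mod_cast (by omega : c.NP.card + ((range c.N).filter fun i => c.brk i = true).card ≤ Q)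
  have q2 := mul_le_mul_of_nonneg_left (mul_le_mul_of_nonneg_left q1 (Nat.cast_nonneg c.X.card)) κH
  have q3 := mul_le_mul_of_nonneg_right (show - ((c.W.filter fun y => c.φ y ∉ c.W).card : ℝ) ≤
    ∑ i ∈ range c.N, ((c.Occ (c.d i)).card : ℝ) -
      ∑ j ∈ Icc 1 c.X.card, ((vts c.src c.ρ c.root c.d (m j)).card : ℝ) by linarith) hl
  nlinarith

end Cf

end Vale.Agent.P201
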