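import Vale.Agent.P201.Basic

namespace Vale.Agent.P201

open Finset

/-- `P` is connected inside itself for the adjacency `Adj` -/
def Conn (Adj : ℕ → ℕ → Prop) (P : Finset ℕ) : Prop :=
  ∀ u ∈ P, ∀ v ∈ P, Relation.ReflTransGen (fun a b => a ∈ P ∧ b ∈ P ∧ Adj a b) u v

/-- no `K₇` minor inside `U` -/
def NoK7 (Adj : ℕ → ℕ → Prop) (U : Finset ℕ) : Prop :=
  ¬ ∃ B : Fin 7 → Finset ℕ, (∀ i, B i ⊆ U) ∧ (∀ i, Conn Adj (B i)) ∧
    (∀ i j, i ≠ j → Disjoint (B i) (B j)) ∧ (∀ i j, i ≠ j → ∃ a ∈ B i, ∃ b ∈ B j, Adj a b)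

namespace Loc

variable {Adj : ℕ → ℕ → Prop}

theorem rtg_mono {P Q : Finset ℕ} (h : P ⊆ Q) {u v : ℕ}
    (huv : Relation.ReflTransGen (fun a b => a ∈ P ∧ b ∈ P ∧ Adj a b) u v) :
    Relation.ReflTransGen (fun a b => a ∈ Q ∧ b ∈ Q ∧ Adj a b) u v := by
  induction huv with
  | refl => exact Relation.ReflTransGen.refl
  | tail _ hbc ih => exact ih.tail ⟨h hbc.1, h hbc.2.1, hbc.2.2⟩

theorem conn_of_root (hs : ∀ a b, Adj a b → Adj b a) {P : Finset ℕ} (v0 : ℕ)
    (h : ∀ v ∈ P, Relation.ReflTransGen (fun a b => a ∈ P ∧ b ∈ P ∧ Adj a b) v0 v) :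
    Conn Adj P := by
  intro u hu v hv
  have hsym : ∀ x y, Relation.ReflTransGen (fun a b => a ∈ P ∧ b ∈ P ∧ Adj a b) x y →
      Relation.ReflTransGen (fun a b => a ∈ P ∧ b ∈ P ∧ Adj a b) y x := by
    intro x y hxy
    induction hxy with
    | refl => exact Relation.ReflTransGen.refl
    | tail _ hbc ih =>
      exact Relation.ReflTransGen.head ⟨hbc.2.1, hbc.1, hs _ _ hbc.2.2⟩ ih
  exact (hsym _ _ (h u hu)).trans (h v hv)

theorem conn_singleton (v : ℕ) : Conn Adj {v} := by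
  intro a ha b hb
  rw [mem_singleton] at ha hb
  rw [ha, hb]

theorem conn_insert (hs : ∀ a b, Adj a b → Adj b a) {P : Finset ℕ} (hP : Conn Adj P) {y z : ℕ}
    (hy : y ∈ P) (hyz : Adj y z) : Conn Adj (insert z P) := by
  refine conn_of_root hs y ?_
  intro v hv
  rcases mem_insert.1 hv with rfl | hv
  · exact Relation.ReflTransGen.single ⟨mem_insert_of_mem hy, mem_insert_self _ _, hyz⟩
  · exact rtg_mono (subset_insert _ _) (hP y hy v hv)

theorem conn_union (hs : ∀ a b, Adj a b → Adj b a) {P Q : Finset ℕ} (hP : Conn Adj P)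
    (hQ : Conn Adj Q) {y : ℕ} (hy : y ∈ P) (hy' : y ∈ Q) : Conn Adj (P ∪ Q) := by
  refine conn_of_root hs y ?_
  intro v hv
  rcases mem_union.1 hv with hv | hv
  · exact rtg_mono subset_union_left (hP y hy v hv)
  · exact rtg_mono subset_union_right (hQ y hy' v hv)

open Classical in
/-- neighbours of `Y` in `S` outside `Y` -/
noncomputable def nb (Adj : ℕ → ℕ → Prop) (S Y : Finset ℕ) : Finset ℕ :=
  S.filter (fun z => z ∉ Y ∧ ∃ y ∈ Y, Adj y z)

theorem mem_nb {S Y : Finset ℕ} {z : ℕ} :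
    z ∈ nb Adj S Y ↔ z ∈ S ∧ z ∉ Y ∧ ∃ y ∈ Y, Adj y z := by
  simp [nb]

open Classical in
/-- points joined to `v` by a small connected subset of `R` -/
noncomputable def ball (Adj : ℕ → ℕ → Prop) (R : Finset ℕ) (v k : ℕ) : Finset ℕ :=
  R.filter (fun w => ∃ C ⊆ R, Conn Adj C ∧ v ∈ C ∧ w ∈ C ∧ C.card ≤ k + 1)

theorem mem_ball {R : Finset ℕ} {v k w : ℕ} :
    w ∈ ball Adj R v k ↔ w ∈ R ∧ ∃ C ⊆ R, Conn Adj C ∧ v ∈ C ∧ w ∈ C ∧ C.card ≤ k + 1 := by
  simp [ball]

theorem ball_subset {R : Finset ℕ} {v k : ℕ} : ball Adj R v k ⊆ R :=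
  fun _ hw => (mem_ball.1 hw).1

theorem self_mem_ball {R : Finset ℕ} {v : ℕ} (hv : v ∈ R) (k : ℕ) : v ∈ ball Adj R v k :=
  mem_ball.2 ⟨hv, {v}, singleton_subset_iff.2 hv, conn_singleton v, mem_singleton_self v,
    mem_singleton_self v, by simp⟩

theorem ball_succ (hs : ∀ a b, Adj a b → Adj b a) (R : Finset ℕ) (v k : ℕ) :
    (ball Adj R v k).card + (nb Adj R (ball Adj R v k)).card ≤ (ball Adj R v (k + 1)).card := by
  rw [← card_union_of_disjoint]
  · apply card_le_card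
    intro w hw
    rcases mem_union.1 hw with hw | hw
    · obtain ⟨h1, C, h2, h3, h4, h5, h6⟩ := mem_ball.1 hw
      exact mem_ball.2 ⟨h1, C, h2, h3, h4, h5, by omega⟩
    · obtain ⟨h1, -, y, hy, hyw⟩ := mem_nb.1 hw
      obtain ⟨-, C, h2, h3, h4, h5, h6⟩ := mem_ball.1 hy
      refine mem_ball.2 ⟨h1, insert w C, insert_subset h1 h2, conn_insert hs h3 h5 hyw,
        mem_insert_of_mem h4, mem_insert_self _ _, ?_⟩
      have := card_insert_le w C
      omega
  · rw [disjoint_right]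
    intro w hw
    exact (mem_nb.1 hw).2.1

theorem ball_big (hs : ∀ a b, Adj a b → Adj b a) (R : Finset ℕ) (m : ℕ) (h : ℝ) (hh : 0 ≤ h)
    (grow : ∀ Y ⊆ R, Y.Nonempty → 8 * Y.card ≤ 5 * m → h * Y.card ≤ (nb Adj R Y).card)
    {v : ℕ} (hv : v ∈ R) (k : ℕ) :
    5 * m < 8 * (ball Adj R v k).card ∨ (1 + h) ^ k ≤ (ball Adj R v k).card := by
  induction k with
  | zero =>
    right
    have : 1 ≤ (ball Adj R v 0).card := card_pos.2 ⟨v, self_mem_ball hv 0⟩
    simpa using this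
  | succ k ih =>
    have h1 := ball_succ hs R v k
    by_cases hb : 5 * m < 8 * (ball Adj R v k).card
    · left; omega
    · right
      have h2 := ih.resolve_left hb
      have h3 := grow (ball Adj R v k) ball_subset ⟨v, self_mem_ball hv k⟩ (by omega)
      have h4 : ((ball Adj R v k).card : ℝ) + (nb Adj R (ball Adj R v k)).card
          ≤ (ball Adj R v (k + 1)).card := by exact_mod_cast h1
      calc (1 + h) ^ (k + 1) = (1 + h) * (1 + h) ^ k := by ring
        _ ≤ (1 + h) * (ball Adj R v k).card := by gcongr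
        _ ≤ _ := by nlinarith

theorem join (hs : ∀ a b, Adj a b → Adj b a) (R : Finset ℕ) (m r : ℕ) (hR : R.card ≤ m)
    (h : ℝ) (hh : 0 ≤ h) (hr : (m : ℝ) < (1 + h) ^ r)
    (grow : ∀ Y ⊆ R, Y.Nonempty → 8 * Y.card ≤ 5 * m → h * Y.card ≤ (nb Adj R Y).card)
    {u v : ℕ} (hu : u ∈ R) (hv : v ∈ R) :
    ∃ C ⊆ R, Conn Adj C ∧ u ∈ C ∧ v ∈ C ∧ C.card ≤ 2 * r + 2 := by
  have key : ∀ w ∈ R, 5 * m < 8 * (ball Adj R w r).card := by
    intro w hw
    rcases ball_big hs R m h hh grow hw r with h1 | h1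
    · exact h1
    · exfalso
      have h2 : (ball Adj R w r).card ≤ m := (card_le_card ball_subset).trans hR
      have h3 : ((ball Adj R w r).card : ℝ) ≤ m := by exact_mod_cast h2
      linarith
  have h1 := key u hu
  have h2 := key v hv
  have h3 : ¬ Disjoint (ball Adj R u r) (ball Adj R v r) := by
    intro hd
    have h4 := card_union_of_disjoint hd
    have h5 : (ball Adj R u r ∪ ball Adj R v r).card ≤ R.card :=
      card_le_card (union_subset ball_subset ball_subset)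
    omega
  obtain ⟨w, hw1, hw2⟩ := not_disjoint_iff.1 h3
  obtain ⟨-, C, c2, c3, c4, c5, c6⟩ := mem_ball.1 hw1
  obtain ⟨-, D, d2, d3, d4, d5, d6⟩ := mem_ball.1 hw2
  refine ⟨C ∪ D, union_subset c2 d2, conn_union hs c3 d3 c5 d5, mem_union_left _ c4,
    mem_union_right _ d4, ?_⟩
  have := card_union_le C D
  omega

/-- admissible configurations -/
structure Good (Adj : ℕ → ℕ → Prop) (X : Finset ℕ) (a : ℕ) (h : ℝ) (L : Finset ℕ)
    (AA : Finset (Finset ℕ)) : Prop where
  sub : L ⊆ X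
  small : 4 * L.card ≤ 3 * X.card
  seven : AA.card ≤ 7
  ne : ∀ P ∈ AA, P.Nonempty
  psub : ∀ P ∈ AA, P ⊆ X
  pdis : ∀ P ∈ AA, Disjoint P L
  conn : ∀ P ∈ AA, Conn Adj P
  size : ∀ P ∈ AA, P.card ≤ a
  disj : ∀ P ∈ AA, ∀ Q ∈ AA, P ≠ Q → Disjoint P Q
  adj : ∀ P ∈ AA, ∀ Q ∈ AA, P ≠ Q → ∃ x ∈ P, ∃ y ∈ Q, Adj x y
  bd : ((nb Adj (X \ AA.biUnion id) L).card : ℝ) ≤ h * L.card

theorem card_bU {a : ℕ} {AA : Finset (Finset ℕ)} (h7 : AA.card ≤ 7)
    (hsz : ∀ P ∈ AA, P.card ≤ a) : (AA.biUnion id).card ≤ 7 * a := by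
  calc (AA.biUnion id).card ≤ ∑ P ∈ AA, (id P : Finset ℕ).card := card_biUnion_le
    _ ≤ ∑ _P ∈ AA, a := sum_le_sum (fun P hP => hsz P hP)
    _ = AA.card * a := by simp
    _ ≤ 7 * a := Nat.mul_le_mul_right _ h7

theorem good_small {X : Finset ℕ} {a : ℕ} {h : ℝ} {L : Finset ℕ} {AA : Finset (Finset ℕ)}
    (exp : ∀ Y ⊆ X, Y.Nonempty → 4 * Y.card ≤ 3 * X.card → 2 * h * Y.card ≤ (nb Adj X Y).card)
    (g : Good Adj X a h L AA) : h * L.card ≤ 7 * a := by
  rcases L.eq_empty_or_nonempty with rfl | hL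
  · simp
  have h1 := exp L g.sub hL g.small
  have h2 : nb Adj X L ⊆ nb Adj (X \ AA.biUnion id) L ∪ AA.biUnion id := by
    intro z hz
    obtain ⟨z1, z2, z3⟩ := mem_nb.1 hz
    by_cases hz' : z ∈ AA.biUnion id
    · exact mem_union_right _ hz'
    · exact mem_union_left _ (mem_nb.2 ⟨mem_sdiff.2 ⟨z1, hz'⟩, z2, z3⟩)
  have h3 := (card_le_card h2).trans (card_union_le _ _)
  have h4 := card_bU g.seven g.size
  have h5 : ((nb Adj X L).card : ℝ) ≤ (nb Adj (X \ AA.biUnion id) L).card + 7 * a := by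
    have : (nb Adj X L).card ≤ (nb Adj (X \ AA.biUnion id) L).card + 7 * a := by omega
    exact_mod_cast this
  have h6 := g.bd
  linarith

theorem expander (hs : ∀ a b, Adj a b → Adj b a) (X : Finset ℕ) (r : ℕ) (h : ℝ) (hh : 0 < h)
    (hr : (X.card : ℝ) < (1 + h) ^ r)
    (ha : 7 * ((14 * r + 15 : ℕ) : ℝ) / h + ((14 * r + 15 : ℕ) : ℝ) ≤ X.card / 8)
    (exp : ∀ Y ⊆ X, Y.Nonempty → 4 * Y.card ≤ 3 * X.card → 2 * h * Y.card ≤ (nb Adj X Y).card) :
    ¬ NoK7 Adj X := by
  classical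
  set a := 14 * r + 15 with ha_def
  let S : Finset (Finset ℕ × Finset (Finset ℕ)) :=
    (X.powerset ×ˢ X.powerset.powerset).filter (fun c => Good Adj X a h c.1 c.2)
  have hS : ∀ L AA, Good Adj X a h L AA → (L, AA) ∈ S := by
    intro L AA g
    refine mem_filter.2 ⟨mem_product.2 ⟨mem_powerset.2 g.sub, mem_powerset.2 ?_⟩, g⟩
    intro P hP
    exact mem_powerset.2 (g.psub P hP)
  have g0 : Good Adj X a h ∅ ∅ := by
    refine ⟨empty_subset _, by simp, by simp, by simp, by simp, by simp, by simp, by simp,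
      by simp, by simp, ?_⟩
    have : nb Adj (X \ (∅ : Finset (Finset ℕ)).biUnion id) ∅ = ∅ := by
      ext z; simp [mem_nb]
    rw [this]; simp
  obtain ⟨⟨L, AA⟩, hc, hmax⟩ := exists_max_image S (fun c => 2 * c.1.card + c.2.card)
    ⟨_, hS _ _ g0⟩
  have g : Good Adj X a h L AA := (mem_filter.1 hc).2
  have hmax' : ∀ L' AA', Good Adj X a h L' AA' →
      2 * L'.card + AA'.card ≤ 2 * L.card + AA.card := fun L' AA' g' => hmax _ (hS _ _ g')
  have hLa : 8 * (L.card + a) ≤ X.card := by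
    have h1 := good_small exp g
    have h2 : (L.card : ℝ) ≤ 7 * a / h := by
      rw [le_div_iff₀ hh]; linarith
    have h3 : (8 : ℝ) * (L.card + a) ≤ X.card := by linarith
    exact_mod_cast h3
  set R := (X \ AA.biUnion id) \ L with hR
  have memR : ∀ z, z ∈ R ↔ z ∈ X ∧ (∀ P ∈ AA, z ∉ P) ∧ z ∉ L := by
    intro z; simp [hR, and_assoc]
  have step1 : ∀ P ∈ AA, ∃ z ∈ R, ∃ y ∈ P, Adj y z := by
    intro P hP
    by_contra hno
    have hd : Disjoint L P := (g.pdis P hP).symm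
    have hc1 : (L ∪ P).card = L.card + P.card := card_union_of_disjoint hd
    have hP1 : 1 ≤ P.card := card_pos.2 (g.ne P hP)
    have hPa := g.size P hP
    have g' : Good Adj X a h (L ∪ P) (AA.erase P) := by
      refine ⟨union_subset g.sub (g.psub P hP), by omega, (card_erase_le).trans g.seven,
        fun Q hQ => g.ne Q (mem_of_mem_erase hQ), fun Q hQ => g.psub Q (mem_of_mem_erase hQ),
        ?_, fun Q hQ => g.conn Q (mem_of_mem_erase hQ),
        fun Q hQ => g.size Q (mem_of_mem_erase hQ),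
        fun Q hQ Q' hQ' => g.disj Q (mem_of_mem_erase hQ) Q' (mem_of_mem_erase hQ'),
        fun Q hQ Q' hQ' => g.adj Q (mem_of_mem_erase hQ) Q' (mem_of_mem_erase hQ'), ?_⟩
      · intro Q hQ
        exact disjoint_union_right.2 ⟨g.pdis Q (mem_of_mem_erase hQ),
          g.disj Q (mem_of_mem_erase hQ) P hP (ne_of_mem_erase hQ)⟩
      · have hsub : nb Adj (X \ (AA.erase P).biUnion id) (L ∪ P)
            ⊆ nb Adj (X \ AA.biUnion id) L := by
          intro z hz
          obtain ⟨z1, z2, y, hy, hyz⟩ := mem_nb.1 hz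
          have zR : z ∈ R := by
            rw [memR]
            refine ⟨(mem_sdiff.1 z1).1, ?_, fun hzL => z2 (mem_union_left _ hzL)⟩
            intro Q hQ hzQ
            by_cases hQP : Q = P
            · exact z2 (mem_union_right _ (hQP ▸ hzQ))
            · exact (mem_sdiff.1 z1).2 (mem_biUnion.2 ⟨Q, mem_erase.2 ⟨hQP, hQ⟩, hzQ⟩)
          rcases mem_union.1 hy with hy | hy
          · exact mem_nb.2 ⟨(mem_sdiff.1 zR).1, (mem_sdiff.1 zR).2, y, hy, hyz⟩
          · exact absurd ⟨z, zR, y, hy, hyz⟩ hno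
        have h1 : ((nb Adj (X \ (AA.erase P).biUnion id) (L ∪ P)).card : ℝ)
            ≤ (nb Adj (X \ AA.biUnion id) L).card := by exact_mod_cast card_le_card hsub
        have h2 : (L.card : ℝ) ≤ (L ∪ P).card := by
          exact_mod_cast card_le_card subset_union_left
        have h3 := g.bd
        nlinarith
    have h1 := hmax' _ _ g'
    have h2 := card_erase_add_one hP
    omega
  have step2 : ∀ Y ⊆ R, Y.Nonempty → 8 * Y.card ≤ 5 * X.card →
      h * Y.card ≤ (nb Adj R Y).card := by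
    intro Y hY hne hsm
    by_contra hno
    push Not at hno
    have hd : Disjoint L Y := by
      rw [disjoint_right]
      intro z hz
      exact ((memR z).1 (hY hz)).2.2
    have hc1 : (L ∪ Y).card = L.card + Y.card := card_union_of_disjoint hd
    have hY1 : 1 ≤ Y.card := card_pos.2 hne
    have g' : Good Adj X a h (L ∪ Y) AA := by
      refine ⟨union_subset g.sub (fun z hz => ((memR z).1 (hY hz)).1), by omega, g.seven,
        g.ne, g.psub, ?_, g.conn, g.size, g.disj, g.adj, ?_⟩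
      · intro Q hQ
        refine disjoint_union_right.2 ⟨g.pdis Q hQ, ?_⟩
        rw [disjoint_right]
        intro z hz
        exact ((memR z).1 (hY hz)).2.1 Q hQ
      · have hsub : nb Adj (X \ AA.biUnion id) (L ∪ Y)
            ⊆ nb Adj (X \ AA.biUnion id) L ∪ nb Adj R Y := by
          intro z hz
          obtain ⟨z1, z2, y, hy, hyz⟩ := mem_nb.1 hz
          have zL : z ∉ L := fun hzL => z2 (mem_union_left _ hzL)
          have zY : z ∉ Y := fun hzL => z2 (mem_union_right _ hzL)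
          rcases mem_union.1 hy with hy | hy
          · exact mem_union_left _ (mem_nb.2 ⟨z1, zL, y, hy, hyz⟩)
          · exact mem_union_right _ (mem_nb.2 ⟨mem_sdiff.2 ⟨z1, zL⟩, zY, y, hy, hyz⟩)
        have h1 : ((nb Adj (X \ AA.biUnion id) (L ∪ Y)).card : ℝ)
            ≤ (nb Adj (X \ AA.biUnion id) L).card + (nb Adj R Y).card := by
          exact_mod_cast (card_le_card hsub).trans (card_union_le _ _)
        have h3 := g.bd
        rw [hc1]
        push_cast
        linarith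
    have h1 := hmax' _ _ g'
    omega
  have hRX : R ⊆ X := fun z hz => ((memR z).1 hz).1
  have hRne : R.Nonempty := by
    rw [← card_pos]
    have h1 := card_bU g.seven g.size
    have h2 : X ⊆ R ∪ (AA.biUnion id ∪ L) := by
      intro z hz
      by_cases h3 : z ∈ AA.biUnion id
      · exact mem_union_right _ (mem_union_left _ h3)
      by_cases h4 : z ∈ L
      · exact mem_union_right _ (mem_union_right _ h4)
      · exact mem_union_left _ (mem_sdiff.2 ⟨mem_sdiff.2 ⟨hz, h3⟩, h4⟩)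
    have h3 := (card_le_card h2).trans (card_union_le _ _)
    have h4 := card_union_le (AA.biUnion id) L
    omega
  obtain ⟨v0, hv0⟩ := hRne
  have h7 : AA.card = 7 := by
    by_contra h7
    have h6 : AA.card ≤ 6 := by have := g.seven; omega
    have hj : ∀ P ∈ AA, ∃ C ⊆ R, Conn Adj C ∧ v0 ∈ C ∧ C.card ≤ 2 * r + 2 ∧
        ∃ z ∈ C, ∃ y ∈ P, Adj y z := by
      intro P hP
      obtain ⟨z, hz, y, hy, hyz⟩ := step1 P hP
      obtain ⟨C, c1, c2, c3, c4, c5⟩ :=
        join hs R X.card r (card_le_card hRX) h hh.le hr step2 hv0 hz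
      exact ⟨C, c1, c2, c3, c5, z, c4, y, hy, hyz⟩
    choose! F F1 F2 F3 F4 F5 using hj
    set P0 := insert v0 (AA.biUnion F) with hP0
    have P0R : P0 ⊆ R := insert_subset hv0 (biUnion_subset.2 F1)
    have P0c : Conn Adj P0 := by
      refine conn_of_root hs v0 ?_
      intro v hv
      rcases mem_insert.1 hv with rfl | hv
      · exact Relation.ReflTransGen.refl
      · obtain ⟨P, hP, hvP⟩ := mem_biUnion.1 hv
        exact rtg_mono ((subset_biUnion_of_mem F hP).trans (subset_insert _ _))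
          (F2 P hP v0 (F3 P hP) v hvP)
    have P0a : P0.card ≤ a := by
      have h1 : P0.card ≤ (AA.biUnion F).card + 1 := card_insert_le v0 (AA.biUnion F)
      have h2 : (AA.biUnion F).card ≤ 7 * (2 * r + 2) := by
        calc (AA.biUnion F).card ≤ ∑ P ∈ AA, (F P).card := card_biUnion_le
          _ ≤ ∑ _P ∈ AA, (2 * r + 2) := sum_le_sum (fun P hP => F4 P hP)
          _ = AA.card * (2 * r + 2) := by simp
          _ ≤ 7 * (2 * r + 2) := Nat.mul_le_mul_right _ g.seven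
      omega
    have P0d : ∀ Q ∈ AA, Disjoint P0 Q := by
      intro Q hQ
      rw [disjoint_left]
      intro z hz
      exact ((memR z).1 (P0R hz)).2.1 Q hQ
    have P0adj : ∀ Q ∈ AA, ∃ y ∈ Q, ∃ z ∈ P0, Adj y z := by
      intro Q hQ
      obtain ⟨z, hz, y, hy, hyz⟩ := F5 Q hQ
      exact ⟨y, hy, z, mem_insert_of_mem (mem_biUnion.2 ⟨Q, hQ, hz⟩), hyz⟩
    have P0n : P0 ∉ AA := fun hm =>
      disjoint_left.1 (P0d P0 hm) (mem_insert_self v0 _) (mem_insert_self v0 _)
    have hc1 : (insert P0 AA).card = AA.card + 1 := card_insert_of_notMem P0n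
    have g' : Good Adj X a h L (insert P0 AA) := by
      refine ⟨g.sub, g.small, by omega, ?_, ?_, ?_, ?_, ?_, ?_, ?_, ?_⟩
      · intro Q hQ
        rcases mem_insert.1 hQ with rfl | hQ
        · exact ⟨v0, mem_insert_self _ _⟩
        · exact g.ne Q hQ
      · intro Q hQ
        rcases mem_insert.1 hQ with rfl | hQ
        · exact P0R.trans hRX
        · exact g.psub Q hQ
      · intro Q hQ
        rcases mem_insert.1 hQ with rfl | hQ
        · rw [disjoint_left]
          intro z hz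
          exact ((memR z).1 (P0R hz)).2.2
        · exact g.pdis Q hQ
      · intro Q hQ
        rcases mem_insert.1 hQ with rfl | hQ
        · exact P0c
        · exact g.conn Q hQ
      · intro Q hQ
        rcases mem_insert.1 hQ with rfl | hQ
        · exact P0a
        · exact g.size Q hQ
      · intro Q hQ Q' hQ' hne
        rcases mem_insert.1 hQ with rfl | hQ1
        · rcases mem_insert.1 hQ' with rfl | hQ2
          · exact absurd rfl hne
          · exact P0d Q' hQ2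
        · rcases mem_insert.1 hQ' with rfl | hQ2
          · exact (P0d Q hQ1).symm
          · exact g.disj Q hQ1 Q' hQ2 hne
      · intro Q hQ Q' hQ' hne
        rcases mem_insert.1 hQ with rfl | hQ1
        · rcases mem_insert.1 hQ' with rfl | hQ2
          · exact absurd rfl hne
          · obtain ⟨y, hy, z, hz, hyz⟩ := P0adj Q' hQ2
            exact ⟨z, hz, y, hy, hs _ _ hyz⟩
        · rcases mem_insert.1 hQ' with rfl | hQ2
          · exact P0adj Q hQ1
          · exact g.adj Q hQ1 Q' hQ2 hne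
      · refine le_trans ?_ g.bd
        have hsub : nb Adj (X \ (insert P0 AA).biUnion id) L ⊆ nb Adj (X \ AA.biUnion id) L := by
          intro z hz
          obtain ⟨z1, z2, z3⟩ := mem_nb.1 hz
          refine mem_nb.2 ⟨mem_sdiff.2 ⟨(mem_sdiff.1 z1).1, fun hz' => (mem_sdiff.1 z1).2 ?_⟩,
            z2, z3⟩
          obtain ⟨Q, hQ, hzQ⟩ := mem_biUnion.1 hz'
          exact mem_biUnion.2 ⟨Q, mem_insert_of_mem hQ, hzQ⟩
        exact_mod_cast card_le_card hsub
    have h1 := hmax' _ _ g'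
    omega
  intro hno
  apply hno
  let e : Fin 7 ≃ AA := (Finset.equivFinOfCardEq h7).symm
  have hne : ∀ i j, i ≠ j → ((e i : AA) : Finset ℕ) ≠ e j := by
    intro i j hij hh'
    exact hij (e.injective (Subtype.ext hh'))
  exact ⟨fun i => e i, fun i => g.psub _ (e i).2, fun i => g.conn _ (e i).2,
    fun i j hij => g.disj _ (e i).2 _ (e j).2 (hne i j hij),
    fun i j hij => g.adj _ (e i).2 _ (e j).2 (hne i j hij)⟩

/-- fourth root -/
noncomputable def rt (m : ℕ) : ℝ := Real.sqrt (Real.sqrt m)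

theorem rt_pow (m : ℕ) : rt m ^ 4 = (m : ℝ) := by
  have h1 : rt m ^ 2 = Real.sqrt m := Real.sq_sqrt (Real.sqrt_nonneg _)
  have h2 : Real.sqrt m ^ 2 = m := Real.sq_sqrt (Nat.cast_nonneg _)
  calc rt m ^ 4 = (rt m ^ 2) ^ 2 := by ring
    _ = (m : ℝ) := by rw [h1, h2]

theorem rt_nonneg (m : ℕ) : 0 ≤ rt m := Real.sqrt_nonneg _

theorem le_rt {m : ℕ} {t : ℝ} (h : t ^ 4 ≤ m) : t ≤ rt m := by
  rw [← rt_pow m] at h
  exact le_of_pow_le_pow_left₀ (by norm_num) (rt_nonneg m) h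

theorem one_le_rt {m : ℕ} (h : 1 ≤ m) : 1 ≤ rt m := le_rt (by simpa using h)

theorem rt_mono {y m : ℕ} (h : y ≤ m) : rt y ≤ rt m := le_rt (by rw [rt_pow]; exact_mod_cast h)

theorem rt_gap {y m : ℕ} (h : 4 * y ≤ 3 * m) : 107 / 100 * rt y ≤ rt m := by
  apply le_rt
  have h1 : (4 : ℝ) * y ≤ 3 * m := by exact_mod_cast h
  have h2 : (0 : ℝ) ≤ y := Nat.cast_nonneg _
  rw [mul_pow, rt_pow]
  nlinarith

theorem numbers (c : ℝ) (hc : 0 < c) : ∃ K : ℕ, ∀ m : ℕ, K < m → ∃ r : ℕ,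
    (m : ℝ) < (1 + c / rt m) ^ r ∧
    7 * ((14 * r + 15 : ℕ) : ℝ) / (c / rt m) + ((14 * r + 15 : ℕ) : ℝ) ≤ m / 8 := by
  refine ⟨⌈(1 + 1 / c ^ 5 + 1240 * (7 / c + 1)) ^ 4⌉₊, fun m hm => ?_⟩
  have h0 : 1 + 1 / c ^ 5 + 1240 * (7 / c + 1) ≤ rt m := by
    apply le_rt
    exact (Nat.le_ceil _).trans (by exact_mod_cast hm.le)
  have p1 : 0 < 1 / c ^ 5 := by positivity
  have p2 : 0 < 7 / c + 1 := by positivity
  set s := rt m with hs
  have s1 : 1 ≤ s := by linarith
  have s2 : 1 / c ^ 5 < s := by linarith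
  have s3 : 1240 * (7 / c + 1) ≤ s := by linarith
  have s0 : 0 < s := by linarith
  have hm4 : (m : ℝ) = s ^ 4 := (rt_pow m).symm
  set n := ⌈s ^ 2⌉₊ with hn
  have n1 : s ^ 2 ≤ n := Nat.le_ceil _
  have n2 : (n : ℝ) < s ^ 2 + 1 := Nat.ceil_lt_add_one (by positivity)
  refine ⟨n * 5, ?_, ?_⟩
  · have hcs : 0 < c / s := by positivity
    have b1 : 1 + (n : ℝ) * (c / s) ≤ (1 + c / s) ^ n := one_add_mul_le_pow (by linarith) n
    have b2 : c * s ≤ (1 + c / s) ^ n := by
      have : c * s = s ^ 2 * (c / s) := by field_simp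
      nlinarith
    have b3 : (c * s) ^ 5 ≤ ((1 + c / s) ^ n) ^ 5 := by gcongr
    rw [pow_mul, hm4]
    refine lt_of_lt_of_le ?_ b3
    have b4 : 1 < c ^ 5 * s := by
      rw [div_lt_iff₀ (by positivity)] at s2
      linarith
    have b5 : (c * s) ^ 5 = (c ^ 5 * s) * s ^ 4 := by ring
    rw [b5]
    have : 0 < s ^ 4 := by positivity
    nlinarith
  · have a1 : ((14 * (n * 5) + 15 : ℕ) : ℝ) ≤ 155 * s ^ 2 := by
      push_cast
      nlinarith
    set a : ℝ := ((14 * (n * 5) + 15 : ℕ) : ℝ) with ha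
    have a0 : 0 ≤ a := Nat.cast_nonneg _
    have a2 : 7 * a / (c / s) = a * (7 / c * s) := by field_simp
    rw [a2, hm4]
    have p3 : 0 < 7 / c := by positivity
    calc a * (7 / c * s) + a ≤ a * (7 / c * s) + a * s := by nlinarith
      _ = a * ((7 / c + 1) * s) := by ring
      _ ≤ (155 * s ^ 2) * ((s / 1240) * s) := by
        gcongr
        linarith
      _ = s ^ 4 / 8 := by ring

end Loc

open Loc in
theorem local_lemma (ε Γ : ℝ) (hε : 0 < ε) (hΓ : 0 < Γ) :
    ∃ K : ℕ, ∀ (U : Finset ℕ) (Adj : ℕ → ℕ → Prop) (cost : Finset ℕ → ℝ),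
      (∀ a b, Adj a b → Adj b a) → NoK7 Adj U → U.Nonempty → (∀ X, 0 ≤ cost X) →
      (∀ Y Y' Z : Finset ℕ, Y ∪ Y' ∪ Z ⊆ U → Disjoint Y Y' → Disjoint Y Z → Disjoint Y' Z →
        (∀ a ∈ Y, ∀ b ∈ Y', ¬ Adj a b) →
        cost Y + cost Y' ≤ cost (Y ∪ Y' ∪ Z) + Γ * Z.card) →
      cost U ≤ ε * U.card →
      ∃ X ⊆ U, X.Nonempty ∧ X.card ≤ K ∧ cost X ≤ 2 * ε * X.card := by
  classical
  set c : ℝ := 3 / 100 * ε / (2 * ε + Γ) with hc
  have c0 : 0 < c := by positivity
  obtain ⟨K, hK⟩ := numbers c c0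
  refine ⟨K, fun U Adj cost hs hno hU hcost hsub hcU => ?_⟩
  let S : Finset (Finset ℕ) := U.powerset.filter
    (fun X => X.Nonempty ∧ cost X ≤ ε * X.card * (1 + 1 / rt X.card))
  have hUS : U ∈ S := by
    refine mem_filter.2 ⟨mem_powerset.2 Subset.rfl, hU, hcU.trans ?_⟩
    have h1 : 0 ≤ 1 / rt U.card := by have := rt_nonneg U.card; positivity
    have h2 : 0 ≤ ε * U.card := by positivity
    nlinarith
  obtain ⟨X, hX, hmin⟩ := exists_min_image S card ⟨U, hUS⟩
  obtain ⟨hXU, hXne, hXc⟩ := mem_filter.1 hX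
  rw [mem_powerset] at hXU
  have m1 : 1 ≤ X.card := card_pos.2 hXne
  have s1 : 1 ≤ rt X.card := one_le_rt m1
  have s0 : 0 < rt X.card := by linarith
  have e1 : 1 / rt X.card ≤ 1 := by rw [div_le_one s0]; exact s1
  have e0 : 0 < 1 / rt X.card := by positivity
  refine ⟨X, hXU, hXne, ?_, ?_⟩
  swap
  · have h2 : 0 ≤ ε * X.card := by positivity
    nlinarith
  by_contra hlt
  push Not at hlt
  obtain ⟨r, hr1, hr2⟩ := hK X.card hlt
  have low : ∀ Y ⊆ X, Y.card < X.card → ε * Y.card * (1 + 1 / rt Y.card) ≤ cost Y := by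
    intro Y hY hYc
    rcases Y.eq_empty_or_nonempty with rfl | hne
    · simpa using hcost ∅
    by_contra hcon
    push Not at hcon
    have : Y ∈ S := mem_filter.2 ⟨mem_powerset.2 (hY.trans hXU), hne, hcon.le⟩
    have := hmin Y this
    omega
  refine expander hs X r (c / rt X.card) (by positivity) hr1 hr2 ?_ ?_
  swap
  · rintro ⟨B, b1, b2, b3, b4⟩
    exact hno ⟨B, fun i => (b1 i).trans hXU, b2, b3, b4⟩
  intro Y hY hne hsm
  set Z := nb Adj X Y with hZ
  set Y' := (X \ Y) \ Z with hY'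
  have y1 : 1 ≤ Y.card := card_pos.2 hne
  have d1 : Disjoint Y Y' := by
    rw [disjoint_right]; intro z hz; exact (mem_sdiff.1 (mem_sdiff.1 hz).1).2
  have d2 : Disjoint Y Z := by
    rw [disjoint_right]; intro z hz; exact (mem_nb.1 hz).2.1
  have d3 : Disjoint Y' Z := by
    rw [disjoint_left]; intro z hz; exact (mem_sdiff.1 hz).2
  have hun : Y ∪ Y' ∪ Z = X := by
    ext z
    constructor
    · intro hz
      rcases mem_union.1 hz with hz | hz
      · rcases mem_union.1 hz with hz | hz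
        · exact hY hz
        · exact (mem_sdiff.1 (mem_sdiff.1 hz).1).1
      · exact (mem_nb.1 hz).1
    · intro hz
      by_cases h1 : z ∈ Z
      · exact mem_union_right _ h1
      by_cases h2 : z ∈ Y
      · exact mem_union_left _ (mem_union_left _ h2)
      · exact mem_union_left _ (mem_union_right _ (mem_sdiff.2 ⟨mem_sdiff.2 ⟨hz, h2⟩, h1⟩))
  have hcard : X.card = Y.card + Y'.card + Z.card := by
    rw [← hun, card_union_of_disjoint (disjoint_union_left.2 ⟨d2, d3⟩),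
      card_union_of_disjoint d1]
  have key := hsub Y Y' Z (by rw [hun]; exact hXU) d1 d2 d3 (by
    intro y hy z hz hyz
    exact (mem_sdiff.1 hz).2 (mem_nb.2 ⟨(mem_sdiff.1 (mem_sdiff.1 hz).1).1,
      (mem_sdiff.1 (mem_sdiff.1 hz).1).2, y, hy, hyz⟩))
  rw [hun] at key
  have l1 := low Y hY (by omega)
  have l2 := low Y' (sdiff_subset.trans sdiff_subset) (by omega)
  have l3 : ε * Y'.card * (1 + 1 / rt X.card) ≤ cost Y' := by
    refine le_trans ?_ l2
    rcases Nat.eq_zero_or_pos Y'.card with h0 | h0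
    · simp [h0]
    · have h1 : 0 < rt Y'.card := lt_of_lt_of_le one_pos (one_le_rt h0)
      have h2 : rt Y'.card ≤ rt X.card := rt_mono (by omega)
      gcongr
  have l4 : ε * Y.card * (1 + 107 / 100 * (1 / rt X.card)) ≤ cost Y := by
    refine le_trans ?_ l1
    have h1 : 0 < rt Y.card := lt_of_lt_of_le one_pos (one_le_rt y1)
    have h2 := rt_gap hsm
    have h3 : 107 / 100 * (1 / rt X.card) ≤ 1 / rt Y.card := by
      rw [mul_one_div, div_le_div_iff₀ s0 h1]
      linarith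
    gcongr
  have hcR : (X.card : ℝ) = Y.card + Y'.card + Z.card := by exact_mod_cast hcard
  set η := 1 / rt X.card with hη
  have hz0 : (0 : ℝ) ≤ Z.card := Nat.cast_nonneg _
  have hy0 : (0 : ℝ) ≤ Y.card := Nat.cast_nonneg _
  have k1 : 7 / 100 * ε * η * Y.card ≤ (2 * ε + Γ) * Z.card := by
    rw [hcR] at hXc
    have : ε * Z.card * η ≤ ε * Z.card * 1 := by gcongr
    nlinarith
  have k2 : 2 * (c / rt X.card) * Y.card = (6 / 100 * ε * η * Y.card) / (2 * ε + Γ) := by
    rw [hc, hη]; field_simp; ring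
  rw [k2, div_le_iff₀ (by positivity)]
  have : 0 ≤ ε * η * Y.card := by positivity
  nlinarith

end Vale.Agent.P201
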