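import Vale.Agent.P201.Pieces

set_option linter.unusedSectionVars false

namespace Vale.Agent.P201

open Finset Equiv

theorem bd_split (f : Perm ℕ) {W1 W2 T Ex : Finset ℕ} (hd : Disjoint W1 W2) (h1 : W1 ⊆ T)
    (h2 : W2 ⊆ T) (k1 : ∀ y ∈ W1, f y ∈ T → f y ∈ W1 ∨ f y ∈ Ex)
    (k2 : ∀ y ∈ W2, f y ∈ T → f y ∈ W2 ∨ f y ∈ Ex) :
    (W1.filter fun y => f y ∉ W1).card + (W2.filter fun y => f y ∉ W2).card ≤
      (T.filter fun y => f y ∉ T).card + Ex.card := by
  rw [← card_union_of_disjoint (disjoint_filter_filter hd)]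
  refine le_trans (card_le_card (t := (T.filter fun y => f y ∉ T) ∪ Ex.image f.symm) ?_)
    ((card_union_le _ _).trans (Nat.add_le_add_left card_image_le _))
  intro y hy
  simp only [mem_union, mem_filter, mem_image] at hy ⊢
  by_cases h : f y ∈ T
  · refine Or.inr ⟨f y, ?_, by simp⟩
    rcases hy with hy | hy
    · exact (k1 y hy.1 h).resolve_left hy.2
    · exact (k2 y hy.1 h).resolve_left hy.2
  · exact Or.inl ⟨hy.elim (fun a => h1 a.1) (fun a => h2 a.1), h⟩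

theorem Cf.W_card {Gen V Dt : Type} [DecidableEq V] [DecidableEq Dt] (c : Cf Gen V Dt) :
    c.W.card ≤ c.X.card * c.P := by
  rw [← card_range c.P, ← card_product]
  refine card_le_card_of_injOn (fun y => (c.pc y, c.pos y)) ?_ ?_
  · intro y hy
    have := c.mem_W.1 hy
    simp [this.2, c.lt y this.1]
  · intro y hy z hz h
    exact c.ext_pos (c.mem_W.1 hy).1 (c.mem_W.1 hz).1 (congrArg Prod.fst h) (congrArg Prod.snd h)

theorem Cf.noK7 {Gen V Dt : Type} [DecidableEq V] [DecidableEq Dt] (c : Cf Gen V Dt)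
    (hα : ∀ d, c.α d ≠ d) (hP : Planar c.φ c.α) (U : Finset ℕ) :
    NoK7 (fun a b => ∃ y ∈ c.B, ∃ z ∈ c.B, c.pc y = a ∧ c.pc z = b ∧ HAdj c.φ c.α y z) U := by
  rintro ⟨S, -, h2, h3, h4⟩
  have hs : ∀ y z, HAdj c.φ c.α y z → HAdj c.φ c.α z y := by
    rintro y z (h | h | h)
    · exact Or.inl (by rw [h, c.αα])
    · exact Or.inr (Or.inr h)
    · exact Or.inr (Or.inl h)
  refine planar_noK7 c.φ c.α c.αα hα hP (fun i => c.B.filter fun y => c.pc y ∈ S i) ?_ ?_ ?_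
  · intro i
    let r : ℕ → ℕ → Prop := fun a b => a ∈ (c.B.filter fun y => c.pc y ∈ S i) ∧
      b ∈ (c.B.filter fun y => c.pc y ∈ S i) ∧ HAdj c.φ c.α a b
    have rs : ∀ {a b}, Relation.ReflTransGen r a b → Relation.ReflTransGen r b a := fun h => by
      induction h with
      | refl => exact .refl
      | tail _ h ih => exact Relation.ReflTransGen.head ⟨h.2.1, h.1, hs _ _ h.2.2⟩ ih
    have k1 : ∀ j, ∀ y ∈ c.B, c.pos y = j → c.pc y ∈ S i → Relation.ReflTransGen r y (c.pc y) := by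
      intro j
      induction j with
      | zero => intro y hy h _; rw [c.start y hy h]
      | succ j ih =>
        intro y hy h hS
        obtain ⟨a, b, e, -⟩ := c.back hy (by omega)
        refine Relation.ReflTransGen.head (b := c.φ⁻¹ y) ⟨mem_filter.2 ⟨hy, hS⟩,
          mem_filter.2 ⟨a, b ▸ hS⟩, Or.inr (Or.inr (by simp))⟩ ?_
        rw [← b]; exact ih _ a (by omega) (b ▸ hS)
    have k2 : ∀ a b, Relation.ReflTransGen (fun a b => a ∈ S i ∧ b ∈ S i ∧
        ∃ y ∈ c.B, ∃ z ∈ c.B, c.pc y = a ∧ c.pc z = b ∧ HAdj c.φ c.α y z) a b →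
        Relation.ReflTransGen r a b := by
      intro a b h
      induction h with
      | refl => exact .refl
      | tail _ h ih =>
        obtain ⟨a1, a2, y, hy, z, hz, rfl, rfl, h⟩ := h
        exact (ih.trans (rs (k1 _ y hy rfl a1))).trans (Relation.ReflTransGen.head
          ⟨mem_filter.2 ⟨hy, a1⟩, mem_filter.2 ⟨hz, a2⟩, h⟩ (k1 _ z hz rfl a2))
    intro u hu v hv
    obtain ⟨u1, u2⟩ := mem_filter.1 hu
    obtain ⟨v1, v2⟩ := mem_filter.1 hv
    exact ((k1 _ u u1 rfl u2).trans (k2 _ _ (h2 i _ u2 _ v2))).trans (rs (k1 _ v v1 rfl v2))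
  · intro i j hij
    rw [disjoint_left]
    intro y a b
    exact disjoint_left.1 (h3 i j hij) (mem_filter.1 a).2 (mem_filter.1 b).2
  · intro i j hij
    obtain ⟨a, ha, b, hb, y, hy, z, hz, rfl, rfl, h⟩ := h4 i j hij
    exact ⟨y, mem_filter.2 ⟨hy, ha⟩, z, mem_filter.2 ⟨hz, hb⟩, h⟩

theorem num_contra {κ H E L Q l ε Λ x K w b k : ℝ} (hκ : 0 < κ) (hH : 0 ≤ H) (hE : 0 ≤ E)
    (hL : 1 ≤ L) (hQ : 0 ≤ Q) (hl : 0 ≤ l) (x2 : 1 ≤ x) (x3 : x ≤ K) (w1 : x * L ≤ w)
    (f1 : b ≤ 2 * ε * x * L) (f2 : k ≤ 2 * ε / Λ * x) (h1 : (κ + H) * (2 * ε) ≤ κ / 8)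
    (h2 : 2 * ε / Λ * l ≤ κ / 8 * L) (h3 : K * Q * (E + (κ + H)) < κ / 4 * L)
    (li : κ / 2 * w ≤ (κ + H) * b + k * l + x * Q * (E + (κ + H))) : False := by
  have g1 := mul_le_mul_of_nonneg_left f1 (show 0 ≤ κ + H by linarith)
  have g2 := mul_le_mul_of_nonneg_right f2 hl
  have g3 := mul_le_mul_of_nonneg_right h1 (show (0 : ℝ) ≤ x * L by positivity)
  have g4 := mul_le_mul_of_nonneg_right h2 (show (0 : ℝ) ≤ x by positivity)
  have g5 := mul_le_mul_of_nonneg_left w1 hκ.le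
  have g6 := mul_le_mul_of_nonneg_right x3 (show (0 : ℝ) ≤ Q * (E + (κ + H)) by positivity)
  have g7 := mul_le_mul_of_nonneg_right x2 (show (0 : ℝ) ≤ κ * L by positivity)
  linarith

variable {Gen V Dt : Type} [Fintype Dt] [DecidableEq Dt] [Fintype V] [DecidableEq V] [Fintype Gen]
  [DecidableEq Gen] {src : Dt → V} {lab : Dt → Gen × Bool} {ρ : Dt → Dt} {root : V}

/-- darts in the pieces of `X` -/
def DD (R : RM src lab ρ root) (pc : ℕ → ℕ) (X : Finset ℕ) : Finset ℕ :=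
  R.B.filter fun y => pc y ∈ X

/-- the cost function -/
noncomputable def costF (R : RM src lab ρ root) (pc : ℕ → ℕ) (L : ℕ) (Λ ε : ℝ) (X : Finset ℕ) : ℝ :=
  ((DD R pc X).filter fun y => R.α y ∉ DD R pc X).card / L +
    Λ * ((DD R pc X).filter fun y => R.φ y ∉ DD R pc X).card +
    ε / 64 * ((DD R pc X).filter fun y => R.φ (R.α (R.φ (R.α y))) ≠ y).card

theorem cost_sub (R : RM src lab ρ root) {pc pos : ℕ → ℕ} {L : ℕ} {Λ ε : ℝ} (hL : 1 ≤ L)
    (hΛ : 0 < Λ) (hε : 0 < ε)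
    (p2 : ∀ y ∈ R.B, pos (R.φ y) ≠ 0 → pc (R.φ y) = pc y ∧ pos (R.φ y) = pos y + 1)
    (p3 : ∀ y ∈ R.B, pos y = 0 → pc y = y)
    (Dc : ∀ X, (DD R pc X).card ≤ X.card * (2 * L + 1)) (Y Y' Z : Finset ℕ) (d1 : Disjoint Y Y')
    (d2 : Disjoint Y Z) (d3 : Disjoint Y' Z)
    (hadj : ∀ a ∈ Y, ∀ b ∈ Y', ¬ ∃ y ∈ R.B, ∃ z ∈ R.B, pc y = a ∧ pc z = b ∧ HAdj R.φ R.α y z) :
    costF R pc L Λ ε Y + costF R pc L Λ ε Y' ≤
      costF R pc L Λ ε (Y ∪ Y' ∪ Z) + (3 + Λ) * Z.card := by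
  have hL' : (1 : ℝ) ≤ L := by exact_mod_cast hL
  let D := DD R pc
  have dd : Disjoint (D Y) (D Y') := disjoint_left.2 fun y a b =>
    disjoint_left.1 d1 (mem_filter.1 a).2 (mem_filter.1 b).2
  have s1 : D Y ⊆ D (Y ∪ Y' ∪ Z) := fun y a =>
    mem_filter.2 ⟨(mem_filter.1 a).1, by simp [(mem_filter.1 a).2]⟩
  have s2 : D Y' ⊆ D (Y ∪ Y' ∪ Z) := fun y a =>
    mem_filter.2 ⟨(mem_filter.1 a).1, by simp [(mem_filter.1 a).2]⟩
  have m1 : ∀ y ∈ D Y, ∀ z ∈ D (Y ∪ Y' ∪ Z), HAdj R.φ R.α y z → z ∈ D Y ∨ z ∈ D Z := by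
    intro y hy z hz h
    simp only [D, DD, mem_filter, mem_union] at hy hz ⊢
    rcases hz.2 with (a | a) | a
    · exact Or.inl ⟨hz.1, a⟩
    · exact absurd ⟨y, hy.1, z, hz.1, rfl, rfl, h⟩ (hadj _ hy.2 _ a)
    · exact Or.inr ⟨hz.1, a⟩
  have m2 : ∀ y ∈ D Y', ∀ z ∈ D (Y ∪ Y' ∪ Z), HAdj R.φ R.α z y → z ∈ D Y' ∨ z ∈ D Z := by
    intro y hy z hz h
    simp only [D, DD, mem_filter, mem_union] at hy hz ⊢
    rcases hz.2 with (a | a) | a
    · exact absurd ⟨z, hz.1, y, hy.1, rfl, rfl, h⟩ (hadj _ a _ hy.2)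
    · exact Or.inl ⟨hz.1, a⟩
    · exact Or.inr ⟨hz.1, a⟩
  have m3 : ∀ S : Finset ℕ, Disjoint S Z → ∀ y ∈ D S, R.φ y ∈ D Z → R.φ y ∈ Z := by
    intro S hS y hy h
    simp only [D, DD, mem_filter] at hy h
    by_cases e : pos (R.φ y) = 0
    · rw [← p3 _ h.1 e]; exact h.2
    · exact absurd ((p2 y hy.1 e).1 ▸ h.2) (disjoint_left.1 hS hy.2)
  have b1 := bd_split R.α dd s1 s2 (Ex := D Z) (fun y hy h => m1 y hy _ h (Or.inl rfl))
    (fun y hy h => m2 y hy _ h (Or.inl (R.αα y).symm))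
  have b2 := bd_split R.φ dd s1 s2 (Ex := Z)
    (fun y hy h => (m1 y hy _ h (Or.inr (Or.inl rfl))).imp_right (m3 Y d2 y hy))
    (fun y hy h => (m2 y hy _ h (Or.inr (Or.inr rfl))).imp_right (m3 Y' d3 y hy))
  have b3 : ((D Y).filter fun y => R.φ (R.α (R.φ (R.α y))) ≠ y).card +
      ((D Y').filter fun y => R.φ (R.α (R.φ (R.α y))) ≠ y).card ≤
      ((D (Y ∪ Y' ∪ Z)).filter fun y => R.φ (R.α (R.φ (R.α y))) ≠ y).card := by
    rw [← card_union_of_disjoint (disjoint_filter_filter dd), ← filter_union]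
    exact card_le_card (filter_subset_filter _ (union_subset s1 s2))
  have b4 : (D Z).card ≤ 3 * Z.card * L := (Dc Z).trans (by nlinarith)
  have b1' := (Nat.cast_le (α := ℝ)).2 (b1.trans (Nat.add_le_add_left b4 _))
  have b2' := (Nat.cast_le (α := ℝ)).2 b2
  have b3' := (Nat.cast_le (α := ℝ)).2 b3
  push_cast at b1' b2' b3'
  have b5 := div_le_div_of_nonneg_right b1' (c := (L : ℝ)) (by positivity)
  rw [add_div, add_div, mul_div_assoc, div_self (by positivity)] at b5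
  simp only [D] at *
  simp only [costF]
  nlinarith

theorem cost_U (R : RM src lab ρ root) {pc pos : ℕ → ℕ} {L r : ℕ} {Λ ε : ℝ} (hL : 1 ≤ L)
    (hε : 0 < ε) (hε1 : ε ≤ 1) (hrε : 36 ≤ ε * r) {U : Finset ℕ} (hU : U.Nonempty)
    (co : ∀ y ∈ R.B, (R.φ ^ pos y) (pc y) = y)
    (Dc : ∀ X, (DD R pc X).card ≤ X.card * (2 * L + 1))
    (p6 : ∀ y ∈ R.B, pc y ∈ U ∨ pc y = R.d0) (p7 : ∀ y ∈ R.B, pc y ∈ U → pc (R.φ y) ∈ U)
    (p8 : (∀ y ∈ R.B, pc y ∈ U) ∨ U = ∅ ∨ r * L ≤ (R.B.filter fun y => pc y ∈ U).card)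
    (hcon : 4 * ((R.A \ R.B).card : ℝ) ≤ ε * U.card) : costF R pc L Λ ε U ≤ ε * U.card := by
  have hL' : (1 : ℝ) ≤ L := by exact_mod_cast hL
  let D := DD R pc
  have u1 : (1 : ℝ) ≤ U.card := by exact_mod_cast card_pos.2 hU
  have e1 : ((D U).filter fun y => R.φ y ∉ D U) = ∅ := filter_eq_empty_iff.2 fun y hy h =>
    h (mem_filter.2 ⟨(R.Bφ y).2 (mem_filter.1 hy).1,
      p7 y (mem_filter.1 hy).1 (mem_filter.1 hy).2⟩)
  have e2 : ((D U).filter fun y => R.φ (R.α (R.φ (R.α y))) ≠ y).card ≤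
      6 * (U.card + 1 + (R.A \ R.B).card) + 4 := by
    refine le_trans (card_le_card fun y hy => ?_) ((planar_count R.φ R.α R.αα R.α_ne R.pl R.A
      R.Aα R.Aφ (insert R.d0 U ∪ (R.A \ R.B)) (fun d hd => ?_) R.d0 R.deg1).trans ?_)
    · exact mem_filter.2 ⟨R.BA (mem_filter.1 (mem_filter.1 hy).1).1, Or.inr (mem_filter.1 hy).2⟩
    · by_cases h : d ∈ R.B
      · refine ⟨pc d, mem_union_left _ ?_, pos d, co d h⟩
        rcases p6 d h with a | a <;> simp [a]
      · exact ⟨d, mem_union_right _ (mem_sdiff.2 ⟨hd, h⟩), 0, rfl⟩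
    · have := card_union_le (insert R.d0 U) (R.A \ R.B)
      have := card_insert_le R.d0 U
      omega
  have e3 : ((D U).filter fun y => R.α y ∉ D U).card ≤ (R.A \ R.B).card + (R.B \ D U).card := by
    refine le_trans (card_le_card_of_injOn R.α (t := (R.A \ R.B) ∪ (R.B \ D U)) ?_
      R.α.injective.injOn) (card_union_le _ _)
    intro y hy
    have hy := mem_filter.1 hy
    have := R.Aα y (R.BA (mem_filter.1 hy.1).1)
    simp only [coe_union, coe_sdiff, Set.mem_union, Set.mem_sdiff, mem_coe]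
    tauto
  have e4 : ((R.B \ D U).card : ℝ) ≤ ε / 4 * U.card * L := by
    rcases p8 with h | h | h
    · rw [show R.B \ D U = ∅ from
        sdiff_eq_empty_iff_subset.2 fun y hy => mem_filter.2 ⟨hy, h y hy⟩]
      simp only [card_empty, Nat.cast_zero]; positivity
    · simp [h] at hU
    · have a : (R.B \ D U).card ≤ 3 * L := by
        refine le_trans (card_le_card (t := D {R.d0}) fun y hy => ?_) ((Dc _).trans ?_)
        · have := mem_sdiff.1 hy
          exact mem_filter.2 ⟨this.1, mem_singleton.2 ((p6 y this.1).resolve_left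
            fun h => this.2 (mem_filter.2 ⟨this.1, h⟩))⟩
        · simp; omega
      have b : r ≤ 3 * U.card := by
        have := h.trans (Dc U)
        by_contra hc
        nlinarith
      have a' : ((R.B \ D U).card : ℝ) ≤ 3 * L := by exact_mod_cast a
      have b' : (r : ℝ) ≤ 3 * U.card := by exact_mod_cast b
      have : 12 ≤ ε * U.card := by nlinarith
      nlinarith
  have e2' := (Nat.cast_le (α := ℝ)).2 e2
  have e3' := (Nat.cast_le (α := ℝ)).2 e3
  push_cast at e2' e3'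
  have l0 : (0 : ℝ) ≤ (R.A \ R.B).card := Nat.cast_nonneg _
  have e5 : (((D U).filter fun y => R.α y ∉ D U).card : ℝ) / L ≤
      (R.A \ R.B).card + ε / 4 * U.card := by
    rw [div_le_iff₀ (by positivity)]; nlinarith
  simp only [D] at *
  simp only [costF, e1, card_empty, Nat.cast_zero, mul_zero, add_zero]
  nlinarith

theorem rm_main (A : Alph Gen) {H : ℝ} (hH : ∀ t s, - Real.log (A.p t s) ≤ H)
    (hρ : ∀ t, ρ (ρ t) = t) (hl : ∀ t, lab (ρ t) = iv (lab t))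
    (hf : ∀ t t', src t = src t' → lab t = lab t' → t = t') {L r n M K Q : ℕ} {ε Λ E : ℝ}
    (hε : 0 < ε) (hε1 : ε ≤ 1) (hΛ : 0 < Λ) (hg : Girth src ρ (r * L)) (hL : 1 ≤ L) (hr : 8 ≤ r)
    (hrε : 36 ≤ ε * r)
    (hK : ∀ (U : Finset ℕ) (Adj : ℕ → ℕ → Prop) (cost : Finset ℕ → ℝ),
      (∀ a b, Adj a b → Adj b a) → NoK7 Adj U → U.Nonempty → (∀ X, 0 ≤ cost X) →
      (∀ Y Y' Z : Finset ℕ, Y ∪ Y' ∪ Z ⊆ U → Disjoint Y Y' → Disjoint Y Z → Disjoint Y' Z →
        (∀ a ∈ Y, ∀ b ∈ Y', ¬ Adj a b) →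
        cost Y + cost Y' ≤ cost (Y ∪ Y' ∪ Z) + (3 + Λ) * Z.card) →
      cost U ≤ ε * U.card →
      ∃ X ⊆ U, X.Nonempty ∧ X.card ≤ K ∧ cost X ≤ 2 * ε * X.card)
    (hM : K * (2 * L + 1) ≤ M) (hn : 1 ≤ n) (hE : 0 ≤ E) (hG : Good A src lab ρ root n M E)
    (hQ : (K + 1) * (4 * (K * (2 * K ^ 2 + 132 * K + 1)) + 2) + (2 * K ^ 2 + 132 * K + 1) + 2 ≤ Q)
    (hκ : 0 < - Real.log A.r) (hH0 : 0 ≤ H)
    (h1 : (- Real.log A.r + H) * (2 * ε) ≤ - Real.log A.r / 8)
    (h2 : 2 * ε / Λ * Real.log n ≤ - Real.log A.r / 8 * L)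
    (h3 : K * Q * (E + (- Real.log A.r + H)) < - Real.log A.r / 4 * L) (R : RM src lab ρ root) :
    (R.B.card : ℝ) ≤ (2 * L + 1) * (4 * (R.A \ R.B).card / ε + 1) ∧ (R.A ⊆ R.B → R.A = ∅) := by
  obtain ⟨pc, pos, U, p1, p2, p3, p4, p5, p6, p7, p8⟩ := R.exists_pieces (L := L) hg (by nlinarith)
  let mk : Finset ℕ → Cf Gen V Dt := fun X =>
    { src := src, lab := lab, ρ := ρ, root := root, g := r * L, φ := R.φ, α := R.α, B := R.B,
      x := R.x, d0 := R.d0, pc := pc, pos := pos, P := 2 * L + 1, X := X, ρρ := hρ, labρ := hl,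
      fold := hf, girth := hg, Pg := by nlinarith, αα := R.αα, Bφ := R.Bφ, glue := R.glue,
      cont := R.cont, root0 := R.root0, pos0 := p1, step := p2, start := p3, lt := p4 }
  let D := DD R pc
  have DW : ∀ X, (mk X).W = D X := fun X => rfl
  have Dc : ∀ X, (D X).card ≤ X.card * (2 * L + 1) := fun X => (mk X).W_card
  have hL' : (1 : ℝ) ≤ L := by exact_mod_cast hL
  have key : U.Nonempty → ε * U.card < 4 * (R.A \ R.B).card := by
    intro hU
    by_contra hcon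
    rw [not_lt] at hcon
    let cost := costF R pc L Λ ε
    refine (hK U
      (fun a b => ∃ y ∈ R.B, ∃ z ∈ R.B, pc y = a ∧ pc z = b ∧ HAdj R.φ R.α y z) cost ?_
      ((mk U).noK7 R.α_ne R.pl U) hU (fun X => by unfold cost costF; positivity) ?_ ?_).elim
      fun X ⟨x1, x2, x3, x4⟩ => ?_
    rotate_right
    · have x2' : (1 : ℝ) ≤ X.card := by exact_mod_cast card_pos.2 x2
      have x3' : (X.card : ℝ) ≤ K := by exact_mod_cast x3
      have c0 : (0 : ℝ) ≤ ((D X).filter fun y => R.α y ∉ D X).card / L := by positivity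
      have c1 : (0 : ℝ) ≤ Λ * ((D X).filter fun y => R.φ y ∉ D X).card := by positivity
      have c2 : (0 : ℝ) ≤ ε / 64 *
        ((D X).filter fun y => R.φ (R.α (R.φ (R.α y))) ≠ y).card := by positivity
      simp only [cost, costF] at x4
      have a1 : (mk X).NS.card ≤ 128 * K := by
        have : (((D X).filter fun y => R.φ (R.α (R.φ (R.α y))) ≠ y).card : ℝ) ≤ 128 * K := by
          by_contra h
          rw [not_le] at h
          nlinarith
        exact_mod_cast this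
      have a2 : (mk X).NP.card ≤ 2 * K ^ 2 + 132 * K + 1 := by
        have := (mk X).NP_card
        have e : (mk X).X.card ≤ K := x3
        nlinarith
      have li := (mk X).local_ineq A hH hn (le_trans (Nat.mul_le_mul_right _ x3) hM) hE hG
        (Q := Q) (le_trans (by
          have e : (mk X).X.card ≤ K := x3
          gcongr) hQ)
      rw [DW] at li
      change _ ≤ _ * (((D X).filter fun y => R.α y ∉ D X).card : ℝ) +
        (((D X).filter fun y => R.φ y ∉ D X).card : ℝ) * _ + (X.card : ℝ) * _ * _ at li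
      have w1 : X.card * L ≤ (D X).card := by
        rw [card_eq_sum_card_fiberwise (s := D X) (f := pc) (t := X) fun y hy => (mem_filter.1 hy).2,
          ← smul_eq_mul, ← sum_const]
        refine sum_le_sum fun c hc => (p5 c (x1 hc)).trans (card_le_card fun y hy => ?_)
        have := mem_filter.1 hy
        exact mem_filter.2 ⟨mem_filter.2 ⟨this.1, this.2 ▸ hc⟩, this.2⟩
      have w1' : (X.card : ℝ) * L ≤ (D X).card := by exact_mod_cast w1
      have f1 : (((D X).filter fun y => R.α y ∉ D X).card : ℝ) ≤ 2 * ε * X.card * L := by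
        rw [← div_le_iff₀ (by positivity)]; linarith
      have f2 : (((D X).filter fun y => R.φ y ∉ D X).card : ℝ) ≤ 2 * ε / Λ * X.card := by
        rw [div_mul_eq_mul_div, le_div_iff₀ hΛ]; linarith
      have hl0 : 0 ≤ Real.log n := Real.log_nonneg (by exact_mod_cast hn)
      exact num_contra hκ hH0 hE hL' (Nat.cast_nonneg Q) hl0 x2' x3' w1' f1 f2 h1 h2 h3 li
    · rintro a b ⟨y, hy, z, hz, e1, e2, h⟩
      refine ⟨z, hz, y, hy, e2, e1, ?_⟩
      rcases h with h | h | h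
      · exact Or.inl (by rw [h, R.αα])
      · exact Or.inr (Or.inr h)
      · exact Or.inr (Or.inl h)
    · intro Y Y' Z _ d1 d2 d3 hadj
      exact cost_sub R hL hΛ hε p2 p3 Dc Y Y' Z d1 d2 d3 hadj
    · exact cost_U R hL hε hε1 hrε hU (fun y hy => (mk U).coord_eq hy) Dc p6 p7 p8 hcon
  have l0 : (0 : ℝ) ≤ (R.A \ R.B).card := Nat.cast_nonneg _
  constructor
  · have a : R.B.card ≤ (U.card + 1) * (2 * L + 1) := by
      refine le_trans (card_le_card (t := D (insert R.d0 U)) fun y hy => ?_) ((Dc _).trans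
        (Nat.mul_le_mul_right _ (card_insert_le _ _)))
      exact mem_filter.2 ⟨hy, by rcases p6 y hy with a | a <;> simp [a]⟩
    have a' := (Nat.cast_le (α := ℝ)).2 a
    push_cast at a'
    have b : (U.card : ℝ) ≤ 4 * (R.A \ R.B).card / ε := by
      rcases U.eq_empty_or_nonempty with h | h
      · simp only [h, card_empty, Nat.cast_zero]; positivity
      · rw [le_div_iff₀ hε]; linarith [key h]
    nlinarith
  · intro hA
    rcases U.eq_empty_or_nonempty with h | h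
    · refine R.single hl hf hA fun y hy => ⟨pos y, ?_⟩
      rw [← (p6 y hy).resolve_left (by simp [h])]
      exact (mk U).coord_eq hy
    · have := key h
      rw [sdiff_eq_empty_iff_subset.2 hA] at this
      simp only [card_empty, Nat.cast_zero, mul_zero] at this
      exact absurd this (not_lt.2 (by positivity))

end Vale.Agent.P201
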