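import Vale.Agent.P201.Basic

namespace Vale.Agent.P201

open Finset Equiv

/-- remove `d` from its cycle -/
def skip (φ : Perm ℕ) (d : ℕ) : Perm ℕ := swap d (φ d) * φ

@[simp] theorem skip_self (φ : Perm ℕ) (d : ℕ) : skip φ d d = d := by simp [skip]

theorem skip_ne {φ : Perm ℕ} {d y : ℕ} (h : y ≠ d) : skip φ d y ≠ d := fun e =>
  h ((skip φ d).injective (e.trans (skip_self φ d).symm))

theorem skip_F {β : Type} (F : ℕ → β) {φ : Perm ℕ} {d y : ℕ} (hF : F (φ d) = F d) (h : y ≠ d) :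
    F (skip φ d y) = F (φ y) := by
  simp only [skip, Perm.mul_apply]
  by_cases e : φ y = d
  · rw [e, swap_apply_left, hF]
  · rw [swap_apply_of_ne_of_ne e (φ.injective.ne h)]

theorem skip_eq {φ : Perm ℕ} {d y : ℕ} (h : y ≠ d) (e : φ y ≠ d) : skip φ d y = φ y := by
  simp only [skip, Perm.mul_apply]
  rw [swap_apply_of_ne_of_ne e (φ.injective.ne h)]

theorem skip_eq' {φ : Perm ℕ} {d y : ℕ} (e : φ y = d) : skip φ d y = φ d := by
  simp only [skip, Perm.mul_apply]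
  rw [e, swap_apply_left]

/-- remove two points from their cycles -/
def sk2 (ψ : Perm ℕ) (d e : ℕ) : Perm ℕ := skip (skip ψ d) e

theorem sk2_left (ψ : Perm ℕ) {d e : ℕ} (h : d ≠ e) : sk2 ψ d e d = d := by
  rw [sk2, skip_eq h (by simpa using h), skip_self]

@[simp] theorem sk2_right (ψ : Perm ℕ) (d e : ℕ) : sk2 ψ d e e = e := skip_self _ _

theorem sk2_ne {ψ : Perm ℕ} {d e y : ℕ} (h : d ≠ e) (h1 : y ≠ d) (h2 : y ≠ e) :
    sk2 ψ d e y ≠ d ∧ sk2 ψ d e y ≠ e :=
  ⟨fun a => h1 ((sk2 ψ d e).injective (a.trans (sk2_left ψ h).symm)), skip_ne h2⟩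

theorem sk2_F {β : Type} (F : ℕ → β) {ψ : Perm ℕ} {d e y : ℕ} (h : d ≠ e) (hd : F (ψ d) = F d)
    (he : F (ψ e) = F e) (h1 : y ≠ d) (h2 : y ≠ e) : F (sk2 ψ d e y) = F (ψ y) := by
  rw [sk2, skip_F F ((skip_F F hd h.symm).trans he) h2, skip_F F hd h1]

theorem sk2_ext {β : Type} (F : ℕ → β) (ψ : Perm ℕ) {d e : ℕ} (h : d ≠ e) :
    ∃ F' : ℕ → β, (∀ y, y ≠ d → y ≠ e → F' y = F y) ∧ F' (ψ d) = F' d ∧ F' (ψ e) = F' e := by
  let b1 := Function.update F e (F (skip ψ d e))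
  have h1 : b1 (skip ψ d e) = b1 e := by
    by_cases a : skip ψ d e = e
    · rw [a]
    · simp [b1, a]
  refine ⟨Function.update b1 d (b1 (ψ d)), fun y a b => by simp [b1, a, b], ?_, ?_⟩
  · by_cases a : ψ d = d
    · rw [a]
    · simp [a]
  · rw [Function.update_of_ne h.symm, ← h1]
    by_cases a : ψ e = d
    · rw [a, Function.update_self, skip_eq' a]
    · rw [Function.update_of_ne a, skip_eq h.symm a]

theorem z2 (a : ZMod 2) : a + a = 0 := CharTwo.add_self_eq_zero a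

theorem planar_skip {φ α : Perm ℕ} (hP : Planar φ α) (s : ℕ) : Planar (skip φ s) α := by
  intro b' hb'
  let b := Function.update b' s (b' (φ s))
  have b1 : b (φ s) = b s := by
    by_cases a : φ s = s
    · rw [a]
    · simp [b, a]
  have b2 : ∀ y, b y + b (φ y) = b' y + b' (skip φ s y) := by
    intro y
    by_cases a : y = s
    · rw [a, b1, skip_self, z2, z2]
    · rw [← skip_F b b1 a]; simp [b, a, skip_ne a]
  obtain ⟨k, k1, k2⟩ := hP b fun d => by rw [b2, b2, hb']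
  let k' := Function.update k s (b s + k s + b' s)
  have c1 : ∀ y, b' y + k' y = b y + k y := by
    intro y
    by_cases a : y = s
    · rw [a]; simp only [k', Function.update_self]; linear_combination z2 (b' s)
    · simp [k', b, a]
  refine ⟨k', fun y => ?_, fun y => ?_⟩
  · by_cases a : y = s
    · rw [a, skip_self]
    · simp only [k', Function.update_of_ne a, Function.update_of_ne (skip_ne a)]
      rw [skip_F k (k1 s) a, k1]
  · rw [c1, c1, ← k2 y]
    by_cases a : α y = s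
    · rw [a, skip_self, b1, k1]
    · exact skip_F (fun y => b y + k y) (by simp only [b1, k1]) a

/-- delete the edge `{d, e}` -/
def del (φ : Perm ℕ) (d e : ℕ) : Perm ℕ := sk2 (φ * swap d e) d e

theorem del_F {β : Type} (F : ℕ → β) {φ : Perm ℕ} {d e y : ℕ} (h : d ≠ e) (hd : F (φ e) = F d)
    (he : F (φ d) = F e) (h1 : y ≠ d) (h2 : y ≠ e) : F (del φ d e y) = F (φ y) := by
  rw [del, sk2_F F h (by simpa using hd) (by simpa using he) h1 h2]
  simp [swap_apply_of_ne_of_ne h1 h2]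

theorem del_ne {φ : Perm ℕ} {d e y : ℕ} (h : d ≠ e) (h1 : y ≠ d) (h2 : y ≠ e) :
    del φ d e y ≠ d ∧ del φ d e y ≠ e := sk2_ne h h1 h2

theorem planar_del {φ α : Perm ℕ} (hα : ∀ d, α (α d) = d) (hP : Planar φ α) {d : ℕ}
    (h : d ≠ α d) : Planar (del φ d (α d)) α := by
  intro b' hb'
  obtain ⟨b, b0, b1, b2⟩ := sk2_ext b' (φ * swap d (α d)) h
  simp only [Perm.mul_apply, swap_apply_left, swap_apply_right] at b1 b2
  have n1 : ∀ y, y ≠ d → y ≠ α d → α y ≠ d ∧ α y ≠ α d := fun y a c =>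
    ⟨fun e => c (by rw [← e, hα]), α.injective.ne a⟩
  have b3 : ∀ y, y ≠ d → y ≠ α d → b (φ y) = b' (del φ d (α d) y) := fun y a c => by
    rw [← del_F b h b1 b2 a c, b0 _ (del_ne h a c).1 (del_ne h a c).2]
  obtain ⟨k, k1, k2⟩ := hP b fun y => by
    by_cases a : y = d
    · rw [a, b1, b2, add_comm]
    by_cases c : y = α d
    · rw [c, hα, b1, b2, add_comm]
    · rw [b3 y a c, b3 _ (n1 y a c).1 (n1 y a c).2, b0 y a c, b0 _ (n1 y a c).1 (n1 y a c).2, hb']
  have k3 : k (α d) = k d := by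
    have := k2 d
    rw [b1, k1] at this
    exact add_left_cancel this
  let k' : ℕ → ZMod 2 := fun y => if y = d ∨ y = α d then b' y else k y
  have d1 : del φ d (α d) d = d := sk2_left _ h
  have d2 : del φ d (α d) (α d) = α d := sk2_right _ _ _
  have k4 : ∀ y, y ≠ d → y ≠ α d → k' y = k y := fun y a c => if_neg (by tauto)
  refine ⟨k', fun y => ?_, fun y => ?_⟩
  · by_cases a : y = d
    · rw [a, d1]
    by_cases c : y = α d
    · rw [c, d2]
    · rw [k4 _ (del_ne h a c).1 (del_ne h a c).2, k4 y a c]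
      exact (del_F k h (by rw [k1, k3]) (by rw [k1, k3]) a c).trans (k1 y)
  · by_cases a : y = d
    · rw [a, d2]; simp [k', z2]
    by_cases c : y = α d
    · rw [c, hα, d1]; simp [k', z2]
    · have m := n1 y a c
      rw [← b3 _ m.1 m.2, k4 _ (del_ne h m.1 m.2).1 (del_ne h m.1 m.2).2, k4 y a c, ← b0 y a c,
        ← k2 y]
      congr 1
      exact del_F k h (by rw [k1, k3]) (by rw [k1, k3]) m.1 m.2

theorem planar_ins {φ α : Perm ℕ} (hα : ∀ d, α (α d) = d) {t : ℕ} (h : t ≠ α t)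
    (hP : Planar (sk2 φ t (α t)) α) (u : ℕ → ZMod 2) (hu : ∀ y, u (φ (α y)) = u y)
    (hu' : u t + u (φ t) = 1)
    (hc : ∀ F : ℕ → ZMod 2, (∀ y, y ≠ t → y ≠ α t → F (φ (α y)) = F y) → F (φ t) = F t →
      F (φ (α t)) = F (α t) → F t = F (α t)) : Planar φ α := by
  have key : ∀ b : ℕ → ZMod 2, (∀ d, b (α d) + b (φ (α d)) = b d + b (φ d)) → b (φ t) = b t →
      ∃ k : ℕ → ZMod 2, (∀ d, k (φ d) = k d) ∧ ∀ d, b (φ (α d)) + k (φ (α d)) = b d + k d := by
    intro b hb b1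
    have b2 : b (φ (α t)) = b (α t) := by
      have := hb t
      rw [b1] at this
      linear_combination this + z2 (b t) - z2 (b (α t))
    have n1 : ∀ y, y ≠ t → y ≠ α t → α y ≠ t ∧ α y ≠ α t := fun y a c =>
      ⟨fun e => c (by rw [← e, hα]), α.injective.ne a⟩
    obtain ⟨k, k1, k2⟩ := hP b fun y => by
      by_cases a : y = t
      · rw [a, sk2_right, sk2_left _ h, z2, z2]
      by_cases c : y = α t
      · rw [c, hα, sk2_right, sk2_left _ h, z2, z2]
      · rw [sk2_F b h b1 b2 a c, sk2_F b h b1 b2 (n1 y a c).1 (n1 y a c).2, hb]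
    obtain ⟨k', k0, k3, k4⟩ := sk2_ext k φ h
    have k5 : ∀ y, y ≠ t → y ≠ α t → k' (φ y) = k (sk2 φ t (α t) y) := fun y a c => by
      rw [← sk2_F k' h k3 k4 a c, k0 _ (sk2_ne h a c).1 (sk2_ne h a c).2]
    have k6 : ∀ y, y ≠ t → y ≠ α t → b (φ (α y)) + k' (φ (α y)) = b y + k' y := fun y a c => by
      have m := n1 y a c
      rw [k5 _ m.1 m.2, k0 y a c, ← k2 y, sk2_F b h b1 b2 m.1 m.2]
    have k7 := hc (fun y => b y + k' y) k6 (by simp only [b1, k3]) (by simp only [b2, k4])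
    refine ⟨k', fun y => ?_, fun y => ?_⟩
    · by_cases a : y = t
      · rw [a, k3]
      by_cases c : y = α t
      · rw [c, k4]
      · rw [k5 y a c, k1, k0 y a c]
    · by_cases a : y = t
      · rw [a, b2, k4]; exact k7.symm
      by_cases c : y = α t
      · rw [c, hα, b1, k3]; exact k7
      · exact k6 y a c
  intro b hb
  let ζ := b t + b (φ t)
  obtain ⟨k, k1, k2⟩ := key (fun y => b y + ζ * u y) (fun d => by
    have h1 := hu d
    have h2 := hu (α d)
    rw [hα] at h2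
    simp only [h1, h2]
    linear_combination hb d) (by
      simp only [ζ]
      linear_combination (b t + b (φ t)) * hu' + z2 (b (φ t)) - z2 ((b t + b (φ t)) * u t))
  refine ⟨k, k1, fun d => ?_⟩
  have := k2 d
  simp only [hu] at this
  linear_combination this

theorem fold_spec {α : Perm ℕ} (hα : ∀ d, α (α d) = d) (hα' : ∀ d, α d ≠ d) {d e : ℕ}
    (h1 : d ≠ e) :
    (swap e (α d) * α * swap e (α d)) d = e ∧ (swap e (α d) * α * swap e (α d)) e = d ∧
    (swap e (α d) * α * swap e (α d)) (α d) = α e ∧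
    (swap e (α d) * α * swap e (α d)) (α e) = α d ∧
    ∀ y, y ≠ d → y ≠ e → y ≠ α d → y ≠ α e → (swap e (α d) * α * swap e (α d)) y = α y := by
  have a1 : d ≠ α d := (hα' d).symm
  have a2 : α e ≠ e := hα' e
  have a3 : α e ≠ α d := α.injective.ne h1.symm
  refine ⟨?_, ?_, ?_, ?_, fun y b1 b2 b3 b4 => ?_⟩
  · simp [swap_apply_of_ne_of_ne h1 a1]
  · simp [hα, swap_apply_of_ne_of_ne h1 a1]
  · simp [swap_apply_of_ne_of_ne a2 a3]
  · simp [hα, swap_apply_of_ne_of_ne a2 a3]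
  · simp only [Perm.mul_apply, swap_apply_of_ne_of_ne b2 b3]
    exact swap_apply_of_ne_of_ne (fun h => b4 (by rw [← h, hα])) (α.injective.ne b1)

theorem planar_fold {φ α : Perm ℕ} (hα : ∀ d, α (α d) = d) (hα' : ∀ d, α d ≠ d)
    (hP : Planar φ α) {d : ℕ} (h1 : d ≠ φ d) (h2 : α d ≠ φ d) :
    Planar φ (swap (φ d) (α d) * α * swap (φ d) (α d)) := by
  obtain ⟨f1, f2, f3, f4, f5⟩ := fold_spec hα hα' h1
  generalize swap (φ d) (α d) * α * swap (φ d) (α d) = α' at *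
  set e := φ d with he
  intro b hb
  have q1 := hb d
  have q2 := hb (α d)
  rw [f1] at q1
  rw [f3] at q2
  have n1 : φ e ≠ e := φ.injective.ne h1.symm
  have n2 : α e ≠ e := hα' e
  have n3 : φ (α d) ≠ e := φ.injective.ne (hα' d)
  have n4 : φ (α e) ≠ e := φ.injective.ne fun h => h2 (by rw [← h, hα])
  let b' := Function.update b e (b d + b (α d) + b (φ (α d)))
  have b1 : ∀ y, y ≠ e → b' y = b y := fun y h => Function.update_of_ne h _ _
  have b2 : b' e = b d + b (α d) + b (φ (α d)) := Function.update_self _ _ _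
  have hd : b' (α d) + b' (φ (α d)) = b' d + b' (φ d) := by
    rw [← he, b1 _ h2, b1 _ n3, b1 _ h1, b2]; linear_combination - z2 (b d)
  have hee : b' (α e) + b' (φ (α e)) = b' e + b' (φ e) := by
    rw [b1 _ n2, b1 _ n4, b1 _ n1, b2]
    linear_combination q2 - q1 - z2 (b d)
  obtain ⟨k, k1, k2⟩ := hP b' fun y => by
    by_cases a1 : y = d
    · rw [a1, hd]
    by_cases a2 : y = e
    · rw [a2, hee]
    by_cases a3 : y = α d
    · rw [a3, hα, hd]
    by_cases a4 : y = α e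
    · rw [a4, hα, hee]
    · have := hb y
      rw [f5 y a1 a2 a3 a4] at this
      rw [b1 y a2, b1 _ (φ.injective.ne a1), b1 (α y) fun h => a4 (by rw [← h, hα]),
        b1 (φ (α y)) (φ.injective.ne fun h => a3 (by rw [← h, hα])), this]
  have r1 : b (φ e) + k (φ e) = b d + k d := by
    rw [k1, he, k1]; linear_combination q1
  refine ⟨k, k1, fun y => ?_⟩
  by_cases a1 : y = d
  · rw [a1, f1, r1]
  by_cases a2 : y = e
  · rw [a2, f2]
  by_cases a3 : y = α d
  · have s1 := k2 e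
    have s2 := k2 (α d)
    rw [hα, ← he, b1 _ h2] at s2
    rw [b1 _ n4] at s1
    rw [a3, f3, s1, s2]
  by_cases a4 : y = α e
  · have s1 := k2 d
    have s2 := k2 (α e)
    rw [hα, b1 _ n1, b1 _ n2] at s2
    rw [b1 _ n3, b1 _ h1] at s1
    rw [a4, f4, s1, ← s2, r1]
  · have := k2 y
    rwa [b1 y a2, b1 (φ (α y)) (φ.injective.ne fun h => a3 (by rw [← h, hα])),
      ← f5 y a1 a2 a3 a4] at this

theorem ins_spec {φ : Perm ℕ} {a y s p0 : ℕ} (ha : φ a = a) (hy : φ y = y) (h1 : a ≠ y)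
    (h3 : y ≠ s) (h4 : a ≠ p0) :
    ∃ φ1 φ' : Perm ℕ, φ' p0 = y ∧ φ' y = φ1 p0 ∧ φ' a = s ∧
      (∀ p, p ≠ p0 → p ≠ y → φ' p = φ1 p) ∧ φ1 a = s ∧ φ1 y = y ∧
      (∀ p, p ≠ a → (φ p = s ∧ φ1 p = a) ∨ (φ p ≠ s ∧ φ p ≠ a ∧ φ1 p = φ p)) ∧
      sk2 φ' a y = φ ∧ sk2 φ' y a = φ := by
  let φ1 := swap a s * φ
  have e1 : φ1 a = s := by simp [φ1, ha]
  have e2 : φ1 y = y := by simp [φ1, hy, swap_apply_of_ne_of_ne h1.symm h3]
  have e3 : φ1 p0 ≠ s := fun h => h4 (φ1.injective (e1.trans h.symm))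
  let φ' := swap y (φ1 p0) * φ1
  have e4 : φ' y = φ1 p0 := by simp [φ', e2]
  have e5 : ∀ p, p ≠ p0 → p ≠ y → φ' p = φ1 p := fun p a b =>
    swap_apply_of_ne_of_ne (fun h => b (φ1.injective (h.trans e2.symm))) (φ1.injective.ne a)
  have e6 : φ' a = s := by rw [e5 a h4 h1, e1]
  have e7 : skip φ' y = φ1 := by rw [skip, e4]; simp [φ']
  have e8 : sk2 φ' y a = φ := by rw [sk2, e7, skip, e1]; simp [φ1]
  refine ⟨φ1, φ', by simp [φ'], e4, e6, e5, e1, e2, fun p hp => ?_, ?_, e8⟩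
  · by_cases h : φ p = s
    · exact Or.inl ⟨h, by simp [φ1, h]⟩
    · have : φ p ≠ a := fun e => hp (φ.injective (e.trans ha.symm))
      exact Or.inr ⟨h, this, swap_apply_of_ne_of_ne this h⟩
  · rw [← e8]
    ext p
    by_cases a1 : p = a
    · rw [a1, sk2_left _ h1, sk2_right]
    by_cases a2 : p = y
    · rw [a2, sk2_left _ h1.symm, sk2_right]
    obtain ⟨F, F0, F1, F2⟩ := sk2_ext id φ' h1
    rw [← id_eq (sk2 φ' a y p), ← F0 _ (sk2_ne h1 a1 a2).1 (sk2_ne h1 a1 a2).2,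
      sk2_F F h1 F1 F2 a1 a2, ← sk2_F F h1.symm F2 F1 a2 a1,
      F0 _ (sk2_ne h1.symm a2 a1).2 (sk2_ne h1.symm a2 a1).1, id_eq]

end Vale.Agent.P201
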