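import Vale.Agent.P201.Loc
import Vale.Agent.P201.Local
import Vale.Agent.P201.Euler

set_option linter.unusedSectionVars false

namespace Vale.Agent.P201

open Finset Equiv

/-- a reduced planar diagram -/
structure RM {Gen V Dt : Type} (src : Dt → V) (lab : Dt → Gen × Bool) (ρ : Dt → Dt) (root : V) where
  φ : Perm ℕ
  α : Perm ℕ
  A : Finset ℕ
  B : Finset ℕ
  x : ℕ → Dt
  d0 : ℕ
  αα : ∀ d, α (α d) = d
  α_ne : ∀ d, α d ≠ d
  pl : Planar φ α
  Aα : ∀ d ∈ A, α d ∈ A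
  Aφ : ∀ d ∈ A, φ d ∈ A
  BA : B ⊆ A
  Bφ : ∀ y, φ y ∈ B ↔ y ∈ B
  deg1 : ∀ d ∈ A, φ (α d) = d → d = d0
  glue : ∀ y ∈ B, α y ∈ B → lab (x (α y)) = iv (lab (x y)) ∧ x (α y) ≠ ρ (x y)
  cont : ∀ y ∈ B, φ y ≠ d0 → src (x (φ y)) = src (ρ (x y)) ∧ x (φ y) ≠ ρ (x y)
  root0 : d0 ∈ B → src (x d0) = root

namespace RM

variable {Gen V Dt : Type} {src : Dt → V} {lab : Dt → Gen × Bool} {ρ : Dt → Dt} {root : V}
  (R : RM src lab ρ root)

theorem pow_mem (j : ℕ) (y : ℕ) : (R.φ ^ j) y ∈ R.B ↔ y ∈ R.B := by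
  induction j with
  | zero => simp
  | succ j ih => rw [pow_succ', Perm.mul_apply, R.Bφ, ih]

theorem inv_pow_mem (j : ℕ) (y : ℕ) : (R.φ⁻¹ ^ j) y ∈ R.B ↔ y ∈ R.B := by
  rw [← R.pow_mem j, inv_pow]; simp

theorem no_return {g : ℕ} (hg : Girth src ρ g) {c i : ℕ} (hc : c ∈ R.B) (hi : 0 < i) (hi' : i < g)
    (h : (R.φ ^ i) c = c) : ∃ j, 0 < j ∧ j ≤ i ∧ (R.φ ^ j) c = R.d0 := by
  by_contra hcon
  push Not at hcon
  obtain ⟨k, rfl⟩ : ∃ k, i = k + 1 := ⟨i - 1, by omega⟩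
  have key : ∀ j ≤ k, src (R.x ((R.φ ^ (j + 1)) c)) = src (ρ (R.x ((R.φ ^ j) c))) ∧
      R.x ((R.φ ^ (j + 1)) c) ≠ ρ (R.x ((R.φ ^ j) c)) := fun j hj => by
    have := hcon (j + 1) (by omega) (by omega)
    rw [pow_succ', Perm.mul_apply] at this ⊢
    exact R.cont _ ((R.pow_mem j c).2 hc) this
  refine Wk.not_closed (p := fun j => R.x ((R.φ ^ j) c)) hg (fun j hj => key j (by omega)) hi' ?_
  simp only [← (key k le_rfl).1, h, pow_zero, Perm.one_apply]

theorem exists_cut (L : ℕ) : ∃ Cut ⊆ R.B, (R.d0 ∈ R.B → R.d0 ∈ Cut) ∧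
    (∀ c ∈ Cut, ∀ i, 0 < i → i ≤ L → (R.φ ^ i) c ∈ Cut → (R.φ ^ i) c = c) ∧
    ∀ y ∈ R.B, ∃ j ≤ 2 * L, (R.φ⁻¹ ^ j) y ∈ Cut := by
  classical
  let F := R.B.powerset.filter fun Cut => (R.d0 ∈ R.B → R.d0 ∈ Cut) ∧
    ∀ c ∈ Cut, ∀ i, 0 < i → i ≤ L → (R.φ ^ i) c ∈ Cut → (R.φ ^ i) c = c
  have hF : F.Nonempty := ⟨R.B.filter (· = R.d0), by
    simp only [F, mem_filter, mem_powerset]
    exact ⟨filter_subset _ _, fun h => ⟨h, trivial⟩, fun c hc i _ _ h => h.2.trans hc.2.symm⟩⟩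
  obtain ⟨Cut, h1, h2⟩ := exists_max_image F card hF
  simp only [F, mem_filter, mem_powerset] at h1 h2
  refine ⟨Cut, h1.1, h1.2.1, h1.2.2, fun y hy => ?_⟩
  by_contra hcon
  push Not at hcon
  have := h2 (insert ((R.φ⁻¹ ^ L) y) Cut) ⟨?_, fun h => mem_insert_of_mem (h1.2.1 h), ?_⟩
  · rw [card_insert_of_notMem (hcon L (by omega))] at this; omega
  · exact insert_subset ((R.inv_pow_mem L y).2 hy) h1.1
  · intro c hc i hi hi' h
    rcases mem_insert.1 hc with rfl | hc' <;> rcases mem_insert.1 h with h' | h'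
    · exact h'
    · refine absurd ?_ (hcon (L - i) (by omega))
      convert h' using 1
      rw [← Perm.mul_apply]
      congr 1
      rw [inv_pow, inv_pow, eq_mul_inv_iff_mul_eq, inv_mul_eq_iff_eq_mul, ← pow_add]
      congr 1; omega
    · refine absurd ?_ (hcon (i + L) (by omega))
      rw [pow_add, Perm.mul_apply, ← h', inv_pow]
      simpa using hc'
    · exact h1.2.2 c hc' i hi hi' h'

theorem exists_pieces {g L : ℕ} (hg : Girth src ρ g) (hL : L < g) :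
    ∃ (pc pos : ℕ → ℕ) (U : Finset ℕ), pos R.d0 = 0 ∧
      (∀ y ∈ R.B, pos (R.φ y) ≠ 0 → pc (R.φ y) = pc y ∧ pos (R.φ y) = pos y + 1) ∧
      (∀ y ∈ R.B, pos y = 0 → pc y = y) ∧ (∀ y ∈ R.B, pos y < 2 * L + 1) ∧
      (∀ c ∈ U, L ≤ (R.B.filter fun y => pc y = c).card) ∧
      (∀ y ∈ R.B, pc y ∈ U ∨ pc y = R.d0) ∧ (∀ y ∈ R.B, pc y ∈ U → pc (R.φ y) ∈ U) ∧
      ((∀ y ∈ R.B, pc y ∈ U) ∨ U = ∅ ∨ g ≤ (R.B.filter fun y => pc y ∈ U).card) := by
  classical
  obtain ⟨Cut, c1, c2, c3, c4⟩ := R.exists_cut L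
  let pos : ℕ → ℕ := fun y => if h : ∃ j, (R.φ⁻¹ ^ j) y ∈ Cut then Nat.find h else 0
  let pc : ℕ → ℕ := fun y => (R.φ⁻¹ ^ pos y) y
  have ex : ∀ y ∈ R.B, ∃ j, (R.φ⁻¹ ^ j) y ∈ Cut := fun y hy => (c4 y hy).imp fun _ h => h.2
  have p1 : ∀ y (hy : y ∈ R.B), pos y = Nat.find (ex y hy) := fun y hy => dif_pos _
  have p2 : ∀ y ∈ R.B, pc y ∈ Cut := fun y hy => by
    simp only [pc, p1 y hy]; exact Nat.find_spec (ex y hy)
  have p3 : ∀ y ∈ R.B, pos y = 0 ↔ y ∈ Cut := fun y hy => by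
    rw [p1 y hy, Nat.find_eq_zero]; simp
  have p4 : ∀ j y, (R.φ⁻¹ ^ (j + 1)) (R.φ y) = (R.φ⁻¹ ^ j) y := fun j y => by
    rw [pow_succ, Perm.mul_apply]; simp
  have step : ∀ y ∈ R.B, pos (R.φ y) ≠ 0 → pc (R.φ y) = pc y ∧ pos (R.φ y) = pos y + 1 := by
    intro y hy h
    have hy' := (R.Bφ y).2 hy
    have : pos (R.φ y) = pos y + 1 := by
      rw [p1 _ hy', p1 _ hy, Nat.find_eq_iff]
      refine ⟨by rw [p4]; exact Nat.find_spec (ex y hy), fun k hk => ?_⟩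
      rcases k with _ | k
      · simpa using (p3 _ hy').not.1 h
      · rw [p4]; exact Nat.find_min (ex y hy) (by omega)
    exact ⟨by simp only [pc, this, p4], this⟩
  have pcpow : ∀ y, (R.φ ^ pos y) (pc y) = y := fun y => by simp [pc]
  have pc0 : ∀ y, pos y = 0 → pc y = y := fun y h => by
    have := pcpow y
    rwa [h] at this
  let U := Cut.filter fun c => ∀ i, 0 < i → i ≤ L → (R.φ ^ i) c ≠ c
  have u1 : ∀ c ∈ Cut, c ∈ U ∨ c = R.d0 := by
    intro c hc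
    by_cases h : c ∈ U
    · exact Or.inl h
    simp only [U, mem_filter, hc, true_and, not_forall, not_not] at h
    obtain ⟨i, a, b, h⟩ := h
    obtain ⟨j, j1, j2, j3⟩ := R.no_return hg (c1 hc) a (by omega) h
    have : R.d0 ∈ Cut := c2 (j3 ▸ (R.pow_mem j c).2 (c1 hc))
    exact Or.inr ((c3 c hc j j1 (by omega) (j3 ▸ this)).symm.trans j3)
  have inv : ∀ y ∈ R.B, pc y ∈ U → pc (R.φ y) ∈ U := by
    intro y hy h
    have hy' := (R.Bφ y).2 hy
    by_contra hc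
    have e := (u1 _ (p2 _ hy')).resolve_left hc
    have hd : R.d0 ∈ Cut := e ▸ p2 _ hy'
    rw [e] at hc
    have hc' := hc
    simp only [U, mem_filter, hd, true_and, not_forall, not_not] at hc
    obtain ⟨n, n1, n2, hn⟩ := hc
    have per : Function.IsPeriodicPt R.φ n R.d0 := hn
    have s1 : R.φ.SameCycle R.d0 (pc y) := by
      have a : R.φ.SameCycle R.d0 (R.φ y) := ⟨pos (R.φ y), by rw [zpow_natCast, ← e, pcpow]⟩
      have b : R.φ.SameCycle (pc y) (R.φ y) :=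
        Perm.sameCycle_apply_right.2 ⟨pos y, by rw [zpow_natCast, pcpow]⟩
      exact a.trans b.symm
    obtain ⟨z, hz⟩ := s1
    have : (R.φ ^ (z % n).toNat) R.d0 = pc y := by
      rw [← zpow_natCast, Int.toNat_of_nonneg (Int.emod_nonneg _ (by omega)), ← hz]
      conv_rhs => rw [← Int.emod_add_mul_ediv z n, zpow_add, zpow_mul, Perm.mul_apply,
        zpow_natCast, Perm.zpow_apply_eq_self_of_apply_eq_self hn]
    have hlt : z % n < n := Int.emod_lt_of_pos _ (by omega)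
    rcases Nat.eq_zero_or_pos (z % n).toNat with h0 | h0
    · rw [h0] at this; exact hc' (by simpa [← this] using h)
    · have := c3 _ hd _ h0 (by omega) (this ▸ p2 y hy)
      exact hc' (by rw [← this, ‹(R.φ ^ (z % n).toNat) R.d0 = pc y›]; exact h)
  refine ⟨pc, pos, U, ?_, step, fun y _ h => pc0 y h, fun y hy => ?_, fun c hc => ?_,
    fun y hy => u1 _ (p2 y hy), inv, ?_⟩
  · by_cases h : R.d0 ∈ R.B
    · exact (p3 _ h).2 (c2 h)
    · exact dif_neg fun ⟨j, hj⟩ => h ((R.inv_pow_mem j _).1 (c1 hj))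
  · obtain ⟨j, a, b⟩ := c4 y hy
    have := Nat.find_min' (ex y hy) b
    rw [p1 y hy]; omega
  · obtain ⟨hc, hc'⟩ := mem_filter.1 hc
    have key : ∀ i ≤ L, pc ((R.φ ^ i) c) = c ∧ pos ((R.φ ^ i) c) = i := by
      intro i
      induction i with
      | zero => intro _; exact ⟨pc0 c ((p3 c (c1 hc)).2 hc), (p3 c (c1 hc)).2 hc⟩
      | succ i ih =>
        intro hi
        have hB := (R.pow_mem i c).2 (c1 hc)
        have := step _ hB fun h => hc' (i + 1) (by omega) hi (c3 c hc _ (by omega) hi (by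
          rw [pow_succ', Perm.mul_apply]; exact (p3 _ ((R.Bφ _).2 hB)).1 h))
        rw [pow_succ', Perm.mul_apply, this.1, this.2, (ih (by omega)).1, (ih (by omega)).2]
        exact ⟨rfl, rfl⟩
    rw [← card_range L]
    refine card_le_card_of_injOn (fun i => (R.φ ^ i) c) (fun i hi => ?_) fun i hi j hj h => ?_
    · simp only [coe_range, Set.mem_Iio] at hi
      simp [(R.pow_mem i c).2 (c1 hc), (key i hi.le).1]
    · simp only [coe_range, Set.mem_Iio] at hi hj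
      rw [← (key i hi.le).2, ← (key j hj.le).2]; exact congrArg pos h
  · by_cases h : ∀ y ∈ R.B, pc y ∈ U
    · exact Or.inl h
    push Not at h
    obtain ⟨y, hy, h⟩ := h
    have e := (u1 _ (p2 y hy)).resolve_left h
    rcases U.eq_empty_or_nonempty with h0 | ⟨c, hc⟩
    · exact Or.inr (Or.inl h0)
    refine Or.inr (Or.inr ?_)
    have hcB := c1 (mem_filter.1 hc).1
    have key : ∀ j, pc ((R.φ ^ j) c) ∈ U := by
      intro j
      induction j with
      | zero => exact (pc0 c ((p3 c hcB).2 (mem_filter.1 hc).1)).symm ▸ hc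
      | succ j ih =>
        rw [pow_succ', Perm.mul_apply]; exact inv _ ((R.pow_mem j c).2 hcB) ih
    have k2 : ∀ i j, i < j → j < g → (R.φ ^ i) c ≠ (R.φ ^ j) c := by
      intro i j a b hij
      obtain ⟨k, rfl⟩ : ∃ k, j = i + k := ⟨j - i, by omega⟩
      rw [pow_add, Perm.mul_apply] at hij
      obtain ⟨t, -, -, ht⟩ := R.no_return hg hcB (i := k) (by omega) (by omega)
        ((R.φ ^ i).injective hij).symm
      have := key t
      have hd : R.d0 ∈ Cut := e ▸ p2 y hy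
      rw [ht] at this
      exact h (by rw [e, ← pc0 _ ((p3 _ (c1 hd)).2 hd)]; exact this)
    rw [← card_range g]
    refine card_le_card_of_injOn (fun i => (R.φ ^ i) c) (fun i _ => ?_) fun i hi j hj h => ?_
    · simp [(R.pow_mem i c).2 hcB, key i]
    · simp only [coe_range, Set.mem_Iio] at hi hj
      rcases lt_trichotomy i j with l | l | l
      · exact absurd h (k2 i j l hj)
      · exact l
      · exact absurd h.symm (k2 j i l hi)

theorem single (hρ : ∀ t, lab (ρ t) = iv (lab t))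
    (hf : ∀ t t', src t = src t' → lab t = lab t' → t = t') (hA : R.A ⊆ R.B)
    (h : ∀ y ∈ R.B, ∃ j : ℕ, (R.φ ^ j) R.d0 = y) : R.A = ∅ := by
  by_contra hne
  obtain ⟨y, hy⟩ := nonempty_iff_ne_empty.2 hne
  obtain ⟨j, rfl⟩ := h y (hA hy)
  have hd := (R.pow_mem j _).1 (hA hy)
  obtain ⟨k, hk⟩ := h (R.φ⁻¹ R.d0) (by rw [← R.Bφ]; simpa using hd)
  have per : Function.IsPeriodicPt R.φ (k + 1) R.d0 := by
    show (R.φ ^ (k + 1)) R.d0 = _
    rw [pow_succ', Perm.mul_apply, hk]; simp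
  have hn := per.minimalPeriod_pos (by omega)
  set n := Function.minimalPeriod R.φ R.d0
  have hinj : ∀ i < n, ∀ j < n, (R.φ ^ i) R.d0 = (R.φ ^ j) R.d0 → i = j :=
    fun i hi j hj e => Function.iterate_injOn_Iio_minimalPeriod hi hj e
  obtain ⟨i, a, b⟩ := planar_single R.φ R.α R.αα R.α_ne R.pl R.d0 n hn
    (Function.isPeriodicPt_minimalPeriod R.φ R.d0) hinj fun i _ => by
      obtain ⟨t, ht⟩ := h _ (hA (R.Aα _ (R.BA ((R.pow_mem i _).2 hd))))
      exact ⟨t % n, Nat.mod_lt _ hn, ht.symm.trans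
        (Function.iterate_mod_minimalPeriod_eq (f := R.φ) (x := R.d0) (n := t)).symm⟩
  have hB := (R.pow_mem i _).2 hd
  have e : (R.φ ^ (i + 1)) R.d0 = R.φ ((R.φ ^ i) R.d0) := by rw [pow_succ', Perm.mul_apply]
  have c1 := R.cont _ hB fun h => by
    have := hinj (i + 1) a 0 hn (e.trans h); omega
  have c2 := R.glue _ hB (b ▸ (R.pow_mem _ _).2 hd)
  rw [b, e] at c2
  exact c1.2 (hf _ _ c1.1 (by rw [c2.1, hρ]))

end RM

end Vale.Agent.P201
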