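import Vale.Agent.P201.Enum

set_option linter.unusedSectionVars false

namespace Vale.Agent.P201

open Finset Equiv

namespace Cf

variable {Gen V Dt : Type} [DecidableEq V] [DecidableEq Dt] (c : Cf Gen V Dt)

/-- the opposite corner -/
def op (y : ℕ) : ℕ := c.φ (c.α y)

open Classical in
/-- charging passes -/
noncomputable def Ch (i : ℕ) : Finset ℕ :=
  c.W.filter fun y => c.src (c.x y) = c.src (c.d i) ∧ c.α y ∈ c.W ∧
    c.I (c.src (c.x (c.op y))) < i

/-- plain with plain partners -/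
def Sup (i : ℕ) : Prop :=
  c.src (c.d i) ∉ c.NP ∧ ∀ y ∈ c.W, c.src (c.x y) = c.src (c.d i) → c.α y ∈ c.W →
    c.src (c.x (c.op y)) ∉ c.NP

open Classical in
/-- break indices -/
noncomputable def brk (i : ℕ) : Bool :=
  decide ¬ (i ≠ 0 ∧ c.Sup i ∧ c.Sup (i - 1) ∧ (c.Ch i).image c.pc = (c.Ch (i - 1)).image c.pc)

/-- matched dart -/
noncomputable def mt (i y : ℕ) : Dt :=
  if c.x y = c.d i then c.ρ (c.x (c.α y)) else c.x (c.op y)

open Classical in
/-- pointers -/
noncomputable def ptr (i : ℕ) : Option (ℕ × Bool) :=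
  if h : (c.Ch i).Nonempty ∧ c.Sup i then
    some (c.cd (c.mt i (exists_min_image (c.Ch i) c.pc h.1).choose)) else none

theorem brk_false {i : ℕ} : c.brk i = false ↔
    i ≠ 0 ∧ c.Sup i ∧ c.Sup (i - 1) ∧ (c.Ch i).image c.pc = (c.Ch (i - 1)).image c.pc := by
  simp [brk]

theorem ptr_none {i : ℕ} (hs : c.Sup i) : c.ptr i = none ↔ ¬ (c.Ch i).Nonempty := by
  unfold ptr
  split_ifs with h
  · simp [h.1]
  · simpa [hs] using h

theorem ptr_some {i : ℕ} (hs : c.Sup i) (h : (c.Ch i).Nonempty) :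
    ∃ y ∈ c.Ch i, (∀ z ∈ c.Ch i, c.pc y ≤ c.pc z) ∧ c.ptr i = some (c.cd (c.mt i y)) := by
  unfold ptr
  rw [dif_pos ⟨h, hs⟩]
  exact ⟨_, (exists_min_image (c.Ch i) c.pc h).choose_spec.1,
    (exists_min_image (c.Ch i) c.pc h).choose_spec.2, rfl⟩

theorem op_spec {y : ℕ} (hy : y ∈ c.W) (hp : c.src (c.x y) ∉ c.NP) (ha : c.α y ∈ c.W) :
    c.op y ∈ c.W ∧ c.src (c.x (c.op y)) = c.src (c.ρ (c.x (c.α y))) ∧
      c.x (c.op y) ≠ c.ρ (c.x (c.α y)) ∧ c.lab (c.ρ (c.x (c.α y))) = c.lab (c.x y) ∧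
      c.lab (c.x (c.op y)) = iv (c.lab (c.x (c.φ⁻¹ y))) ∧ c.α (c.op y) = c.φ⁻¹ y ∧
      c.src (c.x (c.op y)) ≠ c.src (c.x y) := by
  have p := c.plain_src hy hp
  have q := p.2.2.2.1 ha
  have r := c.cont' (c.mem_W.1 ha).1 q.1
  have g1 := c.glue y (c.mem_W.1 hy).1 (c.mem_W.1 ha).1
  have g2 := c.glue (c.op y) (c.mem_W.1 q.2).1 (by
    unfold op; rw [p.2.2.1]; exact (c.mem_W.1 p.2.1).1)
  have l1 : c.lab (c.ρ (c.x (c.α y))) = c.lab (c.x y) := by rw [c.labρ, g1.1, iv_iv]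
  refine ⟨q.2, r.1, r.2, l1, ?_, p.2.2.1, fun e => ?_⟩
  · rw [← p.2.2.1]; unfold op at g2 ⊢; rw [g2.1, iv_iv]
  · exact g1.2 (by rw [← c.fold _ _ (r.1.symm.trans e) l1, c.ρρ])

theorem mt_spec {i y : ℕ} (hi : i < c.N) (hp : c.src (c.d i) ∉ c.NP) (hy : y ∈ c.W)
    (h : c.src (c.x y) = c.src (c.d i)) (ha : c.α y ∈ c.W) :
    c.Dl (c.mt i y) ∧ c.src (c.mt i y) = c.src (c.x (c.op y)) ∧
      c.lab (c.mt i y) = c.lab (c.d i) := by
  have o := c.op_spec hy (h ▸ hp) ha
  unfold mt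
  split_ifs with e
  · exact ⟨(c.Dl_x ha).rev, o.2.1.symm, by rw [o.2.2.2.1, e]⟩
  · refine ⟨c.Dl_x o.1, rfl, ?_⟩
    rcases c.corner hi hp hy h with a | a
    · exact absurd a.1 e
    · rw [o.2.2.2.2.1, a.2, c.labρ, iv_iv]

theorem Ch_mono {i : ℕ} (hi : i < c.N) (h1 : c.Sup i) (h2 : c.Sup (i - 1)) :
    (c.Ch (i - 1)).image c.pc ⊆ (c.Ch i).image c.pc := by
  intro p hp
  obtain ⟨y, hy, rfl⟩ := mem_image.1 hp
  simp only [Ch, mem_filter] at hy
  obtain ⟨hy, e, ha, hI⟩ := hy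
  have hB := (c.mem_W.1 hy).1
  have i1 := (c.pred_d hi h1.1).1
  have sd := c.src_d hi h1.1
  have o := c.op_spec hy (e ▸ h2.1) ha
  have pl := h2.2 y hy e ha
  rcases c.corner (by omega) h2.1 hy e with a | a
  · have p := c.plain_tgt hy (by rw [a.1, ← sd]; exact h1.1)
    have q : c.src (c.x (c.φ y)) = c.src (c.d i) := by rw [(c.cont' hB p.1).1, a.1, sd]
    have r := c.plain_src p.2 (q ▸ h1.1)
    have s : c.op (c.φ y) = c.α y := by
      have := r.2.2.1
      simp only [Perm.inv_def, symm_apply_apply] at this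
      unfold op; rw [← c.αα (c.φ (c.α (c.φ y))), this]
    have ha' : c.α (c.φ y) ∈ c.W := r.2.2.2.2.1 (by unfold op at s; rw [s]; exact ha)
    refine mem_image.2 ⟨c.φ y, ?_, (c.step y hB p.1).1⟩
    simp only [Ch, mem_filter]
    refine ⟨p.2, q, ha', ?_⟩
    have := c.I_adj (c.Dl_x ha) (s ▸ h1.2 _ p.2 q ha') (o.2.1 ▸ pl)
    rw [s, ← o.2.1] at *
    omega
  · have p := c.plain_src hy (e ▸ h2.1)
    have q : c.src (c.x (c.φ⁻¹ y)) = c.src (c.d i) := by rw [a.2, sd]
    have s : c.α (c.φ⁻¹ y) = c.op y := by rw [← o.2.2.2.2.2.1, c.αα]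
    have ha' : c.α (c.φ⁻¹ y) ∈ c.W := s ▸ o.1
    refine mem_image.2 ⟨c.φ⁻¹ y, ?_, (c.back hB p.1).2.1⟩
    simp only [Ch, mem_filter]
    refine ⟨p.2.1, q, ha', ?_⟩
    have o' := c.op_spec p.2.1 (q ▸ h1.1) ha'
    have pl' := h1.2 _ p.2.1 q ha'
    rw [o'.2.1, s] at pl' ⊢
    have := c.I_adj (c.Dl_x o.1).rev pl' (by rw [c.ρρ]; exact pl)
    rw [c.ρρ] at this
    omega

theorem ptr_nxt {i : ℕ} (hi : i < c.N) (hb : c.brk i = false) :
    c.ptr i = nxt (c.ptr (i - 1)) := by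
  obtain ⟨i0, h1, h2, h3⟩ := c.brk_false.1 hb
  by_cases hn : (c.Ch i).Nonempty
  swap
  · rw [(c.ptr_none h1).2 hn, (c.ptr_none h2).2]
    · rfl
    · rw [← image_nonempty (f := c.pc), ← h3, image_nonempty]; exact hn
  have hn' : (c.Ch (i - 1)).Nonempty := by
    rw [← image_nonempty (f := c.pc), ← h3, image_nonempty]; exact hn
  obtain ⟨y, hy, m, e⟩ := c.ptr_some h1 hn
  obtain ⟨z, hz, m', e'⟩ := c.ptr_some h2 hn'
  have hpc : c.pc y = c.pc z := by
    obtain ⟨z', a, b⟩ := mem_image.1 (h3 ▸ mem_image_of_mem c.pc hy)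
    obtain ⟨y', a', b'⟩ := mem_image.1 (h3.symm ▸ mem_image_of_mem c.pc hz)
    have := m y' a'; have := m' z' a
    omega
  rw [e, e']
  simp only [Ch, mem_filter] at hy hz
  obtain ⟨hy, s1, a1, -⟩ := hy
  obtain ⟨hz, s2, a2, -⟩ := hz
  have hB := (c.mem_W.1 hy).1
  have hB' := (c.mem_W.1 hz).1
  have t1 := c.mt_spec hi h1.1 hy s1 a1
  have t2 := c.mt_spec (by omega) h2.1 hz s2 a2
  have o := c.op_spec hy (s1 ▸ h1.1) a1
  have o' := c.op_spec hz (s2 ▸ h2.1) a2
  have pl := h1.2 y hy s1 a1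
  refine c.cd_nxt t2.1 t1.1 (t1.2.1 ▸ pl) ?_ ?_ <;>
  rcases c.corner hi h1.1 hy s1 with a | a
  · have p := c.plain_src hy (s1 ▸ h1.1)
    obtain rfl : z = c.φ⁻¹ y := c.src_inj hB' (c.mem_W.1 p.2.1).1
      (hpc.symm.trans (c.back hB p.1).2.1.symm) (by rw [s2, a.2])
    rw [t1.2.1, mt, if_pos a.2, c.ρρ, ← o.2.2.2.2.2.1, c.αα]
  · have p := c.plain_tgt hy (by rw [a.1, c.ρρ]; exact h2.1)
    have q := c.cont' hB p.1
    obtain rfl : z = c.φ y := c.src_inj hB' (c.mem_W.1 p.2).1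
      (hpc.symm.trans (c.step y hB p.1).1.symm) (by rw [s2, q.1, a.1, c.ρρ])
    have s : c.op (c.φ y) = c.α y := by
      have := o'.2.2.2.2.2.1
      simp only [Perm.inv_def, symm_apply_apply] at this
      rw [← c.αα (c.op (c.φ y)), this]
    rw [t1.2.1, mt, if_neg (by rw [← c.ρρ (c.d (i - 1)), ← a.1]; exact q.2), s, o.2.1]
  · have p := c.plain_src hy (s1 ▸ h1.1)
    obtain rfl : z = c.φ⁻¹ y := c.src_inj hB' (c.mem_W.1 p.2.1).1
      (hpc.symm.trans (c.back hB p.1).2.1.symm) (by rw [s2, a.2])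
    rw [mt, mt, if_pos a.2, if_pos a.1, c.ρρ, ← o.2.2.2.2.2.1, c.αα]
    exact o.2.2.1.symm
  · have p := c.plain_tgt hy (by rw [a.1, c.ρρ]; exact h2.1)
    have q := c.cont' hB p.1
    obtain rfl : z = c.φ y := c.src_inj hB' (c.mem_W.1 p.2).1
      (hpc.symm.trans (c.step y hB p.1).1.symm) (by rw [s2, q.1, a.1, c.ρρ])
    have s : c.op (c.φ y) = c.α y := by
      have := o'.2.2.2.2.2.1
      simp only [Perm.inv_def, symm_apply_apply] at this
      rw [← c.αα (c.op (c.φ y)), this]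
    rw [mt, mt, if_neg (by rw [a.1]; exact (c.d_ne_ρ hi (by omega)).symm),
      if_neg (by rw [← c.ρρ (c.d (i - 1)), ← a.1]; exact q.2), s]
    exact o.2.2.1

theorem ptr_cp {i : ℕ} (hi : i < c.N) {k : ℕ} {b : Bool} (h : c.ptr i = some (k, b)) :
    k < i ∧ c.lab (c.d i) = sg b (c.lab (c.d k)) := by
  have hs : (c.Ch i).Nonempty ∧ c.Sup i := by
    by_contra hc
    unfold ptr at h
    rw [dif_neg hc] at h
    simp at h
  obtain ⟨y, hy, -, e⟩ := c.ptr_some hs.2 hs.1
  simp only [Ch, mem_filter] at hy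
  obtain ⟨hy, s1, a1, hI⟩ := hy
  have t1 := c.mt_spec hi hs.2.1 hy s1 a1
  have := c.cd_spec t1.1 (t1.2.1 ▸ hs.2.2 y hy s1 a1)
  rw [Option.some.inj (e.symm.trans h), t1.2.1, t1.2.2] at this
  exact ⟨by omega, this.2⟩

theorem N_le : c.N ≤ c.X.card * c.P := by
  refine (card_le_card (filter_subset _ _)).trans ?_
  rw [← card_range c.P, ← card_product]
  refine card_le_card_of_injOn (fun y => (c.pc y, c.pos y)) ?_ ?_
  · intro y hy
    have := c.mem_W.1 hy
    simp [this.2, c.lt y this.1]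
  · intro y hy z hz h
    exact c.ext_pos (c.mem_W.1 hy).1 (c.mem_W.1 hz).1 (congrArg Prod.fst h) (congrArg Prod.snd h)

theorem code {M m : ℕ} (hm : m ≤ c.N) (hM : c.N ≤ M) :
    Code c.src c.lab c.ρ c.root M m c.d c.brk c.ptr where
  dist i hi k hk := ⟨fun h => by have := c.d_dist (by omega) (by omega) (Or.inl h); omega,
    c.d_ne_ρ (by omega) (by omega)⟩
  brk0 := by simp [brk]
  cont i hi hb := c.src_d (by omega) (c.brk_false.1 hb).2.1.1
  new i hi hb := by
    have hp := (c.brk_false.1 hb).2.1.1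
    refine ⟨fun h => hp (h ▸ c.root_NP), fun k hk h => ?_, fun k hk h => ?_⟩
    · have := c.src_d_inj (by omega) (by omega) hp h; omega
    · rcases c.two (by omega) hp (c.Dl_d (i := k) (by omega)).rev h with e | e
      · exact c.d_ne_ρ (by omega) (by omega) e.symm
      · have := c.d_dist (by omega) (by omega) (Or.inl (c.ρ_inj e)); omega
  nx i hi hb := c.ptr_nxt (by omega) hb
  cp i hi _ k b h := c.ptr_cp (by omega) h
  bd i hi k b h := by have := (c.ptr_cp (by omega) h).1; omega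

open Classical in
theorem nsup_card : ((range c.N).filter fun i => ¬ c.Sup i).card ≤ 2 * (c.X.card * c.NP.card) := by
  let T := c.W.filter fun y => c.src (c.x y) ∈ c.NP
  have hT : T.card ≤ c.X.card * c.NP.card := c.occ_card' _
  have h1 : ((range c.N).filter fun i => ¬ c.Sup i) ⊆ T.image (idxF c.Fst c.ord) ∪
      T.image fun z => c.I (c.src (c.x (c.α (c.φ⁻¹ z)))) := by
    intro i hi
    obtain ⟨hi, hs⟩ := mem_filter.1 hi
    have hi := mem_range.1 hi
    by_cases hp : c.src (c.d i) ∈ c.NP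
    · exact mem_union_left _ (mem_image.2 ⟨c.yy i, mem_filter.2 ⟨c.yy_W hi, hp⟩, c.yy_idx hi⟩)
    · simp only [Sup, hp, not_false_eq_true, true_and, not_forall, not_not] at hs
      obtain ⟨y, hy, e, ha, hn⟩ := hs
      refine mem_union_right _ (mem_image.2 ⟨c.op y,
        mem_filter.2 ⟨(c.op_spec hy (e ▸ hp) ha).1, hn⟩, ?_⟩)
      simp only [op, Perm.inv_def, symm_apply_apply, c.αα, e, c.I_d hi hp]
  have a := (card_le_card h1).trans (card_union_le _ _)
  have b := card_image_le (s := T) (f := idxF c.Fst c.ord)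
  have e := card_image_le (s := T) (f := fun z => c.I (c.src (c.x (c.α (c.φ⁻¹ z)))))
  omega

theorem brk_card : ((range c.N).filter fun i => c.brk i = true).card ≤
    (c.X.card + 1) * (4 * (c.X.card * c.NP.card) + 2) := by
  classical
  let S := (range c.N).filter fun i => ¬ c.Sup i
  let R := (range c.N).filter fun i => ¬ (i ≠ 0 ∧ c.Sup i ∧ c.Sup (i - 1))
  have hS : S.card ≤ 2 * (c.X.card * c.NP.card) := c.nsup_card
  have hR : R.card ≤ 4 * (c.X.card * c.NP.card) + 1 := by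
    have : R ⊆ insert 0 (S ∪ S.image (· + 1)) := by
      intro i hi
      simp only [R, S, mem_filter, mem_range, mem_insert, mem_union, mem_image] at hi ⊢
      by_cases h0 : i = 0
      · exact Or.inl h0
      by_cases h1 : c.Sup i
      · exact Or.inr (Or.inr ⟨i - 1, ⟨by omega, fun h => hi.2 ⟨h0, h1, h⟩⟩, by omega⟩)
      · exact Or.inr (Or.inl ⟨hi.1, h1⟩)
    have a := (card_le_card this).trans (card_insert_le _ _)
    have b := card_union_le S (S.image (· + 1))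
    have e := card_image_le (s := S) (f := (· + 1))
    omega
  let u : ℕ → ℕ := fun i => ((c.Ch i).image c.pc).card
  have hu : ∀ i, u i ≤ c.X.card := fun i => card_le_card fun p hp => by
    obtain ⟨y, hy, rfl⟩ := mem_image.1 hp
    exact (c.mem_W.1 (mem_filter.1 hy).1).2
  have key : ∀ m ≤ c.N, ((range m).filter fun i => c.brk i = true).card ≤ u (m - 1) +
      (c.X.card + 1) * ((range m).filter fun i => ¬ (i ≠ 0 ∧ c.Sup i ∧ c.Sup (i - 1))).card := by
    intro m
    induction m with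
    | zero => simp
    | succ m ih =>
      intro hm
      have ih := ih (by omega)
      rw [range_add_one, filter_insert, filter_insert, Nat.add_sub_cancel]
      by_cases h : m ≠ 0 ∧ c.Sup m ∧ c.Sup (m - 1)
      · rw [if_neg (not_not.2 h)]
        have hsub := c.Ch_mono (by omega) h.2.1 h.2.2
        split_ifs with hb
        · rw [card_insert_of_notMem (by simp)]
          have : u (m - 1) < u m := card_lt_card ⟨hsub, fun h' => by
            have := c.brk_false.2 ⟨h.1, h.2.1, h.2.2, Subset.antisymm h' hsub⟩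
            simp [this] at hb⟩
          omega
        · have : u (m - 1) ≤ u m := card_le_card hsub
          omega
      · rw [if_pos h, card_insert_of_notMem (s := filter _ _) (a := m) (by simp)]
        have := hu (m - 1)
        have e := card_insert_le m ((range m).filter fun i => c.brk i = true)
        split_ifs <;> nlinarith
  have := key c.N le_rfl
  have := hu (c.N - 1)
  have := Nat.mul_le_mul_left (c.X.card + 1) hR
  simp only [R] at this
  nlinarith

end Cf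

end Vale.Agent.P201
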