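import Vale.Agent.P201.Ops

namespace Vale.Agent.P201

open Finset Equiv

/-- a folded labelled graph with a group of positions -/
structure LG (Gen D V G : Type) [Group G] where
  src : D → V
  rev : D → D
  lab : D → Gen × Bool
  lt : Gen × Bool → G
  rr : ∀ t, rev (rev t) = t
  lr : ∀ t, lab (rev t) = iv (lab t)
  fold : ∀ t t', src t = src t' → lab t = lab t' → t = t'
  lti : ∀ s, lt (iv s) = (lt s)⁻¹

variable {Gen D V G : Type} [Group G] {Γ : LG Gen D V G}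

/-- antisymmetric cochains -/
def LG.Anti (Γ : LG Gen D V G) {M : Type} [AddCommGroup M] (η : G × D → M) : Prop :=
  ∀ g t, η (g * Γ.lt (Γ.lab t), Γ.rev t) = - η (g, t)

/-- reduction of chains -/
def LG.Rd (Γ : LG Gen D V G) (z z' : Multiset (G × D)) : Prop :=
  z' ≤ z ∧ ∀ (M : Type) [AddCommGroup M] (η : G × D → M), Γ.Anti η →
    (z'.map η).sum = (z.map η).sum

theorem LG.Rd.refl (z : Multiset (G × D)) : Γ.Rd z z := ⟨le_rfl, fun _ _ _ _ => rfl⟩

theorem LG.Rd.trans {z z' z'' : Multiset (G × D)} (h : Γ.Rd z z') (h' : Γ.Rd z' z'') :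
    Γ.Rd z z'' := ⟨h'.1.trans h.1, fun M _ η hη => (h'.2 M η hη).trans (h.2 M η hη)⟩

/-- planar diagrams with a marked edge -/
structure Str (Γ : LG Gen D V G) where
  φ : Perm ℕ
  α : Perm ℕ
  A : Finset ℕ
  st : ℕ
  x : ℕ → D
  sv : ℕ → V
  c : ℕ → G
  αα : ∀ d, α (α d) = d
  α_ne : ∀ d, α d ≠ d
  pl : Planar φ α
  Aα : ∀ d ∈ A, α d ∈ A
  stA : st ∉ A
  off : ∀ d, d ∉ A → d ≠ st → d ≠ α st → φ d = d
  labα : ∀ d ∈ A, Γ.lab (x (α d)) = iv (Γ.lab (x d))
  sv1 : ∀ d ∈ A, sv d = Γ.src (x d)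
  sv2 : ∀ d ∈ A, sv (φ d) = Γ.src (Γ.rev (x d))
  c1 : ∀ d ∈ A, c (φ d) = c d * Γ.lt (Γ.lab (x d))
  c2 : ∀ d, d ∈ A ∨ d = st ∨ d = α st → c (φ (α d)) = c d

namespace Str

variable (S : Str Γ)

/-- the chain of a diagram -/
def ms : Multiset (G × D) := S.A.val.map fun d => (S.c d, S.x d)

theorem αstA : S.α S.st ∉ S.A := fun h => S.stA (S.αα S.st ▸ S.Aα _ h)

theorem φ_mem {d : ℕ} (h : d ∈ S.A ∨ d = S.st ∨ d = S.α S.st) :
    S.φ d ∈ S.A ∨ S.φ d = S.st ∨ S.φ d = S.α S.st := by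
  by_contra hc
  push Not at hc
  have := S.φ.injective (S.off _ hc.1 hc.2.1 hc.2.2)
  rw [this] at hc
  tauto

theorem fresh : ∃ a, (a ∉ S.A ∧ a ≠ S.st ∧ a ≠ S.α S.st) ∧
    (S.α a ∉ S.A ∧ S.α a ≠ S.st ∧ S.α a ≠ S.α S.st) := by
  obtain ⟨a, ha⟩ := Infinite.exists_notMem_finset (insert S.st (insert (S.α S.st) S.A))
  simp only [mem_insert, not_or] at ha
  exact ⟨a, ⟨ha.2.2, ha.1, ha.2.1⟩, fun h => ha.2.2 (S.αα a ▸ S.Aα _ h),
    fun h => ha.2.1 (by rw [← h, S.αα]), S.α.injective.ne ha.1⟩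

/-- final form -/
def Fin (root : V) (ok : V → Prop) : Prop :=
  S.φ S.st = S.st ∧ S.sv (S.φ (S.α S.st)) = root ∧ ok (S.sv (S.α S.st))

theorem del_step {root : V} {ok : V → Prop} (hF : S.Fin root ok) {d : ℕ} (hd : d ∈ S.A)
    (h : S.x (S.α d) = Γ.rev (S.x d)) :
    ∃ S' : Str Γ, S'.Fin root ok ∧ S'.A.card < S.A.card ∧ Γ.Rd S.ms S'.ms := by
  have hne : d ≠ S.α d := (S.α_ne d).symm
  have hd' := S.Aα d hd
  have s1 : S.sv (S.φ (S.α d)) = S.sv d := by rw [S.sv2 _ hd', h, Γ.rr, S.sv1 d hd]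
  have s2 : S.sv (S.φ d) = S.sv (S.α d) := by rw [S.sv2 _ hd, S.sv1 _ hd', h]
  have t1 : S.c (S.φ (S.α d)) = S.c d := S.c2 d (Or.inl hd)
  have t2 : S.c (S.φ d) = S.c (S.α d) := by
    have := S.c2 _ (Or.inl hd'); rwa [S.αα] at this
  have n1 : ∀ y, y ≠ d → y ≠ S.α d → S.α y ≠ d ∧ S.α y ≠ S.α d := fun y a c =>
    ⟨fun e => c (by rw [← e, S.αα]), S.α.injective.ne a⟩
  have n2 : S.st ≠ d ∧ S.st ≠ S.α d := ⟨fun e => S.stA (e ▸ hd), fun e => S.stA (e ▸ hd')⟩
  have fx : ∀ y, y ≠ d → y ≠ S.α d → S.φ y = y → del S.φ d (S.α d) y = y := by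
    intro y a b e
    have := del_F (fun z => z = y) (φ := S.φ) hne (y := y) (propext ⟨fun h => absurd
      (S.φ.injective (h.trans e.symm)).symm b, fun h => absurd h.symm a⟩) (propext ⟨fun h => absurd
      (S.φ.injective (h.trans e.symm)).symm a, fun h => absurd h.symm b⟩) a b
    simpa [e] using this
  refine ⟨{ S with
    φ := del S.φ d (S.α d), A := (S.A.erase d).erase (S.α d), pl := planar_del S.αα S.pl hne,
    Aα := ?_, stA := ?_, off := ?_, labα := ?_, sv1 := ?_, sv2 := ?_, c1 := ?_, c2 := ?_ },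
    ⟨fx _ n2.1 n2.2 hF.1, ?_, hF.2.2⟩, ?_, ?_⟩
  · intro y hy
    simp only [mem_erase] at hy ⊢
    exact ⟨(n1 y hy.2.1 hy.1).2, (n1 y hy.2.1 hy.1).1, S.Aα y hy.2.2⟩
  · simp [S.stA]
  · intro y hy a b
    by_cases e1 : y = d
    · rw [e1]; exact sk2_left _ hne
    by_cases e2 : y = S.α d
    · rw [e2]; exact sk2_right _ _ _
    exact fx y e1 e2 (S.off y (by simpa [e1, e2] using hy) a b)
  · intro y hy; exact S.labα y (mem_of_mem_erase (mem_of_mem_erase hy))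
  · intro y hy; exact S.sv1 y (mem_of_mem_erase (mem_of_mem_erase hy))
  · intro y hy
    simp only [mem_erase] at hy
    rw [del_F S.sv hne s1 s2 hy.2.1 hy.1]; exact S.sv2 y hy.2.2
  · intro y hy
    simp only [mem_erase] at hy
    rw [del_F S.c hne t1 t2 hy.2.1 hy.1]; exact S.c1 y hy.2.2
  · intro y hy
    simp only [mem_erase] at hy
    have : y ≠ d ∧ y ≠ S.α d := by
      rcases hy with a | a | a
      · exact ⟨a.2.1, a.1⟩
      · exact a ▸ n2
      · exact a ▸ n1 _ n2.1 n2.2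
    rw [del_F S.c hne t1 t2 (n1 y this.1 this.2).1 (n1 y this.1 this.2).2]
    exact S.c2 y (by tauto)
  · exact (del_F S.sv hne s1 s2 (n1 _ n2.1 n2.2).1 (n1 _ n2.1 n2.2).2).trans hF.2.1
  · exact lt_of_le_of_lt card_erase_le (card_erase_lt_of_mem hd)
  · have e : S.A.val = d ::ₘ S.α d ::ₘ ((S.A.erase d).erase (S.α d)).val := by
      rw [erase_val, erase_val, Multiset.cons_erase, Multiset.cons_erase hd]
      exact (Multiset.mem_erase_of_ne hne.symm).2 hd'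
    unfold ms
    rw [e]
    refine ⟨?_, fun M _ η hη => ?_⟩
    · simp only [Multiset.map_cons]
      exact (Multiset.le_cons_self _ _).trans (Multiset.le_cons_self _ _)
    · simp only [Multiset.map_cons, Multiset.sum_cons]
      rw [h, ← t2, S.c1 d hd, hη]; simp

theorem fold_step {root : V} {ok : V → Prop} (hF : S.Fin root ok) {d : ℕ} (hd : d ∈ S.A)
    (he : S.φ d ∈ S.A) (h : S.x (S.φ d) = Γ.rev (S.x d)) :
    ∃ S' : Str Γ, S'.Fin root ok ∧ S'.A.card < S.A.card ∧ Γ.Rd S.ms S'.ms := by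
  by_cases h2 : S.α d = S.φ d
  · exact S.del_step hF hd (h2 ▸ h)
  have h1 : d ≠ S.φ d := fun e => iv_ne (Γ.lab (S.x d)) (by rw [← Γ.lr, ← h, ← e])
  obtain ⟨f1, f2, f3, f4, f5⟩ := fold_spec S.αα S.α_ne h1
  have pl := planar_fold S.αα S.α_ne S.pl h1 h2
  have ii : ∀ y, (swap (S.φ d) (S.α d) * S.α * swap (S.φ d) (S.α d))
      ((swap (S.φ d) (S.α d) * S.α * swap (S.φ d) (S.α d)) y) = y := fun y => by simp [S.αα]
  generalize swap (S.φ d) (S.α d) * S.α * swap (S.φ d) (S.α d) = α' at *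
  have hd' := S.Aα d hd
  have he' := S.Aα _ he
  have o : ∀ y, y ∉ S.A → α' y = S.α y := fun y hy => f5 y (fun e => hy (e ▸ hd))
    (fun e => hy (e ▸ he)) (fun e => hy (e ▸ hd')) (fun e => hy (e ▸ he'))
  have ost := o _ S.stA
  have cs : ∀ P : ℕ → Prop, P d → P (S.φ d) → P (S.α d) → P (S.α (S.φ d)) →
      (∀ y, α' y = S.α y → P y) → ∀ y, P y := by
    intro P a1 a2 a3 a4 a5 y
    by_contra hc
    exact hc (a5 y (f5 y (fun e => hc (e ▸ a1)) (fun e => hc (e ▸ a2)) (fun e => hc (e ▸ a3))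
      (fun e => hc (e ▸ a4))))
  have l1 : Γ.lab (S.x (S.φ d)) = iv (Γ.lab (S.x d)) := by rw [h, Γ.lr]
  have t1 : S.c (S.φ (S.φ d)) = S.c d := by rw [S.c1 _ he, S.c1 _ hd, l1, Γ.lti]; simp
  have t2 := S.c2 _ (Or.inl hd')
  have t3 := S.c2 _ (Or.inl he')
  rw [S.αα] at t2 t3
  let S' : Str Γ := { S with
    α := α', αα := ii, pl := pl,
    α_ne := cs _ (by rw [f1]; exact h1.symm) (by rw [f2]; exact h1)
      (by rw [f3]; exact S.α.injective.ne h1.symm) (by rw [f4]; exact S.α.injective.ne h1)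
      fun y e => e ▸ S.α_ne y,
    Aα := cs _ (fun _ => f1 ▸ he) (fun _ => by rw [f2]; exact hd) (fun _ => f3 ▸ he')
      (fun _ => f4 ▸ hd') fun y e hy => e ▸ S.Aα y hy,
    off := fun y a b e => S.off y a b (ost ▸ e),
    labα := cs _ (fun _ => by rw [f1, l1]) (fun _ => by rw [f2, l1, iv_iv])
      (fun _ => by rw [f3, S.labα _ he, S.labα _ hd, l1])
      (fun _ => by rw [f4, S.labα _ he, S.labα _ hd, l1, iv_iv])
      fun y e hy => e ▸ S.labα y hy,
    c2 := cs _ (fun _ => by rw [f1, t1]) (fun _ => by rw [f2])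
      (fun _ => by rw [f3, S.c2 _ (Or.inl he), t2])
      (fun _ => by rw [f4, S.c2 _ (Or.inl hd), ← t3, t1])
      fun y e hy => e ▸ S.c2 y (ost ▸ hy) }
  exact S'.del_step (root := root) (ok := ok) ⟨hF.1, by
    show S.sv (S.φ (α' S.st)) = root
    rw [ost]; exact hF.2.1, by
    show ok (S.sv (α' S.st))
    rw [ost]; exact hF.2.2⟩ hd (by show S.x (α' d) = _; rw [f1, h])

theorem exists_min {root : V} {ok : V → Prop} (n : ℕ) : ∀ S : Str Γ, S.A.card = n →
    S.Fin root ok → ∃ S' : Str Γ, S'.Fin root ok ∧ Γ.Rd S.ms S'.ms ∧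
      (∀ d ∈ S'.A, S'.x (S'.α d) ≠ Γ.rev (S'.x d)) ∧
      ∀ d ∈ S'.A, S'.φ d ∈ S'.A → S'.x (S'.φ d) ≠ Γ.rev (S'.x d) := by
  induction n using Nat.strong_induction_on with
  | _ n ih =>
    intro S hn hF
    by_cases h : ∃ S' : Str Γ, S'.Fin root ok ∧ S'.A.card < S.A.card ∧ Γ.Rd S.ms S'.ms
    · obtain ⟨S', a, b, c⟩ := h
      obtain ⟨S'', e, f, g⟩ := ih _ (hn ▸ b) S' rfl a
      exact ⟨S'', e, c.trans f, g⟩
    · exact ⟨S, hF, LG.Rd.refl _, fun d hd e => h (S.del_step hF hd e),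
        fun d hd he e => h (S.fold_step hF hd he e)⟩

/-- construction stage -/
def Stage (p0 p1 : V) (g0 g1 : G) (u v : V) : Prop :=
  S.sv (S.φ S.st) = p0 ∧ S.sv S.st = p1 ∧ S.c (S.α S.st) = g0 ∧ S.c S.st = g1 ∧
    S.sv (S.α S.st) = u ∧ S.sv (S.φ (S.α S.st)) = v ∧ S.φ (S.α S.st) ≠ S.st

theorem init (t0 : D) (p : V) (g : G) (u : V) : ∃ S : Str Γ, S.Stage p p g g u u ∧
    S.φ (S.α S.st) = S.α S.st ∧ S.ms = 0 := by
  let r : ℕ → ℕ := fun n => if n % 2 = 0 then n + 1 else n - 1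
  have hr : Function.Involutive r := fun n => by simp only [r]; split_ifs <;> omega
  refine ⟨{
    φ := 1, α := hr.toPerm, A := ∅, st := 0, x := fun _ => t0,
    sv := fun n => if n = 0 then p else u, c := fun _ => g, αα := hr,
    α_ne := fun n => by show r n ≠ n; simp only [r]; split_ifs <;> omega,
    pl := fun b _ => ⟨b, fun _ => rfl, fun d => by simp [z2]⟩,
    Aα := by simp, stA := by simp, off := by simp, labα := by simp, sv1 := by simp,
    sv2 := by simp, c1 := by simp, c2 := by simp }, ?_, rfl, rfl⟩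
  simp [Stage, r]

theorem close_step {p0 p1 u : V} {g : G} (h : S.Stage p0 p1 g g u u) (u' : V) :
    ∃ S' : Str Γ, S'.Stage p0 p1 g g u' u' ∧ S'.φ (S'.α S'.st) = S'.α S'.st ∧ S'.ms = S.ms := by
  obtain ⟨h1, h2, h3, h4, h5, h6, -⟩ := h
  have s1 : S.sv (S.φ (S.α S.st)) = S.sv (S.α S.st) := by rw [h5, h6]
  have t1 : S.c (S.φ (S.α S.st)) = S.c (S.α S.st) := by rw [S.c2 _ (by simp), h3, h4]
  have n1 : ∀ y ∈ S.A, y ≠ S.α S.st := fun y hy e => S.αstA (e ▸ hy)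
  have n2 : S.st ≠ S.α S.st := (S.α_ne _).symm
  refine ⟨{ S with
    φ := skip S.φ (S.α S.st), sv := Function.update S.sv (S.α S.st) u', pl := planar_skip S.pl _,
    off := ?_, sv1 := ?_, sv2 := ?_, c1 := ?_, c2 := ?_ }, ⟨?_, ?_, h3, h4, ?_, ?_, ?_⟩,
    skip_self _ _, rfl⟩
  · intro y a b e
    rw [skip_eq e (by rw [S.off y a b e]; exact e), S.off y a b e]
  · intro y hy; rw [Function.update_of_ne (n1 y hy)]; exact S.sv1 y hy
  · intro y hy
    rw [Function.update_of_ne (skip_ne (n1 y hy)), skip_F S.sv s1 (n1 y hy)]; exact S.sv2 y hy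
  · intro y hy; rw [skip_F S.c t1 (n1 y hy)]; exact S.c1 y hy
  · intro y hy
    by_cases e : y = S.st
    · rw [e, skip_self, h3, h4]
    · rw [skip_F S.c t1 (S.α.injective.ne e)]; exact S.c2 y hy
  · show Function.update S.sv _ _ _ = _
    rw [Function.update_of_ne (skip_ne n2), skip_F S.sv s1 n2, h1]
  · show Function.update S.sv _ _ _ = _
    rw [Function.update_of_ne n2, h2]
  · show Function.update S.sv _ _ _ = _
    simp
  · show Function.update S.sv _ _ _ = _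
    simp
  · show skip _ _ _ ≠ _
    simpa using n2.symm

theorem fin_step {p u v : V} {g : G} (h : S.Stage p p g g u v) :
    ∃ S' : Str Γ, S'.Fin v (· = u) ∧ S'.ms = S.ms := by
  obtain ⟨h1, h2, h3, h4, h5, h6, -⟩ := h
  have s1 : S.sv (S.φ S.st) = S.sv S.st := by rw [h1, h2]
  have t1 : S.c (S.φ S.st) = S.c S.st := by
    have := S.c2 (S.α S.st) (by simp)
    rw [S.αα] at this; rw [this, h3, h4]
  have n1 : ∀ y ∈ S.A, y ≠ S.st := fun y hy e => S.stA (e ▸ hy)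
  refine ⟨{ S with
    φ := skip S.φ S.st, pl := planar_skip S.pl _,
    off := ?_, sv2 := ?_, c1 := ?_, c2 := ?_ }, ⟨skip_self _ _, ?_, h5⟩, rfl⟩
  · intro y a b e
    rw [skip_eq b (by rw [S.off y a b e]; exact b), S.off y a b e]
  · intro y hy; rw [skip_F S.sv s1 (n1 y hy)]; exact S.sv2 y hy
  · intro y hy; rw [skip_F S.c t1 (n1 y hy)]; exact S.c1 y hy
  · intro y hy
    by_cases e : y = S.α S.st
    · rw [e, S.αα, skip_self, h3, h4]
    · rw [skip_F S.c t1 (fun h => e (by rw [← h, S.αα]))]; exact S.c2 y hy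
  · exact (skip_F S.sv s1 (S.α_ne _)).trans h6

theorem ms_ins {a : ℕ} (ha : a ∉ S.A) (ha' : S.α a ∉ S.A) (c' : ℕ → G) (x' : ℕ → D)
    (hc : ∀ y ∈ S.A, c' y = S.c y) (hx : ∀ y ∈ S.A, x' y = S.x y) :
    ((insert a (insert (S.α a) S.A)).val.map fun d => (c' d, x' d)) =
      (c' a, x' a) ::ₘ (c' (S.α a), x' (S.α a)) ::ₘ S.ms := by
  rw [insert_val_of_notMem (by simp [ha, (S.α_ne a).symm]), insert_val_of_notMem ha']
  simp only [Multiset.map_cons, ms]
  congr 2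
  exact Multiset.map_congr rfl fun y hy => by rw [hc y hy, hx y hy]

theorem app_step {p0 u : V} {g0 g1 : G} {τ t : D} (h : S.Stage p0 (Γ.src τ) g0 g1 u (Γ.src t))
    (hl : Γ.lab τ = Γ.lab t) :
    ∃ S' : Str Γ, S'.Stage p0 (Γ.src (Γ.rev τ)) g0 (g1 * Γ.lt (Γ.lab t)) u (Γ.src (Γ.rev t)) ∧
      S'.ms = (g1, τ) ::ₘ (g1 * Γ.lt (Γ.lab t), Γ.rev t) ::ₘ S.ms := by
  obtain ⟨h1, h2, h3, h4, h5, h6, h7⟩ := h
  obtain ⟨a, ⟨a1, a2, a3⟩, b1, b2, b3⟩ := S.fresh
  have ab : a ≠ S.α a := (S.α_ne a).symm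
  have n2 : S.st ≠ S.α S.st := (S.α_ne _).symm
  obtain ⟨φ1, φ', e1, e2, e3, e4, e5, e6, e7, e8, -⟩ := ins_spec (φ := S.φ) (s := S.st)
    (p0 := S.α S.st) (S.off a a1 a2 a3) (S.off _ b1 b2 b3) ab b2 a3
  have fy : ∀ p, p ≠ S.α a → S.φ p ≠ S.α a := fun p hp e =>
    hp (S.φ.injective (e.trans (S.off _ b1 b2 b3).symm))
  have key : ∀ {β : Type} (F : ℕ → β) (va vb vs : β), va = F S.st → ∀ p, p ≠ a → p ≠ S.α a →
      (fun z => if z = a then va else if z = S.α a then vb else if z = S.st then vs else F z)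
        (φ1 p) = F (S.φ p) := by
    intro β F va vb vs hv p p1 p2
    rcases e7 p p1 with ⟨q1, q2⟩ | ⟨q1, q2, q3⟩
    · simp [q1, q2, hv]
    · simp [q1, q2, q3, fy p p2]
  have nA : ∀ y ∈ S.A, y ≠ a ∧ y ≠ S.α a ∧ y ≠ S.st ∧ y ≠ S.α S.st := fun y hy =>
    ⟨fun e => a1 (e ▸ hy), fun e => b1 (e ▸ hy), fun e => S.stA (e ▸ hy),
      fun e => S.αstA (e ▸ hy)⟩
  let sv' : ℕ → V := fun z => if z = a then Γ.src τ else if z = S.α a then Γ.src (Γ.rev t) else
    if z = S.st then Γ.src (Γ.rev τ) else S.sv z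
  let c' : ℕ → G := fun z => if z = a then g1 else if z = S.α a then g1 * Γ.lt (Γ.lab t) else
    if z = S.st then g1 * Γ.lt (Γ.lab t) else S.c z
  let x' : ℕ → D := fun z => if z = a then τ else if z = S.α a then Γ.rev t else S.x z
  have ks : ∀ p, p ≠ a → p ≠ S.α a → sv' (φ1 p) = S.sv (S.φ p) := key S.sv _ _ _ h2.symm
  have kc : ∀ p, p ≠ a → p ≠ S.α a → c' (φ1 p) = S.c (S.φ p) := key S.c _ _ _ h4.symm
  have cq : S.c (S.φ (S.α S.st)) = g1 := by rw [S.c2 _ (by simp), h4]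
  refine ⟨{ S with
    φ := φ', A := insert a (insert (S.α a) S.A), x := x', sv := sv', c := c', pl := ?_,
    Aα := ?_, stA := ?_, off := ?_, labα := ?_, sv1 := ?_, sv2 := ?_, c1 := ?_, c2 := ?_ },
    ⟨?_, ?_, ?_, ?_, ?_, ?_, ?_⟩, ?_⟩
  · refine planar_ins S.αα ab (e8 ▸ S.pl) (fun z => if z = S.st ∨ z = S.α a then 1 else 0) ?_ ?_ ?_
    · intro y
      by_cases q1 : y = S.st
      · simp [q1, e1]
      by_cases q2 : y = S.α a
      · simp [q2, S.αα, e3]
      rw [if_neg, if_neg (by tauto)]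
      rintro (e | e)
      · exact q2 (by rw [← φ'.injective (e.trans e3.symm), S.αα])
      · exact q1 (S.α.injective (φ'.injective (e.trans e1.symm)))
    · simp [e3, a2, ab]
    · intro F f1 f2 _
      rw [← f2, e3, ← f1 _ a2.symm b2.symm, e1]
  · intro y hy
    simp only [mem_insert] at hy ⊢
    rcases hy with rfl | rfl | hy
    · simp
    · simp [S.αα]
    · exact Or.inr (Or.inr (S.Aα y hy))
  · simp [a2.symm, b2.symm, S.stA]
  · intro y hy q1 q2
    simp only [mem_insert, not_or] at hy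
    rw [e4 y q2 hy.2.1]
    have := S.off y hy.2.2 q1 q2
    rcases e7 y hy.1 with ⟨r1, -⟩ | ⟨-, -, r3⟩
    · exact absurd (this.symm.trans r1) q1
    · rw [r3, this]
  · intro y hy
    simp only [mem_insert] at hy
    rcases hy with rfl | rfl | hy
    · simp [x', ab.symm, Γ.lr, hl]
    · simp [x', ab.symm, Γ.lr, hl, S.αα]
    · simp [x', nA y hy, nA _ (S.Aα y hy), S.labα y hy]
  · intro y hy
    simp only [mem_insert] at hy
    rcases hy with rfl | rfl | hy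
    · simp [x', sv']
    · simp [x', sv', ab.symm]
    · simp [x', sv', nA y hy, S.sv1 y hy]
  · intro y hy
    simp only [mem_insert] at hy
    rcases hy with rfl | rfl | hy
    · simp [x', sv', e3, a2.symm, b2.symm]
    · rw [e2, ks _ a3.symm b3.symm, h6]; simp [x', ab.symm, Γ.rr]
    · rw [e4 y (nA y hy).2.2.2 (nA y hy).2.1, ks y (nA y hy).1 (nA y hy).2.1, S.sv2 y hy]
      simp [x', nA y hy]
  · intro y hy
    simp only [mem_insert] at hy
    rcases hy with rfl | rfl | hy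
    · simp [x', c', e3, a2.symm, b2.symm, hl]
    · rw [e2, kc _ a3.symm b3.symm, cq]; simp [x', c', ab.symm, Γ.lr, Γ.lti]
    · rw [e4 y (nA y hy).2.2.2 (nA y hy).2.1, kc y (nA y hy).1 (nA y hy).2.1, S.c1 y hy]
      simp [x', c', nA y hy]
  · intro y hy
    simp only [mem_insert] at hy
    rcases hy with (rfl | rfl | hy) | rfl | rfl
    · rw [e2, kc _ a3.symm b3.symm, cq]; simp [c']
    · rw [S.αα, e3]; simp [c', a2.symm, b2.symm, ab.symm]
    · have q := nA _ (S.Aα y hy)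
      rw [e4 _ q.2.2.2 q.2.1, kc _ q.1 q.2.1, S.c2 y (Or.inl hy)]
      simp [c', nA y hy]
    · rw [e1]; simp [c', a2.symm, b2.symm, ab.symm]
    · rw [S.αα, e4 _ n2 b2.symm, kc _ a2.symm b2.symm, ← S.αα S.st, S.c2 _ (by simp), S.αα]
      simp [c', a3.symm, b3.symm, n2.symm]
  · show sv' (φ' S.st) = _
    rw [e4 _ n2 b2.symm, ks _ a2.symm b2.symm, h1]
  · show sv' S.st = _
    simp [sv', a2.symm, b2.symm]
  · show c' (S.α S.st) = _
    simp [c', a3.symm, b3.symm, n2.symm, h3]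
  · show c' S.st = _
    simp [c', a2.symm, b2.symm]
  · show sv' (S.α S.st) = _
    simp [sv', a3.symm, b3.symm, n2.symm, h5]
  · show sv' (φ' (S.α S.st)) = _
    simp [sv', e1, ab.symm]
  · show φ' (S.α S.st) ≠ S.st
    rw [e1]; exact b2
  · refine (S.ms_ins a1 b1 c' x' (fun y hy => by simp [c', nA y hy])
      (fun y hy => by simp [x', nA y hy])).trans ?_
    simp [c', x', ab.symm]

theorem conj_step {u : V} {g : G} {τ τ' : D}
    (h : S.Stage (Γ.src (Γ.rev τ)) (Γ.src τ') (g * Γ.lt (Γ.lab τ)) (g * Γ.lt (Γ.lab τ)) u u)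
    (h0 : S.φ (S.α S.st) = S.α S.st) (hl : Γ.lab τ' = iv (Γ.lab τ)) :
    ∃ S' : Str Γ, S'.Stage (Γ.src τ) (Γ.src (Γ.rev τ')) g g u u ∧
      S'.φ (S'.α S'.st) = S'.α S'.st ∧
      S'.ms = (g * Γ.lt (Γ.lab τ), τ') ::ₘ (g, τ) ::ₘ S.ms := by
  obtain ⟨h1, h2, h3, h4, h5, h6, h7⟩ := h
  obtain ⟨a, ⟨a1, a2, a3⟩, b1, b2, b3⟩ := S.fresh
  have ab : a ≠ S.α a := (S.α_ne a).symm
  have n2 : S.st ≠ S.α S.st := (S.α_ne _).symm
  obtain ⟨φ1, φ', e1, e2, e3, e4, e5, e6, e7, -, e8⟩ := ins_spec (φ := S.φ) (s := S.st)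
    (p0 := S.st) (S.off a a1 a2 a3) (S.off _ b1 b2 b3) ab b2 a2
  have fy : ∀ p, p ≠ S.α a → S.φ p ≠ S.α a := fun p hp e =>
    hp (S.φ.injective (e.trans (S.off _ b1 b2 b3).symm))
  have e9 : φ1 (S.α S.st) = S.α S.st := by
    rcases e7 _ a3.symm with ⟨q1, -⟩ | ⟨-, -, q3⟩
    · exact absurd q1 h7
    · rw [q3, h0]
  have e10 : φ' (S.α S.st) = S.α S.st := by rw [e4 _ n2.symm b3.symm, e9]
  have key : ∀ {β : Type} (F : ℕ → β) (va vb vs vs' : β), va = F S.st → ∀ p, p ≠ a → p ≠ S.α a →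
      p ≠ S.α S.st →
      (fun z => if z = a then va else if z = S.α a then vb else if z = S.st then vs else
        if z = S.α S.st then vs' else F z) (φ1 p) = F (S.φ p) := by
    intro β F va vb vs vs' hv p p1 p2 p3
    rcases e7 p p1 with ⟨q1, q2⟩ | ⟨q1, q2, q3⟩
    · simp [q1, q2, hv]
    · have : S.φ p ≠ S.α S.st := fun e => p3 (S.φ.injective (e.trans h0.symm))
      simp [q1, q2, q3, fy p p2, this]
  have nA : ∀ y ∈ S.A, y ≠ a ∧ y ≠ S.α a ∧ y ≠ S.st ∧ y ≠ S.α S.st := fun y hy =>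
    ⟨fun e => a1 (e ▸ hy), fun e => b1 (e ▸ hy), fun e => S.stA (e ▸ hy),
      fun e => S.αstA (e ▸ hy)⟩
  let sv' : ℕ → V := fun z => if z = a then Γ.src τ' else if z = S.α a then Γ.src τ else
    if z = S.st then Γ.src (Γ.rev τ') else if z = S.α S.st then u else S.sv z
  let c' : ℕ → G := fun z => if z = a then g * Γ.lt (Γ.lab τ) else if z = S.α a then g else
    if z = S.st then g else if z = S.α S.st then g else S.c z
  let x' : ℕ → D := fun z => if z = a then τ' else if z = S.α a then τ else S.x z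
  have ks : ∀ p, p ≠ a → p ≠ S.α a → p ≠ S.α S.st → sv' (φ1 p) = S.sv (S.φ p) :=
    key S.sv _ _ _ _ h2.symm
  have kc : ∀ p, p ≠ a → p ≠ S.α a → p ≠ S.α S.st → c' (φ1 p) = S.c (S.φ p) :=
    key S.c _ _ _ _ h4.symm
  have cq : S.c (S.φ S.st) = g * Γ.lt (Γ.lab τ) := by
    rw [← S.αα S.st, S.c2 _ (by simp), h3]
  refine ⟨{ S with
    φ := φ', A := insert a (insert (S.α a) S.A), x := x', sv := sv', c := c', pl := ?_,
    Aα := ?_, stA := ?_, off := ?_, labα := ?_, sv1 := ?_, sv2 := ?_, c1 := ?_, c2 := ?_ },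
    ⟨?_, ?_, ?_, ?_, ?_, ?_, ?_⟩, e10, ?_⟩
  · refine planar_ins (t := S.α a) S.αα (S.α_ne _).symm (by rw [S.αα, e8]; exact S.pl)
      (fun z => if z = S.st ∨ z = S.α a ∨ z = S.α S.st then 1 else 0) ?_ ?_ ?_
    · intro y
      by_cases q1 : y = S.st
      · simp [q1, e10]
      by_cases q2 : y = S.α a
      · simp [q2, S.αα, e3]
      by_cases q3 : y = S.α S.st
      · simp [q3, S.αα, e1]
      rw [if_neg, if_neg (by tauto)]
      rintro (e | e | e)
      · exact q2 (by rw [← φ'.injective (e.trans e3.symm), S.αα])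
      · exact q3 (by rw [← φ'.injective (e.trans e1.symm), S.αα])
      · exact q1 (S.α.injective (φ'.injective (e.trans e10.symm)))
    · have r1 : φ1 S.st ≠ S.st := fun e => a2 (φ1.injective (e5.trans e.symm))
      have r2 : φ1 S.st ≠ S.α a := fun e => b2 (φ1.injective (e6.trans e.symm))
      have r3 : φ1 S.st ≠ S.α S.st := fun e => n2 (φ1.injective (e.trans e9.symm))
      simp [e2, r1, r2, r3]
    · intro F f1 _ f3
      rw [S.αα] at f1 f3 ⊢
      have u1 := f1 _ b3.symm a3.symm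
      have u2 := f1 _ b2.symm a2.symm
      rw [S.αα, e1] at u1
      rw [e10] at u2
      rw [u1, u2, ← f3, e3]
  · intro y hy
    simp only [mem_insert] at hy ⊢
    rcases hy with rfl | rfl | hy
    · simp
    · simp [S.αα]
    · exact Or.inr (Or.inr (S.Aα y hy))
  · simp [a2.symm, b2.symm, S.stA]
  · intro y hy q1 q2
    simp only [mem_insert, not_or] at hy
    rw [e4 y q1 hy.2.1]
    have := S.off y hy.2.2 q1 q2
    rcases e7 y hy.1 with ⟨r1, -⟩ | ⟨-, -, r3⟩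
    · exact absurd (this.symm.trans r1) q1
    · rw [r3, this]
  · intro y hy
    simp only [mem_insert] at hy
    rcases hy with rfl | rfl | hy
    · simp [x', ab.symm, hl]
    · simp [x', ab.symm, hl, S.αα]
    · simp [x', nA y hy, nA _ (S.Aα y hy), S.labα y hy]
  · intro y hy
    simp only [mem_insert] at hy
    rcases hy with rfl | rfl | hy
    · simp [x', sv']
    · simp [x', sv', ab.symm]
    · simp [x', sv', nA y hy, S.sv1 y hy]
  · intro y hy
    simp only [mem_insert] at hy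
    rcases hy with rfl | rfl | hy
    · simp [x', sv', e3, a2.symm, b2.symm]
    · rw [e2, ks _ a2.symm b2.symm n2, h1]; simp [x', ab.symm]
    · have q := nA y hy
      rw [e4 y q.2.2.1 q.2.1, ks y q.1 q.2.1 q.2.2.2, S.sv2 y hy]
      simp [x', q]
  · intro y hy
    simp only [mem_insert] at hy
    rcases hy with rfl | rfl | hy
    · simp [x', c', e3, a2.symm, b2.symm, hl, Γ.lti]
    · rw [e2, kc _ a2.symm b2.symm n2, cq]; simp [x', c', ab.symm]
    · have q := nA y hy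
      rw [e4 y q.2.2.1 q.2.1, kc y q.1 q.2.1 q.2.2.2, S.c1 y hy]
      simp [x', c', q]
  · intro y hy
    simp only [mem_insert] at hy
    rcases hy with (rfl | rfl | hy) | rfl | rfl
    · rw [e2, kc _ a2.symm b2.symm n2, cq]; simp [c']
    · rw [S.αα, e3]; simp [c', a2.symm, b2.symm, ab.symm]
    · have q := nA _ (S.Aα y hy)
      rw [e4 _ q.2.2.1 q.2.1, kc _ q.1 q.2.1 q.2.2.2, S.c2 y (Or.inl hy)]
      simp [c', nA y hy]
    · rw [e10]; simp [c', a2.symm, b2.symm, a3.symm, b3.symm]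
    · rw [S.αα, e1]; simp [c', a3.symm, b3.symm, ab.symm]
  · show sv' (φ' S.st) = _
    simp [sv', e1, ab.symm]
  · show sv' S.st = _
    simp [sv', a2.symm, b2.symm]
  · show c' (S.α S.st) = _
    simp [c', a3.symm, b3.symm]
  · show c' S.st = _
    simp [c', a2.symm, b2.symm]
  · show sv' (S.α S.st) = _
    simp [sv', a3.symm, b3.symm, n2.symm]
  · show sv' (φ' (S.α S.st)) = _
    simp [sv', e10, a3.symm, b3.symm, n2.symm]
  · show φ' (S.α S.st) ≠ S.st
    rw [e10]; exact n2.symm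
  · refine (S.ms_ins a1 b1 c' x' (fun y hy => by simp [c', nA y hy])
      (fun y hy => by simp [x', nA y hy])).trans ?_
    simp [c', x', ab.symm]

end Str

end Vale.Agent.P201
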