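import Vale.Agent.P201.Basic

set_option linter.unusedSectionVars false

namespace Vale.Agent.P201

open Finset Equiv

section paths
variable {Dt V : Type} {src : Dt → V} {rev : Dt → Dt}

@[simp] theorem isPath_nil {u v : V} : IsPath src rev u [] v ↔ u = v := Iff.rfl

@[simp] theorem isPath_cons {u v : V} {t : Dt} {l : List Dt} :
    IsPath src rev u (t :: l) v ↔ src t = u ∧ IsPath src rev (src (rev t)) l v := Iff.rfl

theorem isPath_append {l1 l2 : List Dt} : ∀ {u v : V},
    IsPath src rev u (l1 ++ l2) v ↔ ∃ w, IsPath src rev u l1 w ∧ IsPath src rev w l2 v := by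
  induction l1 with
  | nil => intro u v; simp
  | cons t l ih => intro u v; simp [ih, and_assoc]

theorem IsPath.append {l1 l2 : List Dt} {u w v : V} (h1 : IsPath src rev u l1 w)
    (h2 : IsPath src rev w l2 v) : IsPath src rev u (l1 ++ l2) v :=
  isPath_append.2 ⟨w, h1, h2⟩

theorem IsPath.congr {rev' : Dt → Dt} {l : List Dt} : ∀ {u v : V}, IsPath src rev u l v →
    (∀ t ∈ l, rev' t = rev t) → IsPath src rev' u l v := by
  induction l with
  | nil => intro u v h _; exact h
  | cons t l ih =>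
    intro u v h hl
    refine ⟨h.1, ?_⟩
    rw [hl t (by simp)]
    exact ih h.2 fun x hx => hl x (by simp [hx])

theorem Red.congr {rev' : Dt → Dt} {l : List Dt} (h : Red rev l)
    (hl : ∀ t ∈ l, rev' t = rev t) : Red rev' l := by
  unfold Red at *
  refine List.IsChain.imp_of_mem_imp ?_ h
  intro a b ha _ hab
  rw [hl a ha]; exact hab

theorem IsPath.reverse (hr : ∀ t, rev (rev t) = t) {l : List Dt} : ∀ {u v : V},
    IsPath src rev u l v → IsPath src rev v (l.reverse.map rev) u := by
  induction l with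
  | nil => intro u v h; exact h.symm
  | cons t l ih =>
    intro u v h
    rw [List.reverse_cons, List.map_append]
    refine (ih h.2).append ?_
    simp [hr, h.1]

theorem Red.reverse (hr : ∀ t, rev (rev t) = t) {l : List Dt} (h : Red rev l) :
    Red rev (l.reverse.map rev) := by
  unfold Red at *
  rw [List.isChain_map, List.isChain_reverse]
  refine h.imp ?_
  intro a b hab h2
  apply hab
  rw [← hr a, h2, hr, hr]

theorem Red.left {l1 l2 : List Dt} (h : Red rev (l1 ++ l2)) : Red rev l1 :=
  List.IsChain.left_of_append h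

theorem Red.right {l1 l2 : List Dt} (h : Red rev (l1 ++ l2)) : Red rev l2 :=
  List.IsChain.right_of_append h

theorem Red.tail {t : Dt} {l : List Dt} (h : Red rev (t :: l)) : Red rev l :=
  List.IsChain.of_cons h

theorem Girth.mono {g g' : ℕ} (h : Girth src rev g) (hg : g' ≤ g) : Girth src rev g' :=
  fun u l h1 h2 h3 => h u l h1 h2 (by omega)

theorem split_first {Q : Dt → Prop} {l : List Dt} (h : ∃ t ∈ l, Q t) :
    ∃ l1 t l2, l = l1 ++ t :: l2 ∧ Q t ∧ ∀ x ∈ l1, ¬ Q x := by
  induction l with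
  | nil => simp at h
  | cons a l ih =>
    by_cases ha : Q a
    · exact ⟨[], a, l, rfl, ha, by simp⟩
    · obtain ⟨l1, t, l2, h1, h2, h3⟩ := ih (by simpa [ha] using h)
      exact ⟨a :: l1, t, l2, by simp [h1], h2, by simpa [ha] using h3⟩

/-- no path of length `< γ` -/
def Far (src : Dt → V) (rev : Dt → Dt) (γ : ℕ) (u v : V) : Prop :=
  ∀ l, IsPath src rev u l v → γ ≤ l.length

theorem Far.symm (hr : ∀ t, rev (rev t) = t) {γ : ℕ} {u v : V} (h : Far src rev γ u v) :
    Far src rev γ v u := fun l hl => by simpa using h _ (hl.reverse hr)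

theorem avoid_key {rev' : Dt → Dt} (hr : ∀ t, rev (rev t) = t) {γ : ℕ} (Q : Dt → Prop)
    (hg : Girth src rev γ)
    (ha : ∀ t, Q t → Q (rev' t) ∧ Far src rev γ (src (rev' t)) (src t))
    (hb : ∀ t, ¬ Q t → rev' t = rev t)
    (hd : ∀ t t', Q t → Q t' → t' = t ∨ t' = rev t ∨ Far src rev γ (src t) (src t'))
    {u : V} {l : List Dt} (hp : IsPath src rev' u l u) (hred : Red rev' l)
    (hl : l.length ≤ γ) : ∀ t ∈ l, ¬ Q t := by
  by_contra hcon
  push Not at hcon
  obtain ⟨l1, t, l2, rfl, ht, h1⟩ := split_first hcon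
  obtain ⟨w, hp1, hw, hp2⟩ := isPath_append.1 hp
  simp only [List.length_append, List.length_cons] at hl
  by_cases h2 : ∃ x ∈ l2, Q x
  · obtain ⟨l3, t', l4, rfl, ht', h3⟩ := split_first h2
    obtain ⟨w', hp3, hw', -⟩ := isPath_append.1 hp2
    simp only [List.length_append, List.length_cons] at hl
    have hp3' : IsPath src rev (src (rev' t)) l3 (src t') :=
      (hw' ▸ hp3).congr fun x hx => (hb x (h3 x hx)).symm
    have hr2 : Red rev' (t :: (l3 ++ t' :: l4)) := hred.right
    have hr3 : Red rev l3 := hr2.tail.left.congr fun x hx => (hb x (h3 x hx)).symm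
    rcases hd _ _ (ha t ht).1 ht' with h | h | h
    · have : l3 = [] := hg _ l3 (h ▸ hp3') hr3 (by omega)
      subst this
      exact (List.isChain_cons_cons.1 hr2).1 h
    · have hrt : rev t' = rev' t := by rw [h, hr]
      have := hg (src t') (t' :: l3) ⟨rfl, hrt ▸ hp3'⟩ ?_ (by simp; omega)
      · simp at this
      · unfold Red
        rw [List.isChain_cons]
        refine ⟨?_, hr3⟩
        intro y hy hy'
        have := List.mem_of_mem_head? hy
        exact h3 y this (hy' ▸ hrt ▸ (ha t ht).1)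
    · have := h l3 hp3'; omega
  · push Not at h2
    have hq : IsPath src rev (src (rev' t)) (l2 ++ l1) (src t) :=
      (hp2.append (hw ▸ hp1)).congr fun x hx => by
        rcases List.mem_append.1 hx with h | h
        · exact (hb x (h2 x h)).symm
        · exact (hb x (h1 x h)).symm
    have := (ha t ht).2 _ hq
    simp at this; omega

theorem exists_ball [Fintype Dt] [DecidableEq V] {S : Type} [Fintype S] (lab : Dt → S)
    (hf : ∀ t t', src t = src t' → lab t = lab t' → t = t') (k : ℕ) : ∀ u : V,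
    ∃ B : Finset V, B.card ≤ (Fintype.card S + 1) ^ k ∧
      ∀ l v, IsPath src rev u l v → l.length ≤ k → v ∈ B := by
  induction k with
  | zero =>
    intro u
    refine ⟨{u}, by simp, ?_⟩
    intro l v h hl
    have : l = [] := List.eq_nil_of_length_eq_zero (by omega)
    subst this
    simp [show u = v from h]
  | succ k ih =>
    intro u
    choose B hB hB' using ih
    refine ⟨insert u ((univ.filter fun t => src t = u).biUnion fun t => B (src (rev t))), ?_, ?_⟩
    · have h1 : (univ.filter fun t => src t = u).card ≤ Fintype.card S := by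
        rw [← card_univ]
        refine card_le_card_of_injOn lab (by simp) ?_
        intro a ha b hb hab
        simp at ha hb
        exact hf a b (ha.trans hb.symm) hab
      have h2 := card_biUnion_le_card_mul (univ.filter fun t => src t = u)
        (fun t => B (src (rev t))) _ (fun t _ => hB (src (rev t)))
      have h3 := card_insert_le u
        ((univ.filter fun t => src t = u).biUnion fun t => B (src (rev t)))
      have h4 : 1 ≤ (Fintype.card S + 1) ^ k := Nat.one_le_pow _ _ (by omega)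
      have h5 := Nat.mul_le_mul_right ((Fintype.card S + 1) ^ k) h1
      rw [pow_succ]; nlinarith
    · intro l v h hl
      cases l with
      | nil => simp [show u = v from h]
      | cons t l =>
        refine mem_insert_of_mem (mem_biUnion.2 ⟨t, by simp [h.1], hB' _ l v h.2 ?_⟩)
        simpa using hl

end paths

section switch
variable {Gen V Dt : Type} [Fintype Dt] [DecidableEq Dt] [DecidableEq V] [Fintype Gen]
  [DecidableEq Gen] (src : Dt → V) (lab : Dt → Gen × Bool) (side : V → Bool)

/-- admissible reversal -/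
def Adm (ρ : Dt → Dt) : Prop :=
  (∀ d, ρ (ρ d) = d) ∧ (∀ d, lab (ρ d) = iv (lab d)) ∧ ∀ d, side (src (ρ d)) = side (src d)

/-- colour class -/
def cls (b : Bool) (s : Gen × Bool) : Finset Dt :=
  univ.filter fun t => side (src t) = b ∧ lab t = s

/-- the switched reversal -/
def swi (ρ : Perm Dt) (d d' : Dt) : Perm Dt := swap (ρ d) (ρ d') * ρ * swap (ρ d) (ρ d')

variable {src lab side}

theorem exists_adm (hb : ∀ b s, (cls src lab side b s).card = (cls src lab side b (iv s)).card) :
    ∃ ρ : Perm Dt, Adm src lab side ρ := by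
  let f : Dt → Bool × (Gen × Bool) := fun t => (side (src t), lab t)
  let f' : Dt → Bool × (Gen × Bool) := fun t => (side (src t), iv (lab t))
  have he : ∀ c, Nonempty ({t // f t = c} ≃ {t // f' t = c}) := by
    rintro ⟨b, s⟩
    refine ⟨Fintype.equivOfCardEq ?_⟩
    rw [Fintype.card_subtype, Fintype.card_subtype]
    have := hb b s
    unfold cls at this
    convert this using 2
    · ext t; simp [f]
    · ext t
      simp only [f', Prod.mk.injEq, mem_filter, mem_univ, true_and]
      refine and_congr_right fun _ => ⟨fun h => by rw [← h, iv_iv], fun h => by rw [h, iv_iv]⟩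
  let σ : Dt ≃ Dt := Equiv.ofFiberEquiv fun c => (he c).some
  have hσ : ∀ t, f' (σ t) = f t := fun t => Equiv.ofFiberEquiv_map _ t
  have h1 : ∀ t, side (src (σ t)) = side (src t) := fun t => congrArg Prod.fst (hσ t)
  have h2 : ∀ t, lab (σ t) = iv (lab t) := fun t => by
    have : iv (lab (σ t)) = lab t := congrArg Prod.snd (hσ t)
    rw [← this, iv_iv]
  have h1' : ∀ t, side (src (σ.symm t)) = side (src t) := fun t => by
    rw [← h1 (σ.symm t)]; simp
  have h2' : ∀ t, lab (σ.symm t) = iv (lab t) := fun t => by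
    have := h2 (σ.symm t)
    simp only [apply_symm_apply] at this
    rw [this, iv_iv]
  let r : Dt → Dt := fun t => if (lab t).2 then σ t else σ.symm t
  have hr : Function.Involutive r := by
    intro t
    by_cases h : (lab t).2
    · simp [r, h, h2, iv]
    · simp [r, h, h2', iv]
  refine ⟨hr.toPerm, hr, ?_, ?_⟩
  · intro t
    show lab (r t) = _
    by_cases h : (lab t).2 <;> simp [r, h, h2, h2']
  · intro t
    show side (src (r t)) = _
    by_cases h : (lab t).2 <;> simp [r, h, h1, h1']

/-- `d'` is a good switching partner of `d` -/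
def Part (src : Dt → V) (lab : Dt → Gen × Bool) (side : V → Bool) (ρ : Dt → Dt) (g : ℕ)
    (d d' : Dt) : Prop :=
  side (src d') = side (src d) ∧ lab d' = lab d ∧
    ∀ x, (x = d ∨ x = ρ d) → ∀ y, (y = d' ∨ y = ρ d') → Far src ρ g (src x) (src y)

theorem exists_part (hf : ∀ t t', src t = src t' → lab t = lab t' → t = t')
    {ρ : Perm Dt} (hρ : Adm src lab side ρ) (g : ℕ) (d : Dt) :
    ∃ G : Finset Dt, (cls src lab side (side (src d)) (lab d)).card ≤
      G.card + 4 * (Fintype.card (Gen × Bool) + 1) ^ g ∧ ∀ d' ∈ G, Part src lab side ρ g d d' := by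
  obtain ⟨B1, h1, h1'⟩ := exists_ball (rev := ρ) lab hf g (src d)
  obtain ⟨B2, h2, h2'⟩ := exists_ball (rev := ρ) lab hf g (src (ρ d))
  set C := cls src lab side (side (src d)) (lab d) with hC
  refine ⟨C.filter fun t => src t ∉ B1 ∪ B2 ∧ src (ρ t) ∉ B1 ∪ B2, ?_, ?_⟩
  · have e1 := card_filter_add_card_filter_not (s := C)
      (fun t => src t ∉ B1 ∪ B2 ∧ src (ρ t) ∉ B1 ∪ B2)
    have e2 : (C.filter fun t => ¬ (src t ∉ B1 ∪ B2 ∧ src (ρ t) ∉ B1 ∪ B2)) ⊆
        (C.filter fun t => src t ∈ B1 ∪ B2) ∪ (C.filter fun t => src (ρ t) ∈ B1 ∪ B2) := by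
      intro t ht
      simp only [mem_filter, mem_union] at ht ⊢
      tauto
    have e3 : (C.filter fun t => src t ∈ B1 ∪ B2).card ≤ (B1 ∪ B2).card := by
      refine card_le_card_of_injOn src (fun t ht => (mem_filter.1 ht).2) ?_
      intro a ha b hb hab
      simp only [hC, cls, coe_filter, mem_filter, mem_univ, true_and, Set.mem_ofPred_eq] at ha hb
      exact hf a b hab (ha.1.2.trans hb.1.2.symm)
    have e4 : (C.filter fun t => src (ρ t) ∈ B1 ∪ B2).card ≤ (B1 ∪ B2).card := by
      refine card_le_card_of_injOn (fun t => src (ρ t)) (fun t ht => (mem_filter.1 ht).2) ?_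
      intro a ha b hb hab
      simp only [hC, cls, coe_filter, mem_filter, mem_univ, true_and, Set.mem_ofPred_eq] at ha hb
      exact ρ.injective (hf _ _ hab (by rw [hρ.2.1, hρ.2.1, ha.1.2, hb.1.2]))
    have e5 := card_union_le B1 B2
    have e6 := (card_le_card e2).trans (card_union_le _ _)
    omega
  · intro d' hd'
    simp only [hC, cls, mem_filter, mem_univ, true_and, mem_union, not_or] at hd'
    refine ⟨hd'.1.1, hd'.1.2, ?_⟩
    intro x hx y hy l hl
    by_contra hlt
    rcases hx with rfl | rfl <;> rcases hy with rfl | rfl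
    · exact hd'.2.1.1 (h1' l _ hl (by omega))
    · exact hd'.2.2.1 (h1' l _ hl (by omega))
    · exact hd'.2.1.2 (h2' l _ hl (by omega))
    · exact hd'.2.2.2 (h2' l _ hl (by omega))

omit [Fintype Dt] [DecidableEq V] [Fintype Gen] [DecidableEq Gen] in
theorem swi_spec {ρ : Perm Dt} (hρ : Adm src lab side ρ) {d d' : Dt}
    (h1 : side (src d') = side (src d)) (h2 : lab d' = lab d) :
    Adm src lab side (swi ρ d d') ∧ swi ρ d d' d = ρ d' ∧ swi ρ d d' d' = ρ d ∧
      swi ρ d d' (ρ d) = d' ∧ swi ρ d d' (ρ d') = d ∧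
      ∀ t, ¬ (t = d ∨ t = ρ d ∨ t = d' ∨ t = ρ d') → swi ρ d d' t = ρ t := by
  have n1 : ∀ a b, lab a = lab b → a ≠ ρ b := fun a b hab h => by
    have := hρ.2.1 b
    rw [← h, hab] at this
    exact iv_ne _ this.symm
  have hl : ∀ t, lab (swap (ρ d) (ρ d') t) = lab t := fun t =>
    apply_swap_eq_self (v := lab) (by rw [hρ.2.1, hρ.2.1, h2]) t
  have hs : ∀ t, side (src (swap (ρ d) (ρ d') t)) = side (src t) := fun t =>
    apply_swap_eq_self (v := fun t => side (src t)) (by simp only [hρ.2.2, h1]) t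
  refine ⟨⟨?_, ?_, ?_⟩, ?_, ?_, ?_, ?_, ?_⟩
  · intro t; simp [swi, hρ.1]
  · intro t; simp [swi, hl, hρ.2.1]
  · intro t; simp [swi, hs, hρ.2.2]
  · simp [swi, swap_apply_of_ne_of_ne (n1 d d rfl) (n1 d d' h2.symm)]
  · simp [swi, swap_apply_of_ne_of_ne (n1 d' d h2) (n1 d' d' rfl)]
  · simp [swi, hρ.1, swap_apply_of_ne_of_ne (n1 d' d h2) (n1 d' d' rfl)]
  · simp [swi, hρ.1, swap_apply_of_ne_of_ne (n1 d d rfl) (n1 d d' h2.symm)]
  · intro t ht
    push Not at ht
    simp only [swi, Perm.mul_apply, swap_apply_of_ne_of_ne ht.2.1 ht.2.2.2]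
    exact swap_apply_of_ne_of_ne (ρ.injective.ne ht.1) (ρ.injective.ne ht.2.2.1)

omit [Fintype Dt] [DecidableEq V] [Fintype Gen] [DecidableEq Gen] in
theorem swi_avoid {ρ : Perm Dt} (hρ : Adm src lab side ρ) {g γ : ℕ} (hγ : γ ≤ g) {d d' : Dt}
    (hp : Part src lab side ρ g d d') (hg : Girth src ρ γ) {u : V} {l : List Dt}
    (h1 : IsPath src (swi ρ d d') u l u) (h2 : Red (swi ρ d d') l) (h3 : l.length ≤ γ) :
    d ∉ l ∧ IsPath src ρ u l u ∧ Red ρ l := by
  obtain ⟨-, e1, e2, e3, e4, e5⟩ := swi_spec hρ hp.1 hp.2.1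
  have hF : ∀ x, (x = d ∨ x = ρ d) → ∀ y, (y = d' ∨ y = ρ d') → Far src ρ γ (src x) (src y) :=
    fun x hx y hy l hl => hγ.trans (hp.2.2 x hx y hy l hl)
  have hF' : ∀ x, (x = d ∨ x = ρ d) → ∀ y, (y = d' ∨ y = ρ d') → Far src ρ γ (src y) (src x) :=
    fun x hx y hy => (hF x hx y hy).symm hρ.1
  have key := avoid_key (src := src) (rev := ρ) (rev' := swi ρ d d') hρ.1
    (fun t => t = d ∨ t = ρ d ∨ t = d' ∨ t = ρ d') hg ?_ e5 ?_ h1 h2 h3
  · exact ⟨fun h => key d h (by simp), h1.congr fun t ht => (e5 t (key t ht)).symm,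
      h2.congr fun t ht => (e5 t (key t ht)).symm⟩
  · rintro t (rfl | rfl | rfl | rfl)
    · rw [e1]; exact ⟨by simp, hF' _ (by simp) _ (by simp)⟩
    · rw [e3]; exact ⟨by simp, hF' _ (by simp) _ (by simp)⟩
    · rw [e2]; exact ⟨by simp, hF _ (by simp) _ (by simp)⟩
    · rw [e4]; exact ⟨by simp, hF _ (by simp) _ (by simp)⟩
  · rintro t t' (rfl | rfl | rfl | rfl) (rfl | rfl | rfl | rfl) <;>
    first
      | exact Or.inl rfl
      | exact Or.inr (Or.inl rfl)
      | exact Or.inr (Or.inl (hρ.1 _).symm)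
      | (refine Or.inr (Or.inr (hF _ ?_ _ ?_)) <;> (simp; done))
      | (refine Or.inr (Or.inr (hF' _ ?_ _ ?_)) <;> (simp; done))

theorem exists_girth (hf : ∀ t t', src t = src t' → lab t = lab t' → t = t') (g : ℕ)
    (hb : ∀ b s, (cls src lab side b s).card = (cls src lab side b (iv s)).card)
    (hbig : ∀ b s, 4 * (Fintype.card (Gen × Bool) + 1) ^ g < (cls src lab side b s).card) :
    ∃ ρ : Perm Dt, Adm src lab side ρ ∧ Girth src ρ g := by
  suffices H : ∀ γ ≤ g, ∃ ρ : Perm Dt, Adm src lab side ρ ∧ Girth src ρ γ from H g le_rfl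
  intro γ
  induction γ with
  | zero =>
    intro _
    obtain ⟨ρ, hρ⟩ := exists_adm hb
    exact ⟨ρ, hρ, fun u l _ _ h => by omega⟩
  | succ γ ih =>
    intro hγ
    let Cy : Perm Dt → Set (List Dt) := fun ρ =>
      {l | l.length = γ ∧ l ≠ [] ∧ (∃ u, IsPath src ρ u l u) ∧ Red ρ l}
    have hfin : ∀ ρ, (Cy ρ).Finite := fun ρ =>
      (List.finite_length_eq Dt γ).subset fun l hl => hl.1
    have hex : ∃ k, ∃ ρ : Perm Dt, Adm src lab side ρ ∧ Girth src ρ γ ∧ (Cy ρ).ncard = k := by
      obtain ⟨ρ, h1, h2⟩ := ih (by omega)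
      exact ⟨_, ρ, h1, h2, rfl⟩
    classical
    obtain ⟨ρ, h1, h2, h3⟩ := Nat.find_spec hex
    refine ⟨ρ, h1, ?_⟩
    intro u l hp hr hl
    by_contra hne
    have hlen : l.length = γ := by
      by_contra h
      exact hne (h2 u l hp hr (by omega))
    obtain ⟨d, hd⟩ := List.exists_mem_of_ne_nil l hne
    obtain ⟨G, hG, hG'⟩ := exists_part hf h1 g d
    have := hbig (side (src d)) (lab d)
    obtain ⟨d', hd'⟩ : G.Nonempty := card_pos.1 (by omega)
    have hpart := hG' d' hd'
    have hg' : Girth src (swi ρ d d') γ := fun u' l' a b c =>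
      have := swi_avoid h1 (by omega) hpart h2 a b c.le
      h2 u' l' this.2.1 this.2.2 c
    have hlt : (Cy (swi ρ d d')).ncard < (Cy ρ).ncard := by
      refine Set.ncard_lt_ncard ⟨?_, ?_⟩ (hfin ρ)
      · rintro l' ⟨a, b, ⟨u', c⟩, e⟩
        have := swi_avoid h1 (by omega) hpart h2 c e a.le
        exact ⟨a, b, ⟨u', this.2.1⟩, this.2.2⟩
      · intro hsub
        obtain ⟨a, b, ⟨u', c⟩, e⟩ := hsub (show l ∈ Cy ρ from ⟨hlen, hne, ⟨u, hp⟩, hr⟩)
        exact (swi_avoid h1 (by omega) hpart h2 c e a.le).1 hd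
    have := Nat.find_min' hex ⟨swi ρ d d', (swi_spec h1 hpart.1 hpart.2.1).1, hg', rfl⟩
    omega

open Classical in
/-- the event that the first `m` prescribed edges are present -/
noncomputable def Ev (src : Dt → V) (lab : Dt → Gen × Bool) (side : V → Bool) (g : ℕ)
    (d : ℕ → Dt) (u : ℕ → V) (m : ℕ) : Finset (Perm Dt) :=
  univ.filter fun ρ => Adm src lab side ρ ∧ Girth src ρ g ∧
    ∀ i < m, src (ρ (d i)) = u (i + 1) ∧ ∀ k < i, d i ≠ d k ∧ d i ≠ ρ (d k)

theorem ev_step (hf : ∀ t t', src t = src t' → lab t = lab t' → t = t') (g n : ℕ)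
    (d : ℕ → Dt) (u : ℕ → V) (m : ℕ)
    (hbig : ∀ b s, n + (4 * (Fintype.card (Gen × Bool) + 1) ^ g + 2 * m) ≤
      (cls src lab side b s).card) :
    (Ev src lab side g d u (m + 1)).card * n ≤ (Ev src lab side g d u m).card := by
  classical
  let r : Perm Dt → Perm Dt → Prop := fun ρ ρ' => ∃ d', Part src lab side ρ g (d m) d' ∧
    ρ' = swi ρ (d m) d'
  have := card_mul_le_card_mul r (s := Ev src lab side g d u (m + 1))
    (t := Ev src lab side g d u m) (m := n) (n := 1) ?_ ?_
  · simpa using this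
  · intro ρ hρ
    simp only [Ev, mem_filter, mem_univ, true_and] at hρ
    obtain ⟨h1, h2, h3⟩ := hρ
    obtain ⟨G, hG, hG'⟩ := exists_part hf h1 g (d m)
    let Used : Finset Dt := (range m).image d ∪ (range m).image fun k => ρ (d k)
    have hU : Used.card ≤ 2 * m := by
      have a := card_union_le ((range m).image d) ((range m).image fun k => ρ (d k))
      have b := card_image_le (s := range m) (f := d)
      have c := card_image_le (s := range m) (f := fun k => ρ (d k))
      simp only [card_range] at b c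
      exact a.trans (by omega)
    have hc : n ≤ (G \ Used).card := by
      have := le_card_sdiff Used G
      have := hbig (side (src (d m))) (lab (d m))
      omega
    refine hc.trans (card_le_card_of_injOn (fun d' => swi ρ (d m) d') ?_ ?_)
    · intro d' hd'
      obtain ⟨a, b⟩ := mem_sdiff.1 (mem_coe.1 hd')
      have hpart := hG' d' a
      obtain ⟨e0, -, -, -, -, e5⟩ := swi_spec h1 hpart.1 hpart.2.1
      simp only [Used, mem_union, mem_image, mem_range, not_or, not_exists, not_and] at b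
      have hk : ∀ k < m, swi ρ (d m) d' (d k) = ρ (d k) := fun k hk => by
        apply e5
        have := (h3 m (by omega)).2 k hk
        rintro (h | h | h | h)
        · exact this.1 h.symm
        · exact this.2 (by rw [h, h1.1])
        · exact b.1 k hk h
        · exact b.2 k hk (by rw [h, h1.1])
      simp only [coe_bipartiteAbove, Set.mem_ofPred_eq, Ev, mem_filter, mem_univ, true_and]
      refine ⟨⟨e0, ?_, ?_⟩, d', hpart, rfl⟩
      · intro u' l' a b c
        have := swi_avoid h1 le_rfl hpart h2 a b c.le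
        exact h2 u' l' this.2.1 this.2.2 c
      · intro i hi
        rw [hk i hi]
        refine ⟨(h3 i (by omega)).1, fun k hki => ?_⟩
        rw [hk k (by omega)]
        exact (h3 i (by omega)).2 k hki
    · intro a ha b hb hab
      have pa := hG' a (mem_sdiff.1 (mem_coe.1 ha)).1
      have pb := hG' b (mem_sdiff.1 (mem_coe.1 hb)).1
      apply ρ.injective
      rw [← (swi_spec h1 pa.1 pa.2.1).2.1, ← (swi_spec h1 pb.1 pb.2.1).2.1]
      exact congrArg (fun z : Perm Dt => z (d m)) hab
  · intro ρ' _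
    rw [card_le_one]
    intro ρ1 h1 ρ2 h2
    simp only [mem_bipartiteBelow, Ev, mem_filter, mem_univ, true_and] at h1 h2
    obtain ⟨⟨a1, -, c1⟩, d1, p1, e1⟩ := h1
    obtain ⟨⟨a2, -, c2⟩, d2, p2, e2⟩ := h2
    have q1 : ρ1 (d m) = ρ2 (d m) := hf _ _
      ((c1 m (by omega)).1.trans (c2 m (by omega)).1.symm) (by rw [a1.2.1, a2.2.1])
    have q2 : ρ1 d1 = ρ2 d2 := by
      rw [← (swi_spec a1 p1.1 p1.2.1).2.1, ← (swi_spec a2 p2.1 p2.2.1).2.1, ← e1, ← e2]
    have : swi ρ1 (d m) d1 = swi ρ2 (d m) d2 := e1.symm.trans e2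
    unfold swi at this
    rw [q1, q2] at this
    exact mul_left_cancel (mul_right_cancel this)

theorem ev_bound (hf : ∀ t t', src t = src t' → lab t = lab t' → t = t') (g n M : ℕ)
    (hbig : ∀ b s, n + (4 * (Fintype.card (Gen × Bool) + 1) ^ g + 2 * M) ≤
      (cls src lab side b s).card) (d : ℕ → Dt) (u : ℕ → V) (m : ℕ) (hm : m ≤ M) :
    (Ev src lab side g d u m).card * n ^ m ≤ (Ev src lab side g d u 0).card := by
  induction m with
  | zero => simp
  | succ m ih =>
    have h1 := ev_step (side := side) hf g n d u m fun b s => le_trans (by omega) (hbig b s)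
    have h2 := ih (by omega)
    calc _ = (Ev src lab side g d u (m + 1)).card * n * n ^ m := by ring
      _ ≤ (Ev src lab side g d u m).card * n ^ m := Nat.mul_le_mul_right _ h1
      _ ≤ _ := h2

end switch

end Vale.Agent.P201
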