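import Mathlib

namespace Vale.Agent.P201

open SimpleGraph

section thin
variable {V : Type} {H : SimpleGraph V}

/-- `a` and `b` are joined by a walk of length at most `l` inside `S` -/
def Conn (H : SimpleGraph V) (S : V → Prop) (a b : V) (l : ℕ) : Prop :=
  ∃ w : H.Walk a b, w.length ≤ l ∧ ∀ t ∈ w.support, S t

theorem Conn.symm {S : V → Prop} {a b : V} {l : ℕ} (h : Conn H S a b l) : Conn H S b a l := by
  obtain ⟨w, h1, h2⟩ := h
  exact ⟨w.reverse, by simpa using h1, fun t ht => h2 t (by simpa using ht)⟩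

theorem Conn.trans {S : V → Prop} {a b c : V} {l m : ℕ} (h : Conn H S a b l)
    (h' : Conn H S b c m) : Conn H S a c (l + m) := by
  obtain ⟨w, h1, h2⟩ := h
  obtain ⟨w', h1', h2'⟩ := h'
  refine ⟨w.append w', by rw [Walk.length_append]; omega, fun t ht => ?_⟩
  rcases (Walk.mem_support_append_iff _ _).1 ht with h | h
  · exact h2 t h
  · exact h2' t h

theorem Conn.mono {S : V → Prop} {a b : V} {l m : ℕ} (h : Conn H S a b l) (hl : l ≤ m) :
    Conn H S a b m := by
  obtain ⟨w, h1, h2⟩ := h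
  exact ⟨w, h1.trans hl, h2⟩

theorem Conn.refl {S : V → Prop} {a : V} (h : S a) (l : ℕ) : Conn H S a a l :=
  ⟨Walk.nil, by simp, fun t ht => by
    have : t = a := by simpa using ht
    exact this ▸ h⟩

theorem geo_split (hc : H.Connected) {a b t : V} (p : H.Walk a b) (hp : p.length = H.dist a b)
    (ht : t ∈ p.support) :
    ∃ (p1 : H.Walk a t) (p2 : H.Walk t b), p = p1.append p2 ∧ p1.length = H.dist a t ∧
      p2.length = H.dist t b := by
  obtain ⟨p1, p2, rfl⟩ := Walk.mem_support_iff_exists_append.1 ht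
  have h1 := H.dist_le p1
  have h2 := H.dist_le p2
  have h3 : H.dist a b ≤ H.dist a t + H.dist t b := hc.dist_triangle
  rw [Walk.length_append] at hp
  exact ⟨p1, p2, rfl, by omega, by omega⟩

theorem geo_add (hc : H.Connected) {a b t : V} (p : H.Walk a b) (hp : p.length = H.dist a b)
    (ht : t ∈ p.support) : H.dist a t + H.dist t b = H.dist a b := by
  obtain ⟨p1, p2, rfl, h1, h2⟩ := geo_split hc p hp ht
  rw [Walk.length_append] at hp
  omega

theorem geo_two (hc : H.Connected) {y z a b : V} (q : H.Walk y z) (hq : q.length = H.dist y z)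
    (ha : a ∈ q.support) (hb : b ∈ q.support) :
    (H.dist y a + H.dist a b = H.dist y b ∨ H.dist y b + H.dist a b = H.dist y a) ∧
      Conn H (fun t => t ∈ q.support) a b (H.dist a b) := by
  obtain ⟨p1, p2, rfl, h1, h2⟩ := geo_split hc q hq ha
  rcases (Walk.mem_support_append_iff _ _).1 hb with h | h
  · refine ⟨Or.inr ?_, ?_⟩
    · have := geo_add hc p1 h1 h
      rw [H.dist_comm (u := a) (v := b)]; exact this
    · obtain ⟨s1, s2, rfl, -, h4⟩ := geo_split hc p1 h1 h
      refine Conn.symm ⟨s2, by rw [h4, H.dist_comm], fun t ht => ?_⟩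
      simp only [Walk.mem_support_append_iff]
      exact Or.inl (Or.inr ht)
  · refine ⟨Or.inl ?_, ?_⟩
    · have e1 := geo_add hc p2 h2 h
      have e2 := geo_add hc _ hq hb
      rw [Walk.length_append] at hq
      omega
    · obtain ⟨s1, s2, rfl, h3, -⟩ := geo_split hc p2 h2 h
      refine ⟨s1, h3.le, fun t ht => ?_⟩
      simp only [Walk.mem_support_append_iff]
      exact Or.inr (Or.inl ht)

theorem walk_point (hc : H.Connected) {a b : V} (p : H.Walk a b) :
    ∀ k ≤ p.length, ∃ t ∈ p.support, H.dist a t ≤ k ∧ H.dist t b + k ≤ p.length := by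
  induction p with
  | @nil u => intro k hk; exact ⟨u, by simp, by simp, by simpa using hk⟩
  | @cons u v w h p ih =>
    intro k hk
    rcases k with _ | k
    · exact ⟨u, by simp, by simp, by simpa using H.dist_le (Walk.cons h p)⟩
    · obtain ⟨t, ht, h1, h2⟩ := ih k (by simpa using hk)
      refine ⟨t, by simp [ht], ?_, by simp only [Walk.length_cons]; omega⟩
      have h3 : H.dist u t ≤ H.dist u v + H.dist v t := hc.dist_triangle
      have h4 : H.dist u v = 1 := dist_eq_one_iff_adj.2 h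
      omega

theorem geo_point (hc : H.Connected) {a b : V} (p : H.Walk a b) (hp : p.length = H.dist a b)
    {k : ℕ} (hk : k ≤ p.length) : ∃ t ∈ p.support, H.dist a t = k := by
  obtain ⟨t, ht, h1, h2⟩ := walk_point hc p k hk
  have := geo_add hc p hp ht
  exact ⟨t, ht, by omega⟩

theorem conn_geo (hc : H.Connected) {S : V → Prop} (a b : V)
    (h : ∀ t, H.dist a t ≤ H.dist a b → S t) : Conn H S a b (H.dist a b) := by
  obtain ⟨w, hw⟩ := hc.exists_walk_length_eq_dist a b
  refine ⟨w, hw.le, fun t ht => h t ?_⟩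
  have := geo_add hc w hw ht
  omega

theorem sum_tele (β1 β2 : V → ZMod 2) {a b : V} (w : H.Walk a b)
    (h : ∀ d ∈ w.darts, β1 d.fst = β1 d.snd ∨ (β2 d.fst = 1 ∧ β2 d.snd = 1)) :
    (w.darts.map fun d => (β1 d.fst + β1 d.snd) * (β2 d.fst * β2 d.snd)).sum = β1 a + β1 b := by
  have h2 : ∀ x : ZMod 2, x + x = 0 := by decide
  induction w with
  | nil => simp [h2]
  | @cons u v w hadj p ih =>
    rw [Walk.darts_cons, List.map_cons, List.sum_cons,
      ih fun d hd => h d (by rw [Walk.darts_cons]; exact List.mem_cons_of_mem _ hd)]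
    rcases h ⟨(u, v), hadj⟩ (by rw [Walk.darts_cons]; exact List.mem_cons_self) with e | ⟨e1, e2⟩
    · simp only at e ⊢
      rw [e, h2, zero_mul, zero_add]
    · simp only at e1 e2 ⊢
      rw [e1, e2]
      linear_combination h2 (β1 v)

theorem sum_zero (β1 β2 : V → ZMod 2) {a b : V} (w : H.Walk a b)
    (h : ∀ d ∈ w.darts, β1 d.fst = β1 d.snd ∨ β2 d.fst = 0) :
    (w.darts.map fun d => (β1 d.fst + β1 d.snd) * (β2 d.fst * β2 d.snd)).sum = 0 := by
  have h2 : ∀ x : ZMod 2, x + x = 0 := by decide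
  refine List.sum_eq_zero fun x hx => ?_
  obtain ⟨d, hd, rfl⟩ := List.mem_map.1 hx
  rcases h d hd with e | e
  · rw [e, h2, zero_mul]
  · rw [e, zero_mul, mul_zero]

theorem base_lemma {C R : ℕ}
    (iso : ∀ (u : V) (w : H.Walk u u), ∃ Z : Finset V, Z.card ≤ C * (w.length + 1) ∧
      ∀ β1 β2 : V → ZMod 2,
        (w.darts.map fun d => (β1 d.fst + β1 d.snd) * (β2 d.fst * β2 d.snd)).sum = 1 →
        ∃ c ∈ Z, (∃ c', H.dist c c' ≤ R ∧ β1 c ≠ β1 c') ∧
          (∃ c', H.dist c c' ≤ R ∧ β2 c ≠ β2 c'))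
    (φ ψ : V → ℕ) (hφ : ∀ a b, φ a ≤ φ b + H.dist a b) (hψ : ∀ a b, ψ a ≤ ψ b + H.dist a b)
    {u v : V} {a N l1 l2 : ℕ} (hu : φ u ≤ a) (hv : a + N * (2 * R + 1) < φ v)
    (h1 : Conn H (fun t => a ≤ φ t → φ t ≤ a + N * (2 * R + 1) + 1 → N * (2 * R + 1) < ψ t) u v l1)
    (h2 : Conn H (fun t => a ≤ φ t → φ t ≤ a + N * (2 * R + 1) + 1 → ψ t = 0) v u l2) :
    N * N ≤ C * (l1 + l2 + 1) := by
  classical
  obtain ⟨σ, hσ, h1⟩ := h1
  obtain ⟨ρ, hρ, h2⟩ := h2
  obtain ⟨Z, hZ, hiso⟩ := iso u (σ.append ρ)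
  have key : ∀ i k : Fin N, ∃ c ∈ Z,
      (a + i * (2 * R + 1) < φ c + R + 1 ∧ φ c ≤ a + i * (2 * R + 1) + R) ∧
      (k * (2 * R + 1) < ψ c + R + 1 ∧ ψ c ≤ k * (2 * R + 1) + R) := by
    intro i k
    have hi : (i : ℕ) * (2 * R + 1) ≤ N * (2 * R + 1) := Nat.mul_le_mul_right _ i.2.le
    have hk : (k : ℕ) * (2 * R + 1) ≤ N * (2 * R + 1) := Nat.mul_le_mul_right _ k.2.le
    generalize (i : ℕ) * (2 * R + 1) = j at hi ⊢
    generalize (k : ℕ) * (2 * R + 1) = k' at hk ⊢
    generalize N * (2 * R + 1) = m at *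
    have hd : ∀ d : H.Dart, (if φ d.fst ≤ a + j then (1 : ZMod 2) else 0) ≠
        (if φ d.snd ≤ a + j then (1 : ZMod 2) else 0) →
        (a ≤ φ d.fst ∧ φ d.fst ≤ a + m + 1) ∧ (a ≤ φ d.snd ∧ φ d.snd ≤ a + m + 1) := by
      intro d hne
      have e1 : H.dist d.fst d.snd = 1 := dist_eq_one_iff_adj.2 d.adj
      have e2 : H.dist d.snd d.fst = 1 := dist_eq_one_iff_adj.2 d.adj.symm
      have f1 := hφ d.fst d.snd
      have f2 := hφ d.snd d.fst
      split_ifs at hne with g1 g2 g2
      · exact absurd rfl hne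
      · omega
      · omega
      · exact absurd rfl hne
    obtain ⟨c, hc, ⟨c1, hc1, hn1⟩, c2, hc2, hn2⟩ :=
      hiso (fun t => if φ t ≤ a + j then 1 else 0) (fun t => if k' < ψ t then 1 else 0) (by
        rw [Walk.darts_append, List.map_append, List.sum_append,
          sum_tele (fun t => if φ t ≤ a + j then 1 else 0) (fun t => if k' < ψ t then 1 else 0) σ,
          sum_zero (fun t => if φ t ≤ a + j then 1 else 0) (fun t => if k' < ψ t then 1 else 0) ρ]
        · rw [if_pos (by omega), if_neg (by omega)]; simp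
        · intro d hdm
          by_contra hcon
          obtain ⟨g1, g2⟩ := not_or.1 hcon
          have g3 := (hd d g1).1
          have := h2 _ (Walk.dart_fst_mem_support_of_mem_darts _ hdm) g3.1 g3.2
          exact g2 (if_neg (by omega))
        · intro d hdm
          by_contra hcon
          obtain ⟨g1, g2⟩ := not_or.1 hcon
          obtain ⟨g3, g4⟩ := hd d g1
          have f1 := h1 _ (Walk.dart_fst_mem_support_of_mem_darts _ hdm) g3.1 g3.2
          have f2 := h1 _ (Walk.dart_snd_mem_support_of_mem_darts _ hdm) g4.1 g4.2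
          exact g2 ⟨if_pos (by omega), if_pos (by omega)⟩)
    refine ⟨c, hc, ?_, ?_⟩
    · have f1 := hφ c c1
      have f2 := hφ c1 c
      rw [H.dist_comm] at f2
      split_ifs at hn1 with g1 g2 g2
      · exact absurd rfl hn1
      · omega
      · omega
      · exact absurd rfl hn1
    · have f1 := hψ c c2
      have f2 := hψ c2 c
      rw [H.dist_comm] at f2
      split_ifs at hn2 with g1 g2 g2
      · exact absurd rfl hn2
      · omega
      · omega
      · exact absurd rfl hn2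
  choose f hfZ hf using key
  have aux : ∀ (i i' x b : ℕ), b + i * (2 * R + 1) < x + R + 1 → x ≤ b + i' * (2 * R + 1) + R →
      i ≤ i' := by
    intro i i' x b g1 g2
    by_contra hlt
    have : (i' + 1) * (2 * R + 1) ≤ i * (2 * R + 1) := Nat.mul_le_mul_right _ (by omega)
    rw [add_mul] at this
    omega
  have hcard : (Finset.univ : Finset (Fin N × Fin N)).card ≤ Z.card := by
    refine Finset.card_le_card_of_injOn (fun x => f x.1 x.2) (fun x _ => hfZ x.1 x.2) ?_
    rintro ⟨i, k⟩ - ⟨i', k'⟩ - he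
    simp only at he
    obtain ⟨⟨a1, a2⟩, a3, a4⟩ := hf i k
    obtain ⟨⟨b1, b2⟩, b3, b4⟩ := hf i' k'
    rw [he] at a1 a2 a3 a4
    have e1 := aux i i' _ a a1 b2
    have e2 := aux i' i _ a b1 a2
    have e3 := aux k k' _ 0 (by simpa using a3) (by simpa using b4)
    have e4 := aux k' k _ 0 (by simpa using b3) (by simpa using a4)
    exact Prod.ext (Fin.ext (by simp only; omega)) (Fin.ext (by simp only; omega))
  rw [Finset.card_univ, Fintype.card_prod, Fintype.card_fin] at hcard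
  rw [Walk.length_append] at hZ
  exact hcard.trans (hZ.trans (Nat.mul_le_mul_left _ (by omega)))

/-- geodesic triangles of perimeter at most `L` are `n`-thin -/
def ThinL (H : SimpleGraph V) (n L : ℕ) : Prop :=
  ∀ (x y z : V) (p : H.Walk x y) (q : H.Walk y z) (r : H.Walk z x),
    p.length = H.dist x y → q.length = H.dist y z → r.length = H.dist z x →
    p.length + q.length + r.length ≤ L →
    ∀ v ∈ p.support, ∃ w, (w ∈ q.support ∨ w ∈ r.support) ∧ H.dist v w ≤ n

theorem conn_far (hc : H.Connected) {n L : ℕ} (hn : 1 ≤ n) (hT : ThinL H n L) {x y z : V}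
    (q : H.Walk y z) (r : H.Walk z x) (hq : q.length = H.dist y z) (hr : r.length = H.dist z x)
    (hL : H.dist x y + q.length + r.length ≤ L) {S : V → Prop} {a0 : ℕ}
    (hq' : ∀ t ∈ q.support, S t) (hr' : ∀ t ∈ r.support, S t)
    (hS : ∀ t, a0 + 2 * n ≤ H.dist x t → S t) {a b : V} (ha : a ∈ q.support) (hb : b ∈ r.support)
    (hab : H.dist b a ≤ 8 * n) (hb0 : a0 ≤ H.dist x b + 4 * n) : Conn H S b a (30 * n) := by
  have cq : ∀ s ∈ q.support, ∀ t ∈ q.support, Conn H S s t (H.dist s t) := by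
    intro s hs t ht
    obtain ⟨w, h1, h2⟩ := (geo_two hc q hq hs ht).2
    exact ⟨w, h1, fun t ht => hq' t (h2 t ht)⟩
  have cr : ∀ s ∈ r.support, ∀ t ∈ r.support, Conn H S s t (H.dist s t) := by
    intro s hs t ht
    obtain ⟨w, h1, h2⟩ := (geo_two hc r hr hs ht).2
    exact ⟨w, h1, fun t ht => hr' t (h2 t ht)⟩
  by_cases hz : H.dist z b ≤ 10 * n
  · have t1 : H.dist z a ≤ H.dist z b + H.dist b a := hc.dist_triangle
    refine ((cr b hb z r.start_mem_support).trans (cq z q.end_mem_support a ha)).mono ?_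
    rw [H.dist_comm (u := b) (v := z)]
    omega
  · obtain ⟨r1, r2, er, hr1, hr2⟩ := geo_split hc r hr hb
    obtain ⟨q1, q2, eq, hq1, hq2⟩ := geo_split hc q hq ha
    obtain ⟨s, hs⟩ := hc.exists_walk_length_eq_dist b a
    obtain ⟨t, ht, hzt⟩ := geo_point hc r1 hr1 (k := H.dist z b - 10 * n) (by omega)
    have e1 := geo_add hc r1 hr1 ht
    have htr : t ∈ r.support := by
      rw [er]; exact (Walk.mem_support_append_iff _ _).2 (Or.inl ht)
    have e2 := geo_add hc r hr htr
    have e3 := geo_add hc r hr hb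
    have e4 := geo_add hc q hq ha
    have t1 : H.dist b a ≤ H.dist b x + H.dist x a := hc.dist_triangle
    have t2 : H.dist x a ≤ H.dist x y + H.dist y a := hc.dist_triangle
    obtain ⟨w, hw, hd⟩ := hT z b a r1 s q2 hr1 hs hq2 (by omega) t ht
    have c1 : H.dist x b = H.dist b x := H.dist_comm
    have c2 : H.dist x t = H.dist t x := H.dist_comm
    have c3 : H.dist b t = H.dist t b := H.dist_comm
    have c4 : H.dist w t = H.dist t w := H.dist_comm
    rcases hw with hw | hw
    · have e5 := geo_add hc s hs hw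
      have t3 : H.dist b t ≤ H.dist b w + H.dist w t := hc.dist_triangle
      omega
    · have hwq : w ∈ q.support := by
        rw [eq]; exact (Walk.mem_support_append_iff _ _).2 (Or.inr hw)
      have cm : Conn H S t w (H.dist t w) := conn_geo hc t w fun g hg => hS g (by
        have t3 : H.dist x t ≤ H.dist x g + H.dist g t := hc.dist_triangle
        rw [H.dist_comm (u := g) (v := t)] at t3
        omega)
      have t4 : H.dist w a ≤ H.dist w t + H.dist t a := hc.dist_triangle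
      have t5 : H.dist t a ≤ H.dist t b + H.dist b a := hc.dist_triangle
      exact (((cr b hb t htr).trans cm).trans (cq w hwq a ha)).mono (by omega)

theorem thin_num {C R n : ℕ} (hn : (4 * R + 4) * (80 * C * (4 * R + 4) + 1) ≤ n) :
    ∃ N, 2 * (N * (2 * R + 1)) + 2 ≤ n ∧ ¬ N * N ≤ C * (6 * n + (n + 30 * n + n) + 1) := by
  obtain ⟨N, hN⟩ : ∃ N, N = n / (4 * R + 4) := ⟨_, rfl⟩
  have hN1 : 80 * C * (4 * R + 4) + 1 ≤ N := by
    rw [hN, Nat.le_div_iff_mul_le (by omega), mul_comm]; exact hn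
  have hN2 : N * (4 * R + 4) ≤ n := by rw [hN]; exact Nat.div_mul_le_self _ _
  have hN3 : n < (4 * R + 4) * (N + 1) := by rw [hN]; exact Nat.lt_mul_div_succ _ (by omega)
  have hN0 : 1 ≤ N := by omega
  refine ⟨N, by nlinarith, fun hb => ?_⟩
  have h5 : 6 * n + (n + 30 * n + n) + 1 ≤ 80 * (4 * R + 4) * N := by nlinarith
  have h6 : N * N ≤ C * (80 * (4 * R + 4) * N) := hb.trans (Nat.mul_le_mul_left _ h5)
  nlinarith

theorem thin_step (hc : H.Connected) {C R : ℕ}
    (iso : ∀ (u : V) (w : H.Walk u u), ∃ Z : Finset V, Z.card ≤ C * (w.length + 1) ∧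
      ∀ β1 β2 : V → ZMod 2,
        (w.darts.map fun d => (β1 d.fst + β1 d.snd) * (β2 d.fst * β2 d.snd)).sum = 1 →
        ∃ c ∈ Z, (∃ c', H.dist c c' ≤ R ∧ β1 c ≠ β1 c') ∧
          (∃ c', H.dist c c' ≤ R ∧ β2 c ≠ β2 c'))
    {n L : ℕ} (hn : (4 * R + 4) * (80 * C * (4 * R + 4) + 1) ≤ n + 1) (hT : ThinL H (n + 1) L) :
    ThinL H n L := by
  intro x y z p q r hp hq hr hL P hP
  by_contra hcon
  have hfar : ∀ w, (w ∈ q.support ∨ w ∈ r.support) → n + 1 ≤ H.dist P w := by
    intro w hw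
    by_contra h
    exact hcon ⟨w, hw, by omega⟩
  clear hcon
  generalize n + 1 = n at hn hT hfar
  obtain ⟨N, hm, hfin⟩ := thin_num hn
  clear hn
  let ψ : V → ℕ := fun t => sInf {d | ∃ w, (w ∈ q.support ∨ w ∈ r.support) ∧ H.dist t w = d}
  have ψ1 : ∀ t, ∃ w, (w ∈ q.support ∨ w ∈ r.support) ∧ H.dist t w = ψ t := fun t =>
    Nat.sInf_mem (s := {d | ∃ w, (w ∈ q.support ∨ w ∈ r.support) ∧ H.dist t w = d})
      ⟨_, y, Or.inl q.start_mem_support, rfl⟩
  have ψ2 : ∀ t w, (w ∈ q.support ∨ w ∈ r.support) → ψ t ≤ H.dist t w := fun t w hw =>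
    Nat.sInf_le ⟨w, hw, rfl⟩
  clear_value ψ
  have hψ : ∀ a b, ψ a ≤ ψ b + H.dist a b := by
    intro a b
    obtain ⟨w, hw, e⟩ := ψ1 b
    have := ψ2 a w hw
    have t : H.dist a w ≤ H.dist a b + H.dist b w := hc.dist_triangle
    omega
  have hφ : ∀ a b, H.dist x a ≤ H.dist x b + H.dist a b := by
    intro a b
    rw [H.dist_comm (u := a) (v := b)]
    exact hc.dist_triangle
  have ψP : n ≤ ψ P := by
    obtain ⟨w, hw, e⟩ := ψ1 P
    exact e ▸ hfar w hw
  have ψ0 : ∀ t, (t ∈ q.support ∨ t ∈ r.support) → ψ t = 0 := by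
    intro t ht
    have := ψ2 t t ht
    rw [dist_self] at this
    omega
  have hPx := hfar x (Or.inr r.end_mem_support)
  have hPy := hfar y (Or.inl q.start_mem_support)
  have eP := geo_add hc p hp hP
  let S : V → Prop := fun t =>
    H.dist x P ≤ H.dist x t → H.dist x t ≤ H.dist x P + N * (2 * R + 1) + 1 → ψ t = 0
  have SY : ∀ t, (t ∈ q.support ∨ t ∈ r.support) → S t := fun t ht _ _ => ψ0 t ht
  have Shi : ∀ t, H.dist x P + 2 * n ≤ H.dist x t → S t := fun t ht _ h2 => by omega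
  have Slo : ∀ t, H.dist x t < H.dist x P → S t := fun t ht h1 _ => by omega
  obtain ⟨u, hu, u', hu', hu1, hu2, hu3, hu4⟩ : ∃ u ∈ p.support, ∃ u',
      (u' ∈ q.support ∨ u' ∈ r.support) ∧ H.dist x u ≤ H.dist x P ∧
      H.dist x P ≤ H.dist x u + 3 * n ∧ H.dist u u' ≤ n ∧ Conn H S u u' n := by
    by_cases h : H.dist x P ≤ 3 * n
    · exact ⟨x, p.start_mem_support, x, Or.inr r.end_mem_support, by simp, by simpa using h,
        by simp, Conn.refl (SY x (Or.inr r.end_mem_support)) _⟩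
    · obtain ⟨u, hu, e⟩ := geo_point hc p hp (k := H.dist x P - 3 * n) (by omega)
      obtain ⟨u', hu', hd⟩ := hT x y z p q r hp hq hr hL u hu
      refine ⟨u, hu, u', hu', by omega, by omega, hd,
        (conn_geo hc u u' fun g hg => Slo g ?_).mono hd⟩
      have t3 : H.dist x g ≤ H.dist x u + H.dist u g := hc.dist_triangle
      omega
  obtain ⟨v, hv, v', hv', hv1, hv2, hv3, hv4⟩ : ∃ v ∈ p.support, ∃ v',
      (v' ∈ q.support ∨ v' ∈ r.support) ∧ H.dist x P + n ≤ H.dist x v ∧
      H.dist x v ≤ H.dist x P + 3 * n ∧ H.dist v v' ≤ n ∧ Conn H S v v' n := by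
    by_cases h : H.dist x y ≤ H.dist x P + 3 * n
    · exact ⟨y, p.end_mem_support, y, Or.inl q.start_mem_support, by omega, h,
        by simp, Conn.refl (SY y (Or.inl q.start_mem_support)) _⟩
    · obtain ⟨v, hv, e⟩ := geo_point hc p hp (k := H.dist x P + 3 * n) (by omega)
      obtain ⟨v', hv', hd⟩ := hT x y z p q r hp hq hr hL v hv
      refine ⟨v, hv, v', hv', by omega, by omega, hd,
        (conn_geo hc v v' fun g hg => Shi g ?_).mono hd⟩
      have t3 := hφ v g
      omega
  obtain ⟨huv, σ, hσ1, hσ2⟩ := geo_two hc p hp hu hv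
  have huv' : H.dist u v ≤ 6 * n := by omega
  have t1 : H.dist u' v' ≤ H.dist u' u + H.dist u v' := hc.dist_triangle
  have t2 : H.dist u v' ≤ H.dist u v + H.dist v v' := hc.dist_triangle
  have c1 : H.dist u' u = H.dist u u' := H.dist_comm
  have c2 : H.dist v' u' = H.dist u' v' := H.dist_comm
  have f1 := hφ u u'
  have f2 := hφ v v'
  have hmid : Conn H S v' u' (30 * n) := by
    rcases hu' with hu' | hu' <;> rcases hv' with hv' | hv'
    · obtain ⟨w, h1, h2⟩ := (geo_two hc q hq hv' hu').2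
      exact ⟨w, by omega, fun t ht => SY t (Or.inl (h2 t ht))⟩
    · exact conn_far hc (by omega) hT q r hq hr (by omega) (fun t ht => SY t (Or.inl ht))
        (fun t ht => SY t (Or.inr ht)) Shi hu' hv' (by omega) (by omega)
    · exact (conn_far hc (by omega) hT q r hq hr (by omega) (fun t ht => SY t (Or.inl ht))
        (fun t ht => SY t (Or.inr ht)) Shi hv' hu' (by omega) (by omega)).symm
    · obtain ⟨w, h1, h2⟩ := (geo_two hc r hr hv' hu').2
      exact ⟨w, by omega, fun t ht => SY t (Or.inr (h2 t ht))⟩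
  exact hfin <| base_lemma iso (fun t => H.dist x t) ψ hφ hψ (u := u) (v := v) (a := H.dist x P)
    (N := N) (l1 := 6 * n) hu1 (by omega)
    ⟨σ, by omega, fun t ht h1 h2 => by
      have g := (geo_two hc p hp hP (hσ2 t ht)).1
      have g2 := hψ P t
      omega⟩
    ((hv4.trans hmid).trans hu4.symm)

end thin

theorem thin_of_iso {V : Type} (H : SimpleGraph V) (hc : H.Connected) (C R : ℕ)
    (iso : ∀ (u : V) (w : H.Walk u u), ∃ Z : Finset V, Z.card ≤ C * (w.length + 1) ∧
      ∀ β1 β2 : V → ZMod 2,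
        (w.darts.map fun d => (β1 d.fst + β1 d.snd) * (β2 d.fst * β2 d.snd)).sum = 1 →
        ∃ c ∈ Z, (∃ c', H.dist c c' ≤ R ∧ β1 c ≠ β1 c') ∧
          (∃ c', H.dist c c' ≤ R ∧ β2 c ≠ β2 c')) :
    ∃ δ : ℕ, ∀ (x y z : V) (p : H.Walk x y) (q : H.Walk y z) (r : H.Walk z x),
      p.length = H.dist x y → q.length = H.dist y z → r.length = H.dist z x →
      ∀ v ∈ p.support, ∃ w, (w ∈ q.support ∨ w ∈ r.support) ∧ H.dist v w ≤ δ := by
  refine ⟨(4 * R + 4) * (80 * C * (4 * R + 4) + 1), fun x y z p q r hp hq hr => ?_⟩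
  obtain ⟨n0, hn0⟩ : ∃ n0, n0 = (4 * R + 4) * (80 * C * (4 * R + 4) + 1) := ⟨_, rfl⟩
  have key : ∀ L k, ThinL H (n0 + k) L → ThinL H n0 L := by
    intro L k
    induction k with
    | zero => exact id
    | succ k ih => exact fun h => ih (thin_step hc iso (by omega) h)
  rw [← hn0]
  refine key _ (p.length + q.length + r.length) ?_ x y z p q r hp hq hr le_rfl
  intro x' y' z' p' q' r' hp' _ _ hL v hv
  have := geo_add hc p' hp' hv
  exact ⟨y', Or.inl q'.start_mem_support, by omega⟩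

end Vale.Agent.P201
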