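import Vale.Agent.P201.Str
import Vale.Agent.P201.Pieces

namespace Vale.Agent.P201

open Finset Equiv

variable {Gen D V G M : Type} [Group G] [AddCommGroup M]

/-- sum of a cochain along a path -/
def chs (m : D → G) (η : G × D → M) : G → List D → M
  | _, [] => 0
  | c, t :: l => η (c, t) + chs m η (c * m t) l

theorem chs_append (m : D → G) (η : G × D → M) (l1 l2 : List D) : ∀ c,
    chs m η c (l1 ++ l2) = chs m η c l1 + chs m η (c * (l1.map m).prod) l2 := by
  induction l1 with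
  | nil => intro c; simp [chs]
  | cons t l ih => intro c; simp [chs, ih, add_assoc, mul_assoc]

/-- a letter as an element of the free group -/
def ltr (s : Gen × Bool) : FreeGroup Gen := FreeGroup.mk ([] ++ [s])

theorem mk_iv (s : Gen × Bool) : ltr (iv s) = (ltr s)⁻¹ := by
  rw [ltr, ltr, FreeGroup.inv_mk]; rfl

theorem mk_cons (s : Gen × Bool) (L : List (Gen × Bool)) :
    FreeGroup.mk (s :: L) = ltr s * FreeGroup.mk L := by
  rw [ltr, FreeGroup.mul_mk]; rfl

/-- label of a path -/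
def LG.wd (Γ : LG Gen D V G) (l : List D) : FreeGroup Gen := FreeGroup.mk (l.map Γ.lab)

/-- the graph together with the Cayley tree -/
def LG.ext (Γ : LG Gen D V G) :
    LG Gen (D ⊕ FreeGroup Gen × (Gen × Bool)) (V ⊕ FreeGroup Gen) G where
  src := Sum.map Γ.src Prod.fst
  rev := Sum.map Γ.rev fun p => (p.1 * ltr p.2, iv p.2)
  lab := Sum.elim Γ.lab Prod.snd
  lt := Γ.lt
  rr := by rintro (t | ⟨w, s⟩) <;> simp [Γ.rr, mk_iv]
  lr := by rintro (t | ⟨w, s⟩) <;> simp [Γ.lr]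
  fold := by
    rintro (t | ⟨w, s⟩) (t' | ⟨w', s'⟩) <;> simp
    exacts [Γ.fold t t', fun a b => ⟨a, b⟩]
  lti := Γ.lti

/-- extension by zero -/
def ext0 {E : Type} (η : G × D → M) (p : G × (D ⊕ E)) : M :=
  Sum.elim (fun t => η (p.1, t)) (fun _ => 0) p.2

variable {Γ : LG Gen D V G} {π : FreeGroup Gen →* G} {η : G × D → M}

theorem LG.Anti.ext (h : Γ.Anti η) : Γ.ext.Anti (ext0 η) := by
  rintro g (t | p)
  · exact h g t
  · simp [ext0, LG.ext]

theorem app_list (hπ : ∀ s, Γ.lt s = π (ltr s)) (h : Γ.Anti η) {p0 u} {g0 : G}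
    {v' : V} (l : List D) : ∀ (S : Str Γ.ext) (w : FreeGroup Gen) (g : G) (v : V),
    IsPath Γ.src Γ.rev v l v' → S.Stage p0 (.inr w) g0 g u (.inl v) →
    ∃ S' : Str Γ.ext, S'.Stage p0 (.inr (w * Γ.wd l)) g0 (g * π (Γ.wd l)) u (.inl v') ∧
      (S'.ms.map (ext0 η)).sum = (S.ms.map (ext0 η)).sum - chs (Γ.lt ∘ Γ.lab) η g l := by
  induction l with
  | nil =>
    intro S w g v hp hS
    have : Γ.wd [] = 1 := rfl
    exact ⟨S, by rw [this, map_one, mul_one, mul_one, ← show v = v' from hp]; exact hS,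
      by simp [chs]⟩
  | cons t l ih =>
    intro S w g v hp hS
    obtain ⟨S1, a, b⟩ := S.app_step (τ := .inr (w, Γ.lab t)) (t := .inl t) (hp.1 ▸ hS) rfl
    obtain ⟨S2, c, e⟩ := ih S1 _ _ _ hp.2 a
    have q : Γ.wd (t :: l) = ltr (Γ.lab t) * Γ.wd l := mk_cons _ _
    refine ⟨S2, ?_, ?_⟩
    · rw [q, map_mul, ← hπ, ← mul_assoc, ← mul_assoc]; exact c
    · rw [e, b]
      simp only [Multiset.map_cons, Multiset.sum_cons, chs]
      have := h g t
      change 0 + (η (g * Γ.lt (Γ.lab t), Γ.rev t) + _) - chs _ _ (g * Γ.lt (Γ.lab t)) _ = _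
      rw [this]; simp only [Function.comp]; abel

/-- existence of a diagram with boundary `W` -/
def Bt (Γ : LG Gen D V G) (π : FreeGroup Gen →* G) (η : G × D → M) (W : FreeGroup Gen)
    (f : G → M) : Prop :=
  ∀ w u, ∃ S : Str Γ.ext, S.Stage (.inr w) (.inr (w * W)) (π w) (π w) u u ∧
    S.φ (S.α S.st) = S.α S.st ∧ (S.ms.map (ext0 η)).sum = - f (π w)

theorem Bt.one (t0 : D) : Bt Γ π η 1 0 := fun w u => by
  obtain ⟨S, a, b, c⟩ := Str.init (Γ := Γ.ext) (.inl t0) (.inr w) (π w) u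
  exact ⟨S, by rwa [mul_one], b, by simp [c]⟩

theorem Bt.conj (hπ : ∀ s, Γ.lt s = π (ltr s)) {W : FreeGroup Gen} {f : G → M}
    (h : Bt Γ π η W f) (a : FreeGroup Gen) : Bt Γ π η (a * W * a⁻¹) fun c => f (c * π a) := by
  induction a using Quot.ind with
  | _ L =>
    rw [FreeGroup.quot_mk_eq_mk]
    induction L with
    | nil => simpa [← FreeGroup.one_eq_mk] using h
    | cons s L ih =>
      intro w u
      obtain ⟨S, a, b, c⟩ := ih (w * ltr s) u
      rw [map_mul, ← hπ] at a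
      obtain ⟨S', a', b', c'⟩ := S.conj_step (τ := .inr (w, s)) (τ' := .inr (_, iv s)) a b rfl
      refine ⟨S', ?_, b', ?_⟩
      · convert a' using 1
        · rfl
        rw [mk_cons s L]
        generalize FreeGroup.mk L = b
        simp [LG.ext, mk_iv, mul_assoc]
      · rw [c', mk_cons s L]
        simp only [Multiset.map_cons, Multiset.sum_cons, c, map_mul, mul_assoc]
        simp [ext0]

theorem Bt.app (hπ : ∀ s, Γ.lt s = π (ltr s)) (hη : Γ.Anti η) {W : FreeGroup Gen}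
    {f : G → M} (h : Bt Γ π η W f) {v : V} {l : List D} (hl : IsPath Γ.src Γ.rev v l v)
    (h1 : π (Γ.wd l) = 1) : Bt Γ π η (W * Γ.wd l) fun c => f c + chs (Γ.lt ∘ Γ.lab) η c l := by
  intro w u
  obtain ⟨S, a, -, c⟩ := h w (.inl v)
  obtain ⟨S1, a1, c1⟩ := app_list hπ hη l S _ _ v hl a
  rw [h1, mul_one, mul_assoc] at a1
  obtain ⟨S2, a2, b2, c2⟩ := S1.close_step a1 u
  exact ⟨S2, a2, b2, by rw [c2, c1, c, neg_add']⟩

/-- the value of a product of conjugates -/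
def LG.val (Γ : LG Gen D V G) (Z : List (FreeGroup Gen × List D)) : FreeGroup Gen :=
  (Z.map fun p => p.1 * Γ.wd p.2 * p.1⁻¹).prod

/-- evaluation of a cochain on a product of conjugates -/
def LG.ev (Γ : LG Gen D V G) (π : FreeGroup Gen →* G) (η : G × D → M) (c : G)
    (Z : List (FreeGroup Gen × List D)) : M :=
  (Z.map fun p => chs (Γ.lt ∘ Γ.lab) η (c * π p.1) p.2).sum

/-- all paths are closed -/
def LG.Cl (Γ : LG Gen D V G) (Z : List (FreeGroup Gen × List D)) : Prop :=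
  ∀ p ∈ Z, ∃ v, IsPath Γ.src Γ.rev v p.2 v

theorem Bt.cert (hπ : ∀ s, Γ.lt s = π (ltr s)) (hη : Γ.Anti η)
    (hc : ∀ v l, IsPath Γ.src Γ.rev v l v → π (Γ.wd l) = 1) (Z : List (FreeGroup Gen × List D)) :
    ∀ {W : FreeGroup Gen} {f : G → M}, Bt Γ π η W f → Γ.Cl Z →
      Bt Γ π η (W * Γ.val Z) fun c => f c + Γ.ev π η c Z := by
  induction Z with
  | nil => intro W f h _; simpa [LG.val, LG.ev] using h
  | cons p Z ih =>
    intro W f h hZ
    obtain ⟨v, hv⟩ := hZ p (by simp)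
    have := ih (((h.conj hπ p.1⁻¹).app hπ hη hv (hc _ _ hv)).conj hπ p.1)
      fun q hq => hZ q (by simp [hq])
    convert this using 1
    · simp [LG.val, mul_assoc]
    · funext c; simp [LG.ev, add_assoc]

theorem no_tree {root u : V} (S : Str Γ.ext) (hF : S.Fin (.inl root) (· = .inl u))
    (h2 : ∀ d ∈ S.A, S.φ d ∈ S.A → S.x (S.φ d) ≠ Γ.ext.rev (S.x d)) :
    ∀ d ∈ S.A, ∃ t, S.x d = .inl t := by
  classical
  have key : ∀ d ∈ S.A, ∀ w s, S.x d = .inr (w, s) → S.φ d ∈ S.A ∧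
      ∃ s', S.x (S.φ d) = .inr (w * ltr s, s') ∧ s' ≠ iv s := by
    intro d hd w s e
    have a := S.sv2 d hd
    rw [e] at a
    have b : S.φ d ∈ S.A := by
      rcases S.φ_mem (Or.inl hd) with h | h | h
      · exact h
      · exact absurd (S.φ.injective (h.trans hF.1.symm)) fun h => S.stA (h ▸ hd)
      · rw [h, hF.2.2] at a; simp [LG.ext] at a
    refine ⟨b, ?_⟩
    have c := h2 d hd b
    rw [S.sv1 _ b] at a
    rw [e] at c
    rcases hx : S.x (S.φ d) with t | ⟨w', s'⟩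
    · rw [hx] at a; simp [LG.ext] at a
    · rw [hx] at a c
      simp [LG.ext] at a c
      exact ⟨s', by rw [a], c a⟩
  intro d hd
  rcases hx : S.x d with t | ⟨w, s⟩
  · exact ⟨t, rfl⟩
  exfalso
  have k2 : ∀ k : ℕ, (S.φ ^ k) d ∈ S.A ∧ ∃ L s', L.length = k ∧ FreeGroup.IsReduced (L ++ [s']) ∧
      S.x ((S.φ ^ k) d) = .inr (w * FreeGroup.mk L, s') := by
    intro k
    induction k with
    | zero => exact ⟨hd, [], s, rfl, by simp, by simpa [← FreeGroup.one_eq_mk] using hx⟩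
    | succ k ih =>
      obtain ⟨a, L, s', b, c, e⟩ := ih
      obtain ⟨f, s'', g, h⟩ := key _ a _ _ e
      rw [pow_succ', Perm.mul_apply]
      refine ⟨f, L ++ [s'], s'', by simp [b], ?_, by rw [g, mul_assoc, ltr, FreeGroup.mul_mk]; rfl⟩
      have : FreeGroup.IsReduced ([s'] ++ [s'']) := by
        rcases s' with ⟨x, y⟩; rcases s'' with ⟨x', y'⟩
        simp only [List.singleton_append, FreeGroup.isReduced_cons_cons, FreeGroup.IsReduced.singleton,
          and_true]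
        rintro rfl
        cases y <;> cases y' <;> simp_all [iv]
      exact c.append_overlap this (by simp)
  refine S.A.finite_toSet.not_infinite (Set.infinite_of_injective_forall_mem
    (f := fun k : ℕ => (S.φ ^ k) d) (fun i j hij => ?_) fun k => (k2 k).1)
  obtain ⟨-, L, s1, a, b, c⟩ := k2 i
  obtain ⟨-, L', s2, a', b', c'⟩ := k2 j
  simp only at hij
  rw [hij, c'] at c
  simp only [Sum.inr.injEq, Prod.mk.injEq, mul_right_inj] at c
  have := congrArg FreeGroup.toWord c.1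
  rw [FreeGroup.toWord_mk, FreeGroup.toWord_mk, FreeGroup.IsReduced.reduce_eq (L := L) (List.IsChain.left_of_append b),
    FreeGroup.IsReduced.reduce_eq (L := L') (List.IsChain.left_of_append b')] at this
  rw [← a, ← a', this]

theorem fin_empty {root u : V} (t0 : D)
    (hM : ∀ R : RM Γ.src Γ.lab Γ.rev root, R.A ⊆ R.B → R.A = ∅)
    (S : Str Γ.ext) (hF : S.Fin (.inl root) (· = .inl u))
    (h1 : ∀ d ∈ S.A, S.x (S.α d) ≠ Γ.ext.rev (S.x d))
    (h2 : ∀ d ∈ S.A, S.φ d ∈ S.A → S.x (S.φ d) ≠ Γ.ext.rev (S.x d)) : S.A = ∅ := by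
  have nt := no_tree S hF h2
  let x : ℕ → D := fun n => Sum.elim id (fun _ => t0) (S.x n)
  have hx : ∀ d ∈ S.A, S.x d = .inl (x d) := fun d hd => by
    obtain ⟨t, e⟩ := nt d hd
    simp [x, e]
  have n1 : ∀ d ∈ S.A, d ≠ S.α S.st := fun d hd e => S.αstA (e ▸ hd)
  have n2 : ∀ d, d ≠ S.st → S.φ d ≠ S.st := fun d hd e => hd (S.φ.injective (e.trans hF.1.symm))
  have n3 : ∀ d ∈ S.A, S.φ d ≠ S.α S.st → S.φ d ∈ S.A := fun d hd e => by
    have := S.φ_mem (Or.inl hd)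
    have := n2 d fun e => S.stA (e ▸ hd)
    tauto
  have Aφ : ∀ d ∈ S.A, skip S.φ (S.α S.st) d ∈ S.A := by
    intro d hd
    by_cases e : S.φ d = S.α S.st
    · rw [skip_eq' e]
      have := S.φ_mem (Or.inr (Or.inr rfl))
      have := n2 _ (S.α_ne S.st)
      have : S.φ (S.α S.st) ≠ S.α S.st := fun h => n1 d hd (S.φ.injective (e.trans h.symm))
      tauto
    · rw [skip_eq (n1 d hd) e]; exact n3 d hd e
  refine hM {
    φ := skip S.φ (S.α S.st), α := S.α, A := S.A, B := S.A, x := x, d0 := S.φ (S.α S.st),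
    αα := S.αα, α_ne := S.α_ne, pl := planar_skip S.pl _, Aα := S.Aα, Aφ := Aφ,
    BA := Subset.rfl, Bφ := fun y => ⟨fun hy => ?_, Aφ y⟩, deg1 := ?_, glue := ?_, cont := ?_,
    root0 := ?_ } Subset.rfl
  · obtain ⟨a, ha, e⟩ := surj_on_of_inj_on_of_card_le (s := S.A) (t := S.A)
      (fun a _ => skip S.φ (S.α S.st) a) Aφ (fun _ _ _ _ h => Equiv.injective _ h) le_rfl _ hy
    exact (Equiv.injective _ e) ▸ ha
  · intro d hd e
    have hd' := S.Aα d hd
    by_cases q : S.φ (S.α d) = S.α S.st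
    · rw [skip_eq' q] at e; exact e.symm
    rw [skip_eq (n1 _ hd') q] at e
    refine absurd (Γ.ext.fold _ _ ?_ ?_) (h1 _ hd')
    · rw [← S.sv2 _ hd', e, S.αα, S.sv1 d hd]
    · rw [Γ.ext.lr, S.αα, S.labα d hd, iv_iv]
  · intro y hy hy'
    have a := S.labα y hy
    have b := h1 y hy
    rw [hx y hy, hx _ hy'] at a b
    exact ⟨a, fun e => b (congrArg Sum.inl e)⟩
  · intro y hy e
    have q : S.φ y ≠ S.α S.st := fun q => e (skip_eq' q)
    rw [skip_eq (n1 y hy) q]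
    have hy' := n3 y hy q
    have a := (S.sv1 _ hy').symm.trans (S.sv2 y hy)
    have b := h2 y hy hy'
    rw [hx y hy, hx _ hy'] at a b
    exact ⟨Sum.inl.inj a, fun e => b (congrArg Sum.inl e)⟩
  · intro h
    have a := (S.sv1 _ h).symm.trans hF.2.1
    rw [hx _ h] at a
    exact Sum.inl.inj a

theorem vk {root u : V} (t0 : D) (hπ : ∀ s, Γ.lt s = π (ltr s)) (hη : Γ.Anti η)
    (hc : ∀ v l, IsPath Γ.src Γ.rev v l v → π (Γ.wd l) = 1)
    (hM : ∀ R : RM Γ.src Γ.lab Γ.rev root, R.A ⊆ R.B → R.A = ∅)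
    {Z : List (FreeGroup Gen × List D)} (hZ : Γ.Cl Z) {l : List D}
    (hl : IsPath Γ.src Γ.rev u l root) (h : Γ.val Z * Γ.wd l = 1) (h1 : π (Γ.wd l) = 1)
    (w : FreeGroup Gen) : Γ.ev π η (π w) Z + chs (Γ.lt ∘ Γ.lab) η (π w) l = 0 := by
  obtain ⟨S, a, -, c⟩ := Bt.cert hπ hη hc Z (Bt.one t0) hZ w (.inl u)
  obtain ⟨S1, a1, c1⟩ := app_list hπ hη l S _ _ u hl a
  rw [h1, mul_one, one_mul, mul_assoc, h, mul_one] at a1
  obtain ⟨S2, a2, c2⟩ := S1.fin_step a1
  obtain ⟨S3, a3, b3, e1, e2⟩ := Str.exists_min _ S2 rfl a2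
  have := b3.2 M _ hη.ext
  rw [c2, c1, c, Str.ms, fin_empty t0 hM S3 a3 e1 e2] at this
  simp only [Pi.zero_apply, zero_add, empty_val, Multiset.map_zero, Multiset.sum_zero] at this
  rw [← neg_eq_zero, this]; abel

end Vale.Agent.P201
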